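import Vale.Agent.Lib.P310.Full.Poly

/-!
# The expression that computes the adjacency matrices of the graphs of a system
-/

namespace Vale.Agent.Lib.P310.Full

open Exp

/-- A cell of the header of the input. -/
def hd (i : ℕ) : Exp := .read (.const i)

/-- Conjunction. -/
def andE (a b : Exp) : Exp := .ite a (.ite b (.const 1) (.const 0)) (.const 0)
/-- Disjunction. -/
def orE (a b : Exp) : Exp := .ite a (.const 1) (.ite b (.const 1) (.const 0))
/-- Negation. -/
def notE (a : Exp) : Exp := .ite a (.const 0) (.const 1)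
/-- Equality. -/
def eqE (a b : Exp) : Exp := .ite (.sub a b) (.const 0) (.ite (.sub b a) (.const 0) (.const 1))
/-- Order. -/
def ltE (a b : Exp) : Exp := .ite (.sub b a) (.const 1) (.const 0)
/-- A disjunction over three cases. -/
def any3 (f : Fin 3 → Exp) : Exp := orE (f 0) (orE (f 1) (f 2))
/-- A conjunction over three cases. -/
def all3 (f : Fin 3 → Exp) : Exp := andE (f 0) (andE (f 1) (f 2))

/-- The data of the gates of a system, as expressions. -/
structure Oracles where
  bot : Exp → Exp
  top : Exp → Exp
  lam : Exp → Exp → Exp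
  u : Exp → Exp → Exp → Exp → Exp

/-- The parts of a vertex number: leaf part, local assignment, constraint, values. -/
def lfE (y : Exp) : Exp := .mod y (hd 1)
def enE (y : Exp) : Exp := .div y (hd 1)
def pnE (y : Exp) : Exp := .div (enE y) (.const 4)
def abE (y : Exp) : Exp := .mod (enE y) (.const 4)
def alE (y : Exp) : Exp := .div (abE y) (.const 2)
def beE (y : Exp) : Exp := .mod (abE y) (.const 2)

/-- The number of chain constraints, and the number of transfer constraints. -/
def bigL : Exp := .mul (.mul (hd 7) (hd 2)) (hd 3)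
def bigT : Exp := .mul (hd 7) (hd 2)

/-- The parts of a constraint number. -/
def isLk (p : Exp) : Exp := ltE p bigL
def gL (p : Exp) : Exp := .div p (.mul (hd 2) (hd 3))
def cL (p : Exp) : Exp := .mod (.div p (hd 3)) (hd 2)
def lL (p : Exp) : Exp := .mod p (hd 3)
def rT (p : Exp) : Exp := .sub p bigL
def isTr (p : Exp) : Exp := ltE (rT p) bigT
def gT (p : Exp) : Exp := .div (rT p) (hd 2)
def cT (p : Exp) : Exp := .mod (rT p) (hd 2)
def rC (p : Exp) : Exp := .sub (rT p) bigT
def fC (p : Exp) : Exp := .div (rC p) (hd 2)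
def cC (p : Exp) : Exp := .mod (rC p) (hd 2)

/-- The parts of a token number. -/
def tI (c : Exp) : Exp := .div c (hd 5)
def tR (c : Exp) : Exp := .mod c (hd 5)

/-- The numbers of the variables. -/
def cutV (f μ c : Exp) : Exp :=
  .add (.const 1) (.mul (.const 4) (.add (.mul (.add (.mul f (.const 3)) μ) (hd 2)) c))
def topV (g c : Exp) : Exp :=
  .add (.add (.const 1) (.mul (.const 4) (.add (.mul g (hd 2)) c))) (.const 1)
def midV (g c l : Exp) : Exp :=
  .add (.add (.const 1) (.mul (.const 4) (.add (.mul (.add (.mul g (hd 2)) c) (hd 3)) l))) (.const 2)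
def bitV (g l : Exp) : Exp :=
  .add (.add (.const 1) (.mul (.const 4) (.add (.mul g (hd 3)) l))) (.const 3)

variable (O : Oracles)

/-- The variable of the bottom cut of a gate at a token (zero if the gate has no bottom). -/
def botVar (g c : Exp) : Exp :=
  .ite (O.bot g) (cutV (.div (.sub (O.bot g) (.const 1)) (.const 3))
    (.mod (.sub (O.bot g) (.const 1)) (.const 3)) c) (.const 0)

/-- The number of the token translated by a gate. -/
def shiftE (g c : Exp) : Exp :=
  .add (.mul (tI c) (hd 5)) (.read (.add (.add (hd 19) (.mul (tR c) (hd 5))) (O.lam g (tI c))))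

/-- The variable of the top cut of a gate at the translated token. -/
def topCutV (g c : Exp) : Exp :=
  cutV (.div (O.top g) (.const 2)) (.mod (O.top g) (.const 2)) (shiftE O g c)

/-- The coefficient of the bit variable at a position of a chain. -/
def vE (g c l : Exp) : Exp := O.u g (tI c) (tR c) (.mod l (hd 4))

/-- The twist at a position of a chain. -/
def twE (b g c l : Exp) : Exp :=
  .ite l (.const 0) (.mul b (andE (eqE g (hd 10)) (notE (tI c))))

/-- The numbers of the variables of the three entries of a local assignment. -/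
def vcE : Fin 3 → Exp → Exp
  | 0, y => .ite (isLk (pnE y)) (bitV (gL (pnE y)) (lL (pnE y)))
      (.ite (isTr (pnE y)) (botVar O (gT (pnE y)) (cT (pnE y)))
        (cutV (fC (pnE y)) (.const 0) (cC (pnE y))))
  | 1, y => .ite (isLk (pnE y))
      (.ite (lL (pnE y)) (midV (gL (pnE y)) (cL (pnE y)) (lL (pnE y)))
        (botVar O (gL (pnE y)) (cL (pnE y))))
      (.ite (isTr (pnE y)) (topCutV O (gT (pnE y)) (cT (pnE y)))
        (cutV (fC (pnE y)) (.const 1) (cC (pnE y))))
  | 2, y => .ite (isLk (pnE y))
      (.ite (ltE (.add (lL (pnE y)) (.const 1)) (hd 3))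
        (midV (gL (pnE y)) (cL (pnE y)) (.add (lL (pnE y)) (.const 1)))
        (topV (gL (pnE y)) (cL (pnE y))))
      (.ite (isTr (pnE y)) (topV (gT (pnE y)) (cT (pnE y)))
        (cutV (fC (pnE y)) (.const 2) (cC (pnE y))))

/-- The values of the three entries of a local assignment. -/
def vaE (b : Exp) : Fin 3 → Exp → Exp
  | 0, y => .ite (isLk (pnE y)) (beE y) (alE y)
  | 1, y => .ite (isLk (pnE y)) (alE y) (beE y)
  | 2, y => .ite (isLk (pnE y))
      (.mod (.add (.add (alE y) (.mul (vE O (gL (pnE y)) (cL (pnE y)) (lL (pnE y))) (beE y)))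
        (twE b (gL (pnE y)) (cL (pnE y)) (lL (pnE y)))) (.const 2))
      (.mod (.add (alE y) (beE y)) (.const 2))

/-- Two entries have the same variable. -/
def commonE (y₁ y₂ : Exp) (i j : Fin 3) : Exp :=
  andE (vcE O i y₁) (eqE (vcE O i y₁) (vcE O j y₂))

/-- The adjacency of two local assignments. -/
def elemAdjE (b y₁ y₂ : Exp) : Exp :=
  andE (notE (eqE (pnE y₁) (pnE y₂)))
    (andE (any3 fun i => any3 fun j => commonE O y₁ y₂ i j)
      (all3 fun i => all3 fun j => orE (notE (commonE O y₁ y₂ i j))
        (eqE (vaE O b i y₁) (vaE O b j y₂))))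

/-- The flag of a local assignment. -/
def flagE (y : Exp) : Exp :=
  .ite (isLk (pnE y)) (andE (notE (lL (pnE y))) (notE (O.bot (gL (pnE y)))))
    (.ite (isTr (pnE y)) (notE (O.bot (gT (pnE y)))) (.const 0))

/-- The number of pendant leaves of a local assignment. -/
def leafCountE (y : Exp) : Exp :=
  .mul (.add (.add (.mul (.const 2) (pnE y)) (andE (flagE O y) (alE y))) (.const 1))
    (.add (.mul (.const 4) (hd 9)) (.const 1))

/-- The adjacency of two vertices. -/
def vtxAdjE (b y₁ y₂ : Exp) : Exp :=
  .ite (lfE y₁)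
    (.ite (lfE y₂) (.const 0)
      (andE (eqE (enE y₁) (enE y₂)) (ltE (.sub (lfE y₁) (.const 1)) (leafCountE O y₂))))
    (.ite (lfE y₂)
      (andE (eqE (enE y₁) (enE y₂)) (ltE (.sub (lfE y₂) (.const 1)) (leafCountE O y₁)))
      (elemAdjE O b y₁ y₂))

/-- The cell of the output at the position in the register `2`: the adjacency matrix of the first
graph followed by that of the second graph. -/
def cellE : Exp :=
  vtxAdjE O (.div (.var 2) (.mul (hd 0) (hd 0)))
    (.div (.mod (.var 2) (.mul (hd 0) (hd 0))) (hd 0))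
    (.mod (.mod (.var 2) (.mul (hd 0) (hd 0))) (hd 0))

end Vale.Agent.Lib.P310.Full
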