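import Vale.Agent.Lib.P310.Full.Core.ProgSize

/-!
# An explicit numbering of the constraints and vertices of a system
-/

namespace Vale.Agent.Lib.P310.FC

/-- A numbering of a finite group. -/
class HasVn (V : Type) [Fintype V] where
  vn : V ≃ Fin (Fintype.card V)

lemma dm_div {a b d : ℕ} (hb : b < d) : (a * d + b) / d = a := by
  rw [Nat.add_comm, Nat.add_mul_div_right _ _ (by omega), Nat.div_eq_of_lt hb, Nat.zero_add]

lemma dm_mod {a b d : ℕ} (hb : b < d) : (a * d + b) % d = b := by
  rw [Nat.add_comm, Nat.add_mul_mod_self_right, Nat.mod_eq_of_lt hb]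

lemma dm_inj {a b a' b' d : ℕ} (hb : b < d) (hb' : b' < d) (h : a * d + b = a' * d + b') :
    a = a' ∧ b = b' := by
  constructor
  · rw [← dm_div (a := a) hb, h, dm_div hb']
  · rw [← dm_mod (a := a) hb, h, dm_mod hb']

lemma dm_lt {a b c d : ℕ} (ha : a < c) (hb : b < d) : a * d + b < c * d := by
  have h1 : (a + 1) * d ≤ c * d := Nat.mul_le_mul_right _ ha
  have h2 : (a + 1) * d = a * d + d := by ring
  omega

variable {ρ : ℕ} {V : Type} [AddCommGroup V] [Fintype V] [DecidableEq V] [HasVn V]

/-- The number of a token. -/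
def tokN (c : Tok ρ V) : ℕ := c.1.val * Fintype.card V + (HasVn.vn c.2 : Fin _).val

lemma tokN_lt (c : Tok ρ V) : tokN c < ρ * Fintype.card V :=
  dm_lt c.1.isLt (Fin.isLt _)

lemma tokN_inj {c c' : Tok ρ V} (h : tokN c = tokN c') : c = c' := by
  obtain ⟨h1, h2⟩ := dm_inj (Fin.isLt _) (Fin.isLt _) h
  exact Prod.ext (Fin.ext h1) (HasVn.vn.injective (Fin.ext h2))

variable (S : Sys ρ V)

/-- The number of a constraint. -/
def pieceN : Piece S → ℕ
  | .link g c l => (g.val * (ρ * Fintype.card V) + tokN c) * (2 * ρ * S.m) + l.val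
  | .tr g c => S.nG * (ρ * Fintype.card V) * (2 * ρ * S.m) + (g.val * (ρ * Fintype.card V) + tokN c)
  | .con f c => S.nG * (ρ * Fintype.card V) * (2 * ρ * S.m) + S.nG * (ρ * Fintype.card V) +
      (f.val * (ρ * Fintype.card V) + tokN c)

lemma pieceN_lt (p : Piece S) : pieceN S p < numPieces S := by
  rw [numPieces_eq]
  cases p with
  | link g c l =>
    have h1 := dm_lt g.isLt (tokN_lt c)
    have h2 := dm_lt h1 l.isLt
    simp only [pieceN]
    omega
  | tr g c =>
    have h1 := dm_lt g.isLt (tokN_lt c)
    simp only [pieceN]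
    omega
  | con f c =>
    have h1 := dm_lt f.isLt (tokN_lt c)
    simp only [pieceN]
    omega

lemma pieceN_inj {p p' : Piece S} (h : pieceN S p = pieceN S p') : p = p' := by
  cases p with
  | link g c l =>
    have h1 := dm_lt g.isLt (tokN_lt c)
    have h2 := dm_lt h1 l.isLt
    cases p' with
    | link g' c' l' =>
      simp only [pieceN] at h
      have h3 := dm_lt g'.isLt (tokN_lt c')
      obtain ⟨h4, h5⟩ := dm_inj l.isLt l'.isLt h
      obtain ⟨h6, h7⟩ := dm_inj (tokN_lt c) (tokN_lt c') h4
      rw [show g = g' from Fin.ext h6, tokN_inj h7, show l = l' from Fin.ext h5]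
    | tr g' c' =>
      simp only [pieceN] at h
      omega
    | con f' c' =>
      simp only [pieceN] at h
      omega
  | tr g c =>
    have h1 := dm_lt g.isLt (tokN_lt c)
    cases p' with
    | link g' c' l' =>
      have h2 := dm_lt g'.isLt (tokN_lt c')
      have h3 := dm_lt h2 l'.isLt
      simp only [pieceN] at h
      omega
    | tr g' c' =>
      simp only [pieceN] at h
      have h4 : g.val * (ρ * Fintype.card V) + tokN c = g'.val * (ρ * Fintype.card V) + tokN c' := by
        omega
      obtain ⟨h6, h7⟩ := dm_inj (tokN_lt c) (tokN_lt c') h4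
      rw [show g = g' from Fin.ext h6, tokN_inj h7]
    | con f' c' =>
      simp only [pieceN] at h
      omega
  | con f c =>
    have h1 := dm_lt f.isLt (tokN_lt c)
    cases p' with
    | link g' c' l' =>
      have h2 := dm_lt g'.isLt (tokN_lt c')
      have h3 := dm_lt h2 l'.isLt
      simp only [pieceN] at h
      omega
    | tr g' c' =>
      have h2 := dm_lt g'.isLt (tokN_lt c')
      simp only [pieceN] at h
      omega
    | con f' c' =>
      simp only [pieceN] at h
      have h4 : f.val * (ρ * Fintype.card V) + tokN c = f'.val * (ρ * Fintype.card V) + tokN c' := by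
        omega
      obtain ⟨h6, h7⟩ := dm_inj (tokN_lt c) (tokN_lt c') h4
      rw [show f = f' from Fin.ext h6, tokN_inj h7]

/-- The numbering of constraints as an equivalence. -/
noncomputable instance numberedOf : Numbered S where
  nu := Equiv.ofBijective (fun p => ⟨pieceN S p, pieceN_lt S p⟩) <| by
    rw [Fintype.bijective_iff_injective_and_card]
    refine ⟨fun p p' h => pieceN_inj S (Fin.ext_iff.mp h), ?_⟩
    rw [Fintype.card_fin]
    rfl

lemma nu_val (p : Piece S) : (Numbered.nu p : Fin (numPieces S)).val = pieceN S p := rfl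

/-- The number of choices for the leaf part of a vertex. -/
noncomputable def leafP : ℕ := 2 * numPieces S * (4 * numPieces S + 1) + 1

/-- The number of a vertex. -/
noncomputable def vtxN (v : Vtx S) : ℕ :=
  (pieceN S v.1.1 * 4 + (2 * v.1.2.1.val + v.1.2.2.val)) * leafP S +
    (match v.2 with
     | none => 0
     | some i => i.val + 1)

lemma zmod2_val_lt (a : ZMod 2) : a.val < 2 := ZMod.val_lt a

lemma ab_lt (a b : ZMod 2) : 2 * a.val + b.val < 4 := by
  have := zmod2_val_lt a
  have := zmod2_val_lt b
  omega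

lemma leaf_lt (l : Option (Fin (2 * numPieces S * (4 * numPieces S + 1)))) :
    (match l with
     | none => 0
     | some i => i.val + 1) < leafP S := by
  unfold leafP
  cases l with
  | none => simp
  | some i =>
    have := i.isLt
    simp only
    omega

lemma vtxN_lt (v : Vtx S) : vtxN S v < 4 * numPieces S * leafP S := by
  have h1 := dm_lt (pieceN_lt S v.1.1) (ab_lt v.1.2.1 v.1.2.2)
  have h2 := dm_lt h1 (leaf_lt S v.2)
  rwa [Nat.mul_comm 4] 

lemma vtxN_inj {v v' : Vtx S} (h : vtxN S v = vtxN S v') : v = v' := by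
  obtain ⟨⟨p, a, b⟩, l⟩ := v
  obtain ⟨⟨p', a', b'⟩, l'⟩ := v'
  simp only [vtxN] at h
  obtain ⟨h1, h2⟩ := dm_inj (leaf_lt S l) (leaf_lt S l') h
  obtain ⟨h3, h4⟩ := dm_inj (ab_lt a b) (ab_lt a' b') h1
  have h5 := pieceN_inj S h3
  have h6 : a.val = a'.val := by
    have := zmod2_val_lt b
    have := zmod2_val_lt b'
    omega
  have h7 : b.val = b'.val := by omega
  have h8 : a = a' := by
    have : a = a'.val := by rw [← h6]; simp
    rw [this]
    simp
  have h9 : b = b' := by
    have : b = b'.val := by rw [← h7]; simp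
    rw [this]
    simp
  have h10 : l = l' := by
    cases l with
    | none =>
      cases l' with
      | none => rfl
      | some i => simp at h2
    | some i =>
      cases l' with
      | none => simp at h2
      | some i' =>
        simp only [Nat.add_right_cancel_iff] at h2
        rw [Fin.ext h2]
  rw [h5, h8, h9, h10]

lemma card_vtx_eq' : Fintype.card (Vtx S) = 4 * numPieces S * leafP S := by
  rw [card_vtx_eq]
  rfl

/-- The numbering of vertices as an equivalence. -/
noncomputable def vtxEquiv : Vtx S ≃ Fin (4 * numPieces S * leafP S) :=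
  Equiv.ofBijective (fun v => ⟨vtxN S v, vtxN_lt S v⟩) <| by
    rw [Fintype.bijective_iff_injective_and_card]
    refine ⟨fun v v' h => vtxN_inj S (Fin.ext_iff.mp h), ?_⟩
    rw [card_vtx_eq']
    simp

end Vale.Agent.Lib.P310.FC
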