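import Vale.Agent.Lib.P310.Full.AdjDefs
import Vale.Agent.Lib.P310.Full.Number

/-!
# Correctness of the adjacency expression: numbers of constraints and variables
-/

namespace Vale.Agent.Lib.P310.Full

open FC

section Logic

variable {x env : ℕ → ℕ}

lemma ev_hd (i : ℕ) : (hd i).eval x env = x i := rfl

lemma ev_and (a b : Exp) :
    (andE a b).eval x env = if a.eval x env ≠ 0 ∧ b.eval x env ≠ 0 then 1 else 0 := by
  simp only [andE, Exp.eval]
  by_cases h : a.eval x env = 0 <;> by_cases h' : b.eval x env = 0 <;> simp [h, h']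

lemma ev_or (a b : Exp) :
    (orE a b).eval x env = if a.eval x env ≠ 0 ∨ b.eval x env ≠ 0 then 1 else 0 := by
  simp only [orE, Exp.eval]
  by_cases h : a.eval x env = 0 <;> by_cases h' : b.eval x env = 0 <;> simp [h, h']

lemma ev_not (a : Exp) : (notE a).eval x env = if a.eval x env = 0 then 1 else 0 := by
  simp only [notE, Exp.eval]

lemma ev_eq (a b : Exp) : (eqE a b).eval x env = if a.eval x env = b.eval x env then 1 else 0 := by
  show (if a.eval x env - b.eval x env = 0 then
    (if b.eval x env - a.eval x env = 0 then 1 else 0) else 0) = _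
  by_cases h : a.eval x env = b.eval x env
  · rw [if_pos h, if_pos (by omega), if_pos (by omega)]
  · rw [if_neg h]
    rcases Nat.lt_or_gt_of_ne h with h1 | h1
    · rw [if_pos (by omega), if_neg (by omega)]
    · rw [if_neg (by omega)]

lemma ev_lt (a b : Exp) : (ltE a b).eval x env = if a.eval x env < b.eval x env then 1 else 0 := by
  show (if b.eval x env - a.eval x env = 0 then 0 else 1) = _
  by_cases h : a.eval x env < b.eval x env
  · rw [if_pos h, if_neg (by omega)]
  · rw [if_neg h, if_pos (by omega)]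

lemma ev_any3 (f : Fin 3 → Exp) :
    (any3 f).eval x env = if ∃ i, (f i).eval x env ≠ 0 then 1 else 0 := by
  simp only [any3, ev_or]
  by_cases h0 : (f 0).eval x env = 0 <;> by_cases h1 : (f 1).eval x env = 0 <;>
    by_cases h2 : (f 2).eval x env = 0 <;> simp [Fin.exists_fin_succ, h0, h1, h2]

lemma ev_all3 (f : Fin 3 → Exp) :
    (all3 f).eval x env = if ∀ i, (f i).eval x env ≠ 0 then 1 else 0 := by
  simp only [all3, ev_and]
  by_cases h0 : (f 0).eval x env = 0 <;> by_cases h1 : (f 1).eval x env = 0 <;>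
    by_cases h2 : (f 2).eval x env = 0 <;> simp [Fin.forall_fin_succ, h0, h1, h2]

end Logic

variable {ρ : ℕ} {V : Type} [AddCommGroup V] [Fintype V] [DecidableEq V] [HasVn V]
  (S : Sys ρ V)

/-- The number of an optional member of a family. -/
def muN : Option Bool → ℕ
  | some false => 0
  | some true => 1
  | none => 2

lemma muN_lt (μ : Option Bool) : muN μ < 3 := by
  cases μ with
  | none => simp [muN]
  | some b => cases b <;> simp [muN]

lemma muN_inj {μ μ' : Option Bool} (h : muN μ = muN μ') : μ = μ' := by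
  revert h
  revert μ μ'
  decide

variable {S}

/-- The number of a variable. -/
def vcode : XVar S → ℕ
  | .cut f μ c => 1 + 4 * ((f.val * 3 + muN μ) * (ρ * Fintype.card V) + tokN c)
  | .top g c => 1 + 4 * (g.val * (ρ * Fintype.card V) + tokN c) + 1
  | .mid g c l => 1 + 4 * ((g.val * (ρ * Fintype.card V) + tokN c) * (2 * ρ * S.m) + l.val) + 2
  | .bit g l => 1 + 4 * (g.val * (2 * ρ * S.m) + l.val) + 3

lemma vcode_pos (z : XVar S) : vcode z ≠ 0 := by
  cases z <;> simp only [vcode] <;> omega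

lemma vcode_inj {z z' : XVar S} (h : vcode z = vcode z') : z = z' := by
  cases z with
  | cut f μ c =>
    cases z' with
    | cut f' μ' c' =>
      simp only [vcode] at h
      obtain ⟨h1, h2⟩ := dm_inj (tokN_lt c) (tokN_lt c') (show
        (f.val * 3 + muN μ) * (ρ * Fintype.card V) + tokN c =
        (f'.val * 3 + muN μ') * (ρ * Fintype.card V) + tokN c' by omega)
      obtain ⟨h3, h4⟩ := dm_inj (muN_lt μ) (muN_lt μ') h1
      rw [Fin.ext h3, muN_inj h4, tokN_inj h2]
    | top g' c' => simp only [vcode] at h; omega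
    | mid g' c' l' => simp only [vcode] at h; omega
    | bit g' l' => simp only [vcode] at h; omega
  | top g c =>
    cases z' with
    | cut f' μ' c' => simp only [vcode] at h; omega
    | top g' c' =>
      simp only [vcode] at h
      obtain ⟨h1, h2⟩ := dm_inj (tokN_lt c) (tokN_lt c') (show
        g.val * (ρ * Fintype.card V) + tokN c = g'.val * (ρ * Fintype.card V) + tokN c' by omega)
      rw [Fin.ext h1, tokN_inj h2]
    | mid g' c' l' => simp only [vcode] at h; omega
    | bit g' l' => simp only [vcode] at h; omega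
  | mid g c l =>
    cases z' with
    | cut f' μ' c' => simp only [vcode] at h; omega
    | top g' c' => simp only [vcode] at h; omega
    | mid g' c' l' =>
      simp only [vcode] at h
      obtain ⟨h1, h2⟩ := dm_inj l.isLt l'.isLt (show
        (g.val * (ρ * Fintype.card V) + tokN c) * (2 * ρ * S.m) + l.val =
        (g'.val * (ρ * Fintype.card V) + tokN c') * (2 * ρ * S.m) + l'.val by omega)
      obtain ⟨h3, h4⟩ := dm_inj (tokN_lt c) (tokN_lt c') h1
      rw [Fin.ext h3, tokN_inj h4, Fin.ext h2]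
    | bit g' l' => simp only [vcode] at h; omega
  | bit g l =>
    cases z' with
    | cut f' μ' c' => simp only [vcode] at h; omega
    | top g' c' => simp only [vcode] at h; omega
    | mid g' c' l' => simp only [vcode] at h; omega
    | bit g' l' =>
      simp only [vcode] at h
      obtain ⟨h1, h2⟩ := dm_inj l.isLt l'.isLt (show
        g.val * (2 * ρ * S.m) + l.val = g'.val * (2 * ρ * S.m) + l'.val by omega)
      rw [Fin.ext h1, Fin.ext h2]

variable (S)

/-- The header of an input. -/
structure HeaderOK (x : ℕ → ℕ) : Prop where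
  h0 : x 0 = 4 * numPieces S * leafP S
  h1 : x 1 = leafP S
  h2 : x 2 = ρ * Fintype.card V
  h3 : x 3 = 2 * ρ * S.m
  h4 : x 4 = S.m
  h5 : x 5 = Fintype.card V
  h7 : x 7 = S.nG
  h9 : x 9 = numPieces S
  h10 : x 10 = S.gt.val
  hadd : ∀ a b : V, x (x 19 + (HasVn.vn a : Fin _).val * Fintype.card V + (HasVn.vn b : Fin _).val) =
    (HasVn.vn (a + b) : Fin _).val

/-- The number of a bottom cut. -/
def botCode {nF : ℕ} : Option (Fin (nF + 1) × Option Bool) → ℕ
  | none => 0
  | some p => 1 + 3 * p.1.val + muN p.2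

/-- The number of a top cut. -/
def topCode {nF : ℕ} (p : Fin (nF + 1) × Bool) : ℕ := 2 * p.1.val + p.2.toNat

/-- What the oracles of the gates must compute. -/
structure OracleSpec (O : Oracles) (x : ℕ → ℕ) : Prop where
  bot : ∀ (env : ℕ → ℕ) (a : Exp) (g : Fin S.nG), a.eval x env = g.val →
    (O.bot a).eval x env = botCode (S.bot g)
  top : ∀ (env : ℕ → ℕ) (a : Exp) (g : Fin S.nG), a.eval x env = g.val →
    (O.top a).eval x env = topCode (S.top g)
  lam : ∀ (env : ℕ → ℕ) (a b : Exp) (g : Fin S.nG) (i : Fin ρ), a.eval x env = g.val →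
    b.eval x env = i.val → (O.lam a b).eval x env = (HasVn.vn (S.lam g i) : Fin _).val
  u : ∀ (env : ℕ → ℕ) (a b c d : Exp) (g : Fin S.nG) (i : Fin ρ) (r : V) (q : Fin S.m),
    a.eval x env = g.val → b.eval x env = i.val → c.eval x env = (HasVn.vn r : Fin _).val →
    d.eval x env = q.val → (O.u a b c d).eval x env = (S.u g i r q).val

variable {x env : ℕ → ℕ} {S}

section Fields

variable (hx : HeaderOK S x) {pe : Exp}

include hx

lemma link_fields {g : Fin S.nG} {c : Tok ρ V} {l : Fin (2 * ρ * S.m)}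
    (hp : pe.eval x env = pieceN S (.link g c l)) :
    (isLk pe).eval x env = 1 ∧ (gL pe).eval x env = g.val ∧ (cL pe).eval x env = tokN c ∧
      (lL pe).eval x env = l.val := by
  have h1 := dm_lt g.isLt (tokN_lt c)
  have h2 := dm_lt h1 l.isLt
  have hlt : 0 < 2 * ρ * S.m := lt_of_le_of_lt (Nat.zero_le _) l.isLt
  have hlt2 : 0 < ρ * Fintype.card V := lt_of_le_of_lt (Nat.zero_le _) (tokN_lt c)
  simp only [pieceN] at hp
  refine ⟨?_, ?_, ?_, ?_⟩
  · simp only [isLk, bigL, ev_lt, hp, Exp.eval, ev_hd, hx.h7, hx.h2, hx.h3]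
    rw [if_pos h2]
  · simp only [gL, Exp.eval, ev_hd, hp, hx.h2, hx.h3]
    rw [Nat.mul_comm (ρ * Fintype.card V), ← Nat.div_div_eq_div_mul, dm_div l.isLt,
      dm_div (tokN_lt c)]
  · simp only [cL, Exp.eval, ev_hd, hp, hx.h2, hx.h3]
    rw [dm_div l.isLt, dm_mod (tokN_lt c)]
  · simp only [lL, Exp.eval, ev_hd, hp, hx.h3]
    exact dm_mod l.isLt

lemma tr_fields {g : Fin S.nG} {c : Tok ρ V} (hp : pe.eval x env = pieceN S (.tr g c)) :
    (isLk pe).eval x env = 0 ∧ (isTr pe).eval x env = 1 ∧ (gT pe).eval x env = g.val ∧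
      (cT pe).eval x env = tokN c := by
  have h1 := dm_lt g.isLt (tokN_lt c)
  simp only [pieceN] at hp
  have hr : (rT pe).eval x env = g.val * (ρ * Fintype.card V) + tokN c := by
    simp only [rT, bigL, Exp.eval, ev_hd, hp, hx.h7, hx.h2, hx.h3]
    omega
  refine ⟨?_, ?_, ?_, ?_⟩
  · simp only [isLk, bigL, ev_lt, hp, Exp.eval, ev_hd, hx.h7, hx.h2, hx.h3]
    rw [if_neg (by omega)]
  · simp only [isTr, bigT, ev_lt, hr, Exp.eval, ev_hd, hx.h7, hx.h2]
    rw [if_pos h1]
  · simp only [gT, Exp.eval, ev_hd, hr, hx.h2]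
    exact dm_div (tokN_lt c)
  · simp only [cT, Exp.eval, ev_hd, hr, hx.h2]
    exact dm_mod (tokN_lt c)

lemma con_fields {f : Fin S.nF} {c : Tok ρ V} (hp : pe.eval x env = pieceN S (.con f c)) :
    (isLk pe).eval x env = 0 ∧ (isTr pe).eval x env = 0 ∧ (fC pe).eval x env = f.val ∧
      (cC pe).eval x env = tokN c := by
  have h1 := dm_lt f.isLt (tokN_lt c)
  simp only [pieceN] at hp
  have hr : (rT pe).eval x env = S.nG * (ρ * Fintype.card V) + (f.val * (ρ * Fintype.card V) + tokN c) := by
    simp only [rT, bigL, Exp.eval, ev_hd, hp, hx.h7, hx.h2, hx.h3]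
    omega
  have hr2 : (rC pe).eval x env = f.val * (ρ * Fintype.card V) + tokN c := by
    simp only [rC, bigT, Exp.eval, ev_hd, hr, hx.h7, hx.h2]
    omega
  refine ⟨?_, ?_, ?_, ?_⟩
  · simp only [isLk, bigL, ev_lt, hp, Exp.eval, ev_hd, hx.h7, hx.h2, hx.h3]
    rw [if_neg (by omega)]
  · simp only [isTr, bigT, ev_lt, hr, Exp.eval, ev_hd, hx.h7, hx.h2]
    rw [if_neg (by omega)]
  · simp only [fC, Exp.eval, ev_hd, hr2, hx.h2]
    exact dm_div (tokN_lt c)
  · simp only [cC, Exp.eval, ev_hd, hr2, hx.h2]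
    exact dm_mod (tokN_lt c)

lemma tok_fields {ce : Exp} {c : Tok ρ V} (hc : ce.eval x env = tokN c) :
    (tI ce).eval x env = c.1.val ∧ (tR ce).eval x env = (HasVn.vn c.2 : Fin _).val := by
  simp only [tI, tR, Exp.eval, ev_hd, hc, hx.h5, tokN]
  exact ⟨dm_div (Fin.isLt _), dm_mod (Fin.isLt _)⟩

/-- The fields of a vertex number. -/
lemma vtx_fields {y : Exp} {v : Vtx S} (hy : y.eval x env = vtxN S v) :
    (lfE y).eval x env = (match v.2 with
      | none => 0
      | some i => i.val + 1) ∧
    (enE y).eval x env = pieceN S v.1.1 * 4 + (2 * v.1.2.1.val + v.1.2.2.val) ∧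
    (pnE y).eval x env = pieceN S v.1.1 ∧ (alE y).eval x env = v.1.2.1.val ∧
    (beE y).eval x env = v.1.2.2.val := by
  have ha := zmod2_val_lt v.1.2.1
  have hb := zmod2_val_lt v.1.2.2
  have hlf := leaf_lt S v.2
  simp only [vtxN] at hy
  have hen : (enE y).eval x env = pieceN S v.1.1 * 4 + (2 * v.1.2.1.val + v.1.2.2.val) := by
    simp only [enE, Exp.eval, ev_hd, hy, hx.h1]
    exact dm_div hlf
  have hab : (abE y).eval x env = 2 * v.1.2.1.val + v.1.2.2.val := by
    simp only [abE, Exp.eval, hen]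
    omega
  refine ⟨?_, hen, ?_, ?_, ?_⟩
  · simp only [lfE, Exp.eval, ev_hd, hy, hx.h1]
    exact dm_mod hlf
  · simp only [pnE, Exp.eval, hen]
    omega
  · simp only [alE, Exp.eval, hab]
    omega
  · simp only [beE, Exp.eval, hab]
    omega

end Fields

end Vale.Agent.Lib.P310.Full
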