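import Vale.Agent.Lib.P310.Full.AdjSpec1

/-!
# Correctness of the adjacency expression: the entries of a local assignment
-/

namespace Vale.Agent.Lib.P310.Full

open FC

variable {ρ : ℕ} {V : Type} [AddCommGroup V] [Fintype V] [DecidableEq V] [HasVn V]
  (S : Sys ρ V)

/-- The entry for the bottom cut of a gate. -/
def botOpt (g : Fin S.nG) (c : Tok ρ V) (α : ZMod 2) : Option (XVar S × ZMod 2) :=
  match S.bot g with
  | none => none
  | some p => some (XVar.cut p.1 p.2 c, α)

/-- The three entries of a local assignment. -/
def ent : Piece S → ZMod 2 → ZMod 2 → ZMod 2 → Fin 3 → Option (XVar S × ZMod 2)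
  | .link g _ l, _, _, β, 0 => some (.bit g l, β)
  | .link g c l, _, α, _, 1 => if l.val = 0 then botOpt S g c α else some (.mid g c l, α)
  | .link g c l, b, α, β, 2 =>
      some (S.rightVar g c l, α + S.v g c l * β + (if l.val = 0 then b * S.twist g c else 0))
  | .tr g c, _, α, _, 0 => botOpt S g c α
  | .tr g c, _, _, β, 1 => some (.cut (S.top g).1 (some (S.top g).2) (S.shift g c), β)
  | .tr g c, _, α, β, 2 => some (.top g c, α + β)
  | .con f c, _, α, _, 0 => some (.cut f.castSucc (some false) c, α)
  | .con f c, _, _, β, 1 => some (.cut f.castSucc (some true) c, β)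
  | .con f c, _, α, β, 2 => some (.cut f.castSucc none c, α + β)

lemma mem_botEntry (g : Fin S.nG) (c : Tok ρ V) (α : ZMod 2) (z : XVar S × ZMod 2) :
    z ∈ S.botEntry g c α ↔ botOpt S g c α = some z := by
  unfold Sys.botEntry botOpt
  cases S.bot g with
  | none => simp
  | some p =>
    simp only [List.mem_singleton, Option.some.injEq]
    exact eq_comm

/-- The entries are the members of the assignment. -/
lemma mem_assign_iff (b : ZMod 2) (p : Piece S) (α β : ZMod 2) (z : XVar S) (w : ZMod 2) :
    (z, w) ∈ S.assign b p α β ↔ ∃ i, ent S p b α β i = some (z, w) := by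
  constructor
  · intro h
    cases p with
    | link g c l =>
      simp only [Sys.assign, List.mem_cons, List.mem_append, List.not_mem_nil, or_false] at h
      rcases h with h | h | h
      · exact ⟨0, by rw [h]; rfl⟩
      · refine ⟨1, ?_⟩
        by_cases hl : l.val = 0
        · rw [if_pos hl] at h
          simp only [ent, Fin.isValue, hl, if_true]
          exact (mem_botEntry S g c α _).mp h
        · rw [if_neg hl] at h
          simp only [ent, Fin.isValue, hl, if_false]
          simp only [List.mem_singleton] at h
          rw [h]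
      · exact ⟨2, by rw [h]; rfl⟩
    | tr g c =>
      simp only [Sys.assign, List.mem_cons, List.mem_append, List.not_mem_nil, or_false] at h
      rcases h with h | h | h
      · exact ⟨0, (mem_botEntry S g c α _).mp h⟩
      · exact ⟨1, by rw [h]; rfl⟩
      · exact ⟨2, by rw [h]; rfl⟩
    | con f c =>
      simp only [Sys.assign, List.mem_cons, List.not_mem_nil, or_false] at h
      rcases h with h | h | h
      · exact ⟨0, by rw [h]; rfl⟩
      · exact ⟨1, by rw [h]; rfl⟩
      · exact ⟨2, by rw [h]; rfl⟩
  · rintro ⟨i, hi⟩
    cases p with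
    | link g c l =>
      simp only [Sys.assign, List.mem_cons, List.mem_append, List.not_mem_nil, or_false]
      fin_cases i
      · left
        exact (Option.some.inj hi).symm
      · right
        left
        by_cases hl : l.val = 0
        · rw [if_pos hl]
          simp only [ent, Fin.mk_one, Fin.isValue, hl, if_true] at hi
          exact (mem_botEntry S g c α _).mpr hi
        · rw [if_neg hl]
          simp only [ent, Fin.mk_one, Fin.isValue, hl, if_false] at hi
          simp only [List.mem_singleton]
          exact (Option.some.inj hi).symm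
      · right
        right
        exact (Option.some.inj hi).symm
    | tr g c =>
      simp only [Sys.assign, List.mem_cons, List.mem_append, List.not_mem_nil, or_false]
      fin_cases i
      · left
        exact (mem_botEntry S g c α _).mpr hi
      · right
        left
        exact (Option.some.inj hi).symm
      · right
        right
        exact (Option.some.inj hi).symm
    | con f c =>
      simp only [Sys.assign, List.mem_cons, List.not_mem_nil, or_false]
      fin_cases i
      · left
        exact (Option.some.inj hi).symm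
      · right
        left
        exact (Option.some.inj hi).symm
      · right
        right
        exact (Option.some.inj hi).symm

lemma botOpt_val {g : Fin S.nG} {c : Tok ρ V} {α w : ZMod 2} {z : XVar S}
    (h : botOpt S g c α = some (z, w)) : w = α := by
  unfold botOpt at h
  cases hb : S.bot g with
  | none =>
    rw [hb] at h
    simp at h
  | some p =>
    rw [hb] at h
    simp only [Option.some.injEq, Prod.mk.injEq] at h
    exact h.2.symm

variable {S}

/-- The number of the variable of an entry. -/
def entV : Option (XVar S × ZMod 2) → ℕ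
  | none => 0
  | some z => vcode z.1

lemma zmod2_val_add_mul (a b c d : ZMod 2) :
    (a + b * c + d).val = (a.val + b.val * c.val + d.val) % 2 := by
  revert a b c d
  decide

lemma zmod2_val_add (a b : ZMod 2) : (a + b).val = (a.val + b.val) % 2 := by
  revert a b
  decide

lemma zmod2_val_mul (a b : ZMod 2) : (a * b).val = a.val * b.val := by
  revert a b
  decide

variable {x env : ℕ → ℕ} {O : Oracles} (hx : HeaderOK S x) (hO : OracleSpec S O x)

include hx in
lemma ev_cutV (f μ c : Exp) : (cutV f μ c).eval x env =
    1 + 4 * ((f.eval x env * 3 + μ.eval x env) * (ρ * Fintype.card V) + c.eval x env) := by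
  simp only [cutV, Exp.eval, ev_hd, hx.h2]

include hx in
lemma ev_topV (g c : Exp) : (topV g c).eval x env =
    1 + 4 * (g.eval x env * (ρ * Fintype.card V) + c.eval x env) + 1 := by
  simp only [topV, Exp.eval, ev_hd, hx.h2]

include hx in
lemma ev_midV (g c l : Exp) : (midV g c l).eval x env =
    1 + 4 * ((g.eval x env * (ρ * Fintype.card V) + c.eval x env) * (2 * ρ * S.m) + l.eval x env)
      + 2 := by
  simp only [midV, Exp.eval, ev_hd, hx.h2, hx.h3]

include hx in
lemma ev_bitV (g l : Exp) : (bitV g l).eval x env =
    1 + 4 * (g.eval x env * (2 * ρ * S.m) + l.eval x env) + 3 := by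
  simp only [bitV, Exp.eval, ev_hd, hx.h3]

include hx hO in
lemma ev_botVar {ge ce : Exp} {g : Fin S.nG} {c : Tok ρ V} (α : ZMod 2) (hg : ge.eval x env = g.val)
    (hc : ce.eval x env = tokN c) :
    (botVar O ge ce).eval x env = entV (botOpt S g c α) := by
  have h1 := hO.bot env ge g hg
  unfold botVar
  show (if (O.bot ge).eval x env = 0 then 0 else (cutV _ _ _).eval x env) = _
  unfold botOpt
  cases hb : S.bot g with
  | none =>
    rw [h1, hb]
    simp [botCode, entV]
  | some p =>
    have hμ := muN_lt p.2
    have h1' : (O.bot ge).eval x env = 1 + 3 * p.1.val + muN p.2 := by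
      rw [h1, hb]
      rfl
    rw [h1', if_neg (by omega), ev_cutV hx]
    simp only [Exp.eval, h1', hc, entV, vcode]
    have h2 : (1 + 3 * p.1.val + muN p.2 - 1) / 3 = p.1.val := by omega
    have h3 : (1 + 3 * p.1.val + muN p.2 - 1) % 3 = muN p.2 := by omega
    rw [h2, h3]

include hx hO in
lemma ev_shiftE {ge ce : Exp} {g : Fin S.nG} {c : Tok ρ V} (hg : ge.eval x env = g.val)
    (hc : ce.eval x env = tokN c) :
    (shiftE O ge ce).eval x env = tokN (S.shift g c) := by
  obtain ⟨h1, h2⟩ := tok_fields hx hc
  have h3 := hO.lam env ge (tI ce) g c.1 hg h1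
  simp only [shiftE, Exp.eval, ev_hd, h1, h2, h3, hx.h5, hx.hadd, tokN, Sys.shift]

include hx hO in
lemma ev_topCutV {ge ce : Exp} {g : Fin S.nG} {c : Tok ρ V} (hg : ge.eval x env = g.val)
    (hc : ce.eval x env = tokN c) :
    (topCutV O ge ce).eval x env =
      vcode (XVar.cut (S.top g).1 (some (S.top g).2) (S.shift g c)) := by
  have h1 := hO.top env ge g hg
  unfold topCutV
  rw [ev_cutV hx, ev_shiftE hx hO hg hc]
  simp only [Exp.eval, h1, vcode]
  have h2 : (topCode (S.top g)) / 2 = (S.top g).1.val := by
    unfold topCode
    have := Bool.toNat_lt (S.top g).2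
    omega
  have h3 : (topCode (S.top g)) % 2 = muN (some (S.top g).2) := by
    unfold topCode
    cases (S.top g).2 <;> simp [muN, Nat.add_mod]
  rw [h2, h3]

include hx in
lemma ev_twE {be ge ce le : Exp} {b : ZMod 2} {g : Fin S.nG} {c : Tok ρ V} {l : Fin (2 * ρ * S.m)}
    (hb : be.eval x env = b.val) (hg : ge.eval x env = g.val) (hc : (tI ce).eval x env = c.1.val)
    (hl : le.eval x env = l.val) :
    (twE be ge ce le).eval x env = (if l.val = 0 then b * S.twist g c else 0).val := by
  show (if le.eval x env = 0 then be.eval x env * (andE (eqE ge (hd 10)) (notE (tI ce))).eval x env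
    else 0) = _
  rw [hl]
  by_cases hl0 : l.val = 0
  · rw [if_pos hl0, if_pos hl0, ev_and, ev_eq, ev_not, ev_hd, hb, hg, hc, hx.h10, zmod2_val_mul]
    congr 1
    by_cases h1 : g = S.gt
    · by_cases h2 : c.1.val = 0
      · have h3 : S.twist g c = 1 := if_pos ⟨h1, h2⟩
        rw [h3, h1, h2]
        simp
        rfl
      · have h3 : S.twist g c = 0 := if_neg (fun h => h2 h.2)
        rw [h3]
        simp [h2]
    · have h3 : S.twist g c = 0 := if_neg (fun h => h1 h.1)
      have h4 : g.val ≠ S.gt.val := fun h => h1 (Fin.ext h)
      rw [h3]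
      simp [h4]
  · rw [if_neg hl0, if_neg hl0]
    rfl

include hx hO in
/-- The numbers of the variables of the entries. -/
lemma ev_vcE {y : Exp} {v : Vtx S} (b : ZMod 2) (hy : y.eval x env = vtxN S v) (i : Fin 3) :
    (vcE O i y).eval x env = entV (ent S v.1.1 b v.1.2.1 v.1.2.2 i) := by
  obtain ⟨-, -, hp, -, -⟩ := vtx_fields hx hy
  obtain ⟨⟨p, α, β⟩, lf⟩ := v
  simp only at hp ⊢
  cases p with
  | link g c l =>
    obtain ⟨h1, h2, h3, h4⟩ := link_fields hx hp
    fin_cases i
    · show (if (isLk (pnE y)).eval x env = 0 then _ else (bitV (gL (pnE y)) (lL (pnE y))).eval x env) = _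
      rw [h1, if_neg (by omega), ev_bitV hx, h2, h4]
      rfl
    · show (if (isLk (pnE y)).eval x env = 0 then _ else
        (if (lL (pnE y)).eval x env = 0 then (botVar O (gL (pnE y)) (cL (pnE y))).eval x env
          else (midV (gL (pnE y)) (cL (pnE y)) (lL (pnE y))).eval x env)) = _
      rw [h1, if_neg (by omega), h4]
      by_cases hl : l.val = 0
      · rw [if_pos hl, ev_botVar hx hO α h2 h3]
        simp only [ent, Fin.isValue, hl, if_true]
      · rw [if_neg hl, ev_midV hx, h2, h3, h4]
        simp only [ent, Fin.isValue, hl, if_false]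
        rfl
    · show (if (isLk (pnE y)).eval x env = 0 then _ else
        (if (ltE (.add (lL (pnE y)) (.const 1)) (hd 3)).eval x env = 0 then
          (topV (gL (pnE y)) (cL (pnE y))).eval x env
          else (midV (gL (pnE y)) (cL (pnE y)) (.add (lL (pnE y)) (.const 1))).eval x env)) = _
      rw [h1, if_neg (by omega), ev_lt, ev_hd, hx.h3]
      simp only [Exp.eval, h4]
      by_cases hl : l.val + 1 < 2 * ρ * S.m
      · rw [if_pos hl, if_neg (by omega), ev_midV hx, h2, h3]
        simp only [Exp.eval, h4, ent, Fin.isValue, Sys.rightVar, hl, dif_pos, entV, vcode]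
      · rw [if_neg hl, if_pos rfl, ev_topV hx, h2, h3]
        simp only [ent, Fin.isValue, Sys.rightVar, hl, dif_neg, not_false_eq_true, entV, vcode]
  | tr g c =>
    obtain ⟨h1, h2, h3, h4⟩ := tr_fields hx hp
    fin_cases i
    · show (if (isLk (pnE y)).eval x env = 0 then
        (if (isTr (pnE y)).eval x env = 0 then _ else
          (botVar O (gT (pnE y)) (cT (pnE y))).eval x env) else _) = _
      rw [h1, if_pos rfl, h2, if_neg (by omega), ev_botVar hx hO α h3 h4]
      rfl
    · show (if (isLk (pnE y)).eval x env = 0 then
        (if (isTr (pnE y)).eval x env = 0 then _ else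
          (topCutV O (gT (pnE y)) (cT (pnE y))).eval x env) else _) = _
      rw [h1, if_pos rfl, h2, if_neg (by omega), ev_topCutV hx hO h3 h4]
      rfl
    · show (if (isLk (pnE y)).eval x env = 0 then
        (if (isTr (pnE y)).eval x env = 0 then _ else
          (topV (gT (pnE y)) (cT (pnE y))).eval x env) else _) = _
      rw [h1, if_pos rfl, h2, if_neg (by omega), ev_topV hx, h3, h4]
      rfl
  | con f c =>
    obtain ⟨h1, h2, h3, h4⟩ := con_fields hx hp
    fin_cases i
    · show (if (isLk (pnE y)).eval x env = 0 then
        (if (isTr (pnE y)).eval x env = 0 then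
          (cutV (fC (pnE y)) (.const 0) (cC (pnE y))).eval x env else _) else _) = _
      rw [h1, if_pos rfl, h2, if_pos rfl, ev_cutV hx, h3, h4]
      rfl
    · show (if (isLk (pnE y)).eval x env = 0 then
        (if (isTr (pnE y)).eval x env = 0 then
          (cutV (fC (pnE y)) (.const 1) (cC (pnE y))).eval x env else _) else _) = _
      rw [h1, if_pos rfl, h2, if_pos rfl, ev_cutV hx, h3, h4]
      rfl
    · show (if (isLk (pnE y)).eval x env = 0 then
        (if (isTr (pnE y)).eval x env = 0 then
          (cutV (fC (pnE y)) (.const 2) (cC (pnE y))).eval x env else _) else _) = _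
      rw [h1, if_pos rfl, h2, if_pos rfl, ev_cutV hx, h3, h4]
      rfl

include hx hO in
/-- The values of the entries. -/
lemma ev_vaE {y be : Exp} {v : Vtx S} {b : ZMod 2} (hb : be.eval x env = b.val)
    (hy : y.eval x env = vtxN S v) (i : Fin 3) {z : XVar S} {w : ZMod 2}
    (hz : ent S v.1.1 b v.1.2.1 v.1.2.2 i = some (z, w)) :
    (vaE O be i y).eval x env = w.val := by
  obtain ⟨-, -, hp, ha, hbe⟩ := vtx_fields hx hy
  obtain ⟨⟨p, α, β⟩, lf⟩ := v
  simp only at hp ha hbe hz ⊢
  cases p with
  | link g c l =>
    obtain ⟨h1, h2, h3, h4⟩ := link_fields hx hp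
    fin_cases i
    · have hw : w = β := by
        simp only [ent, Fin.zero_eta, Fin.isValue, Option.some.injEq, Prod.mk.injEq] at hz
        exact hz.2.symm
      subst hw
      show (if (isLk (pnE y)).eval x env = 0 then _ else (beE y).eval x env) = _
      rw [h1, if_neg (by omega), hbe]
    · have hw : w = α := by
        simp only [ent, Fin.mk_one, Fin.isValue] at hz
        split at hz
        · exact botOpt_val S hz
        · simp_all
      subst hw
      show (if (isLk (pnE y)).eval x env = 0 then _ else (alE y).eval x env) = _
      rw [h1, if_neg (by omega), ha]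
    · have hw : w = α + S.v g c l * β + (if l.val = 0 then b * S.twist g c else 0) := by
        simp only [ent, Fin.reduceFinMk, Fin.isValue, Option.some.injEq, Prod.mk.injEq] at hz
        exact hz.2.symm
      subst hw
      obtain ⟨h5, h6⟩ := tok_fields hx h3
      have h7 := hO.u env (gL (pnE y)) (tI (cL (pnE y))) (tR (cL (pnE y)))
        (.mod (lL (pnE y)) (hd 4)) g c.1 c.2 ⟨l.val % S.m, Nat.mod_lt _ S.m_pos⟩ h2 h5 h6
        (by simp only [Exp.eval, ev_hd, hx.h4, h4])
      show (if (isLk (pnE y)).eval x env = 0 then _ else
        ((alE y).eval x env + (O.u (gL (pnE y)) (tI (cL (pnE y))) (tR (cL (pnE y)))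
          (.mod (lL (pnE y)) (hd 4))).eval x env * (beE y).eval x env +
          (twE be (gL (pnE y)) (cL (pnE y)) (lL (pnE y))).eval x env) % 2) = _
      rw [h1, if_neg (by omega), ha, hbe, h7, zmod2_val_add_mul]
      rw [ev_twE hx hb h2 h5 h4]
      rfl
  | tr g c =>
    obtain ⟨h1, h2, h3, h4⟩ := tr_fields hx hp
    fin_cases i
    · have hw : w = α := by
        exact botOpt_val S hz
      subst hw
      show (if (isLk (pnE y)).eval x env = 0 then (alE y).eval x env else _) = _
      rw [h1, if_pos rfl, ha]
    · have hw : w = β := by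
        simp only [ent, Fin.mk_one, Fin.isValue, Option.some.injEq, Prod.mk.injEq] at hz
        exact hz.2.symm
      subst hw
      show (if (isLk (pnE y)).eval x env = 0 then (beE y).eval x env else _) = _
      rw [h1, if_pos rfl, hbe]
    · have hw : w = α + β := by
        simp only [ent, Fin.reduceFinMk, Fin.isValue, Option.some.injEq, Prod.mk.injEq] at hz
        exact hz.2.symm
      subst hw
      show (if (isLk (pnE y)).eval x env = 0 then ((alE y).eval x env + (beE y).eval x env) % 2
        else _) = _
      rw [h1, if_pos rfl, ha, hbe, zmod2_val_add]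
  | con f c =>
    obtain ⟨h1, h2, h3, h4⟩ := con_fields hx hp
    fin_cases i
    · have hw : w = α := by
        simp only [ent, Fin.zero_eta, Fin.isValue, Option.some.injEq, Prod.mk.injEq] at hz
        exact hz.2.symm
      subst hw
      show (if (isLk (pnE y)).eval x env = 0 then (alE y).eval x env else _) = _
      rw [h1, if_pos rfl, ha]
    · have hw : w = β := by
        simp only [ent, Fin.mk_one, Fin.isValue, Option.some.injEq, Prod.mk.injEq] at hz
        exact hz.2.symm
      subst hw
      show (if (isLk (pnE y)).eval x env = 0 then (beE y).eval x env else _) = _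
      rw [h1, if_pos rfl, hbe]
    · have hw : w = α + β := by
        simp only [ent, Fin.reduceFinMk, Fin.isValue, Option.some.injEq, Prod.mk.injEq] at hz
        exact hz.2.symm
      subst hw
      show (if (isLk (pnE y)).eval x env = 0 then ((alE y).eval x env + (beE y).eval x env) % 2
        else _) = _
      rw [h1, if_pos rfl, ha, hbe, zmod2_val_add]

end Vale.Agent.Lib.P310.Full
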