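import Vale.Agent.Lib.P310.Full.AdjSpec2

/-!
# Correctness of the adjacency expression: adjacency of elements and of vertices
-/

namespace Vale.Agent.Lib.P310.Full

open FC

variable {ρ : ℕ} {V : Type} [AddCommGroup V] [Fintype V] [DecidableEq V] [HasVn V]
  {S : Sys ρ V}

variable {x env : ℕ → ℕ} {O : Oracles} (hx : HeaderOK S x) (hO : OracleSpec S O x)

/-- Two entries have a common variable. -/
def Com (p p' : Option (XVar S × ZMod 2)) : Prop :=
  ∃ z w w', p = some (z, w) ∧ p' = some (z, w')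

lemma com_iff (p p' : Option (XVar S × ZMod 2)) :
    (entV p ≠ 0 ∧ entV p = entV p') ↔ Com p p' := by
  constructor
  · rintro ⟨h1, h2⟩
    cases p with
    | none => exact absurd rfl h1
    | some a =>
      cases p' with
      | none =>
        simp only [entV] at h2
        exact absurd h2 (vcode_pos _)
      | some a' =>
        simp only [entV] at h2
        have := vcode_inj h2
        exact ⟨a.1, a.2, a'.2, rfl, by rw [this]⟩
  · rintro ⟨z, w, w', rfl, rfl⟩
    exact ⟨vcode_pos _, rfl⟩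

include hx hO in
lemma ev_commonE {y₁ y₂ : Exp} {v₁ v₂ : Vtx S} (b : ZMod 2) (h₁ : y₁.eval x env = vtxN S v₁)
    (h₂ : y₂.eval x env = vtxN S v₂) (i j : Fin 3) :
    (commonE O y₁ y₂ i j).eval x env = open Classical in
      if Com (ent S v₁.1.1 b v₁.1.2.1 v₁.1.2.2 i) (ent S v₂.1.1 b v₂.1.2.1 v₂.1.2.2 j) then 1 else 0 := by
  classical
  unfold commonE
  rw [ev_and, ev_eq, ev_vcE hx hO b h₁, ev_vcE hx hO b h₂, ← com_iff]
  by_cases h : entV (ent S v₁.1.1 b v₁.1.2.1 v₁.1.2.2 i) = entV (ent S v₂.1.1 b v₂.1.2.1 v₂.1.2.2 j)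
  · simp [h]
  · simp [h]

include hx hO in
/-- The adjacency of two local assignments. -/
lemma ev_elemAdjE {be y₁ y₂ : Exp} {b : ZMod 2} {v₁ v₂ : Vtx S} (hb : be.eval x env = b.val)
    (h₁ : y₁.eval x env = vtxN S v₁) (h₂ : y₂.eval x env = vtxN S v₂) :
    (elemAdjE O be y₁ y₂).eval x env = open Classical in
      if ElemAdj S b v₁.1 v₂.1 then 1 else 0 := by
  classical
  obtain ⟨-, -, hp₁, -, -⟩ := vtx_fields hx h₁
  obtain ⟨-, -, hp₂, -, -⟩ := vtx_fields hx h₂
  have hcom := fun i j => ev_commonE hx hO (y₁ := y₁) (y₂ := y₂) b h₁ h₂ i j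
  have hne : (pieceN S v₁.1.1 = pieceN S v₂.1.1) ↔ v₁.1.1 = v₂.1.1 :=
    ⟨pieceN_inj S, fun h => by rw [h]⟩
  have h1 : (any3 fun i => any3 fun j => commonE O y₁ y₂ i j).eval x env ≠ 0 ↔
      (∃ z w w', (z, w) ∈ S.assign b v₁.1.1 v₁.1.2.1 v₁.1.2.2 ∧
        (z, w') ∈ S.assign b v₂.1.1 v₂.1.2.1 v₂.1.2.2) := by
    rw [ev_any3]
    simp only [ev_any3, hcom, mem_assign_iff]
    constructor
    · intro h
      have h3 : ∃ i j, Com (ent S v₁.1.1 b v₁.1.2.1 v₁.1.2.2 i) (ent S v₂.1.1 b v₂.1.2.1 v₂.1.2.2 j) := by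
        by_contra hc
        push Not at hc
        apply h
        rw [if_neg]
        rintro ⟨i, hi⟩
        rw [if_neg] at hi
        · exact hi rfl
        rintro ⟨j, hj⟩
        rw [if_neg (hc i j)] at hj
        exact hj rfl
      obtain ⟨i, j, z, w, w', h4, h5⟩ := h3
      exact ⟨z, w, w', ⟨i, h4⟩, ⟨j, h5⟩⟩
    · rintro ⟨z, w, w', ⟨i, hi⟩, ⟨j, hj⟩⟩
      rw [if_pos]
      · exact one_ne_zero
      refine ⟨i, ?_⟩
      rw [if_pos]
      · exact one_ne_zero
      refine ⟨j, ?_⟩
      rw [if_pos]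
      · exact one_ne_zero
      exact ⟨z, w, w', hi, hj⟩
  have h2 : (all3 fun i => all3 fun j => orE (notE (commonE O y₁ y₂ i j))
        (eqE (vaE O be i y₁) (vaE O be j y₂))).eval x env ≠ 0 ↔
      (∀ z w w', (z, w) ∈ S.assign b v₁.1.1 v₁.1.2.1 v₁.1.2.2 →
        (z, w') ∈ S.assign b v₂.1.1 v₂.1.2.1 v₂.1.2.2 → w = w') := by
    have h3 : ∀ i j, (orE (notE (commonE O y₁ y₂ i j)) (eqE (vaE O be i y₁) (vaE O be j y₂))).eval x env ≠ 0 ↔
        ∀ z w w', ent S v₁.1.1 b v₁.1.2.1 v₁.1.2.2 i = some (z, w) →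
          ent S v₂.1.1 b v₂.1.2.1 v₂.1.2.2 j = some (z, w') → w = w' := by
      intro i j
      rw [ev_or, ev_not, ev_eq, hcom]
      constructor
      · intro h z w w' h5 h6
        have hc : Com (ent S v₁.1.1 b v₁.1.2.1 v₁.1.2.2 i) (ent S v₂.1.1 b v₂.1.2.1 v₂.1.2.2 j) :=
          ⟨z, w, w', h5, h6⟩
        rw [ev_vaE hx hO hb h₁ i h5, ev_vaE hx hO hb h₂ j h6] at h
        by_cases hw : w = w'
        · exact hw
        · exfalso
          apply h
          rw [if_neg]
          rintro (h7 | h7)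
          · rw [if_pos hc] at h7
            simp at h7
          · rw [if_neg] at h7
            · exact h7 rfl
            · intro h8
              exact hw (ZMod.val_injective 2 h8)
      · intro h
        rw [if_pos]
        · exact one_ne_zero
        by_cases hc : Com (ent S v₁.1.1 b v₁.1.2.1 v₁.1.2.2 i) (ent S v₂.1.1 b v₂.1.2.1 v₂.1.2.2 j)
        · obtain ⟨z, w, w', h5, h6⟩ := hc
          right
          rw [ev_vaE hx hO hb h₁ i h5, ev_vaE hx hO hb h₂ j h6, if_pos]
          · exact one_ne_zero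
          rw [h z w w' h5 h6]
        · left
          rw [if_neg hc]
          simp
    rw [ev_all3]
    simp only [ev_all3, h3, mem_assign_iff]
    constructor
    · intro h z w w' ⟨i, hi⟩ ⟨j, hj⟩
      have h4 : ∀ i j, ∀ z w w', ent S v₁.1.1 b v₁.1.2.1 v₁.1.2.2 i = some (z, w) →
          ent S v₂.1.1 b v₂.1.2.1 v₂.1.2.2 j = some (z, w') → w = w' := by
        by_contra hc
        apply h
        rw [if_neg]
        intro h5
        apply hc
        intro i j
        have h6 := h5 i
        by_contra hd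
        apply h6
        rw [if_neg]
        intro h7
        exact hd (h7 j)
      exact h4 i j z w w' hi hj
    · intro h
      rw [if_pos]
      · exact one_ne_zero
      intro i
      rw [if_pos]
      · exact one_ne_zero
      intro j z w w' hi hj
      exact h z w w' ⟨i, hi⟩ ⟨j, hj⟩
  unfold elemAdjE
  rw [ev_and, ev_and, ev_not, ev_eq, hp₁, hp₂]
  unfold ElemAdj
  by_cases h3 : v₁.1.1 = v₂.1.1
  · rw [if_neg, if_neg]
    · exact fun h => h.1 h3
    · rintro ⟨h4, -⟩
      rw [if_pos (hne.mpr h3)] at h4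
      · exact h4 rfl
  · have h4 : pieceN S v₁.1.1 ≠ pieceN S v₂.1.1 := fun h => h3 (hne.mp h)
    rw [if_neg h4]
    by_cases h5 : (∃ z w w', (z, w) ∈ S.assign b v₁.1.1 v₁.1.2.1 v₁.1.2.2 ∧
        (z, w') ∈ S.assign b v₂.1.1 v₂.1.2.1 v₂.1.2.2) ∧
        (∀ z w w', (z, w) ∈ S.assign b v₁.1.1 v₁.1.2.1 v₁.1.2.2 →
        (z, w') ∈ S.assign b v₂.1.1 v₂.1.2.1 v₂.1.2.2 → w = w')
    · refine (if_pos ⟨by simp, ?_⟩).trans (if_pos ⟨h3, h5⟩).symm
      rw [if_pos ⟨h1.mpr h5.1, h2.mpr h5.2⟩]
      exact one_ne_zero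
    · rw [if_neg, if_neg]
      · exact fun h => h5 h.2
      · rintro ⟨-, h6⟩
        rw [if_neg] at h6
        · exact h6 rfl
        · rintro ⟨h7, h8⟩
          exact h5 ⟨h1.mp h7, h2.mp h8⟩

include hx hO in
/-- The number of pendant leaves. -/
lemma ev_leafCountE {y : Exp} {v : Vtx S} (hy : y.eval x env = vtxN S v) :
    (leafCountE O y).eval x env = leafCount S v.1 := by
  classical
  obtain ⟨-, -, hp, ha, -⟩ := vtx_fields hx hy
  obtain ⟨⟨p, α, β⟩, lf⟩ := v
  simp only at hp ha ⊢
  have hflag : (andE (flagE O y) (alE y)).eval x env = if S.flagged p ∧ α ≠ 0 then 1 else 0 := by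
    rw [ev_and, ha]
    have hα : α.val ≠ 0 ↔ α ≠ 0 := by
      rw [not_iff_not]
      exact ZMod.val_eq_zero α
    have h1 : (flagE O y).eval x env ≠ 0 ↔ S.flagged p := by
      cases p with
      | link g c l =>
        obtain ⟨h1, h2, h3, h4⟩ := link_fields hx hp
        show (if (isLk (pnE y)).eval x env = 0 then _ else
          (andE (notE (lL (pnE y))) (notE (O.bot (gL (pnE y))))).eval x env) ≠ 0 ↔ _
        rw [h1, if_neg (by omega), ev_and, ev_not, ev_not, h4, hO.bot env _ g h2]
        have h5 : botCode (S.bot g) = 0 ↔ S.bot g = none := by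
          cases S.bot g with
          | none => simp [botCode]
          | some p => simp [botCode]
        simp only [Sys.flagged, ← h5]
        by_cases h6 : l.val = 0 <;> by_cases h7 : botCode (S.bot g) = 0 <;> simp [h6, h7]
      | tr g c =>
        obtain ⟨h1, h2, h3, h4⟩ := tr_fields hx hp
        show (if (isLk (pnE y)).eval x env = 0 then
          (if (isTr (pnE y)).eval x env = 0 then _ else
            (notE (O.bot (gT (pnE y)))).eval x env) else _) ≠ 0 ↔ _
        rw [h1, if_pos rfl, h2, if_neg (by omega), ev_not, hO.bot env _ g h3]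
        have h5 : botCode (S.bot g) = 0 ↔ S.bot g = none := by
          cases S.bot g with
          | none => simp [botCode]
          | some p => simp [botCode]
        simp only [Sys.flagged, ← h5]
        by_cases h7 : botCode (S.bot g) = 0 <;> simp [h7]
      | con f c =>
        obtain ⟨h1, h2, h3, h4⟩ := con_fields hx hp
        show (if (isLk (pnE y)).eval x env = 0 then
          (if (isTr (pnE y)).eval x env = 0 then 0 else _) else _) ≠ 0 ↔ _
        rw [h1, if_pos rfl, h2, if_pos rfl]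
        simp [Sys.flagged]
    by_cases h2 : S.flagged p <;> by_cases h3 : α = 0
    · rw [if_neg, if_neg]
      · exact fun h => h.2 h3
      · exact fun h => (hα.mp h.2) h3
    · rw [if_pos ⟨h1.mpr h2, hα.mpr h3⟩, if_pos ⟨h2, h3⟩]
    · rw [if_neg, if_neg]
      · exact fun h => h.2 h3
      · exact fun h => (hα.mp h.2) h3
    · rw [if_neg, if_neg]
      · exact fun h => h2 h.1
      · exact fun h => h2 (h1.mp h.1)
  simp only [leafCountE, Exp.eval, hflag, hp, ev_hd, hx.h9, leafCount, elemCode, nu_val]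

include hx in
lemma ev_enE_eq {y₁ y₂ : Exp} {v₁ v₂ : Vtx S} (h₁ : y₁.eval x env = vtxN S v₁)
    (h₂ : y₂.eval x env = vtxN S v₂) :
    (enE y₁).eval x env = (enE y₂).eval x env ↔ v₁.1 = v₂.1 := by
  obtain ⟨-, h3, -, -, -⟩ := vtx_fields hx h₁
  obtain ⟨-, h4, -, -, -⟩ := vtx_fields hx h₂
  rw [h3, h4]
  constructor
  · intro h
    have hab1 := ab_lt v₁.1.2.1 v₁.1.2.2
    have hab2 := ab_lt v₂.1.2.1 v₂.1.2.2
    obtain ⟨h5, h6⟩ := dm_inj hab1 hab2 h
    have h7 := pieceN_inj S h5
    have ha1 := zmod2_val_lt v₁.1.2.2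
    have ha2 := zmod2_val_lt v₂.1.2.2
    have h8 : v₁.1.2.1.val = v₂.1.2.1.val := by omega
    have h9 : v₁.1.2.2.val = v₂.1.2.2.val := by omega
    exact Prod.ext h7 (Prod.ext (ZMod.val_injective 2 h8) (ZMod.val_injective 2 h9))
  · intro h
    rw [h]

include hx hO in
/-- The adjacency of two vertices. -/
theorem ev_vtxAdjE {be y₁ y₂ : Exp} {b : ZMod 2} {v₁ v₂ : Vtx S} (hb : be.eval x env = b.val)
    (h₁ : y₁.eval x env = vtxN S v₁) (h₂ : y₂.eval x env = vtxN S v₂) :
    (vtxAdjE O be y₁ y₂).eval x env = open Classical in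
      if (altGraph S b).Adj v₁ v₂ then 1 else 0 := by
  classical
  obtain ⟨h3, -, -, -, -⟩ := vtx_fields hx h₁
  obtain ⟨h4, -, -, -, -⟩ := vtx_fields hx h₂
  have he := ev_enE_eq hx h₁ h₂
  have hl₁ := ev_leafCountE hx hO h₁
  have hl₂ := ev_leafCountE hx hO h₂
  unfold vtxAdjE
  obtain ⟨e₁, l₁⟩ := v₁
  obtain ⟨e₂, l₂⟩ := v₂
  simp only at h3 h4 he hl₁ hl₂
  cases l₁ with
  | none =>
    simp only at h3
    cases l₂ with
    | none =>
      simp only at h4
      show (if (lfE y₁).eval x env = 0 then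
        (if (lfE y₂).eval x env = 0 then (elemAdjE O be y₁ y₂).eval x env else _) else _) = _
      rw [h3, if_pos rfl, h4, if_pos rfl, ev_elemAdjE hx hO hb h₁ h₂]
      rfl
    | some j =>
      simp only at h4
      show (if (lfE y₁).eval x env = 0 then
        (if (lfE y₂).eval x env = 0 then _ else
          (andE (eqE (enE y₁) (enE y₂)) (ltE (.sub (lfE y₂) (.const 1)) (leafCountE O y₁))).eval x env)
          else _) = _
      rw [h3, if_pos rfl, h4, if_neg (by omega), ev_and, ev_eq, ev_lt]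
      simp only [Exp.eval, h4, hl₁]
      have h5 : (altGraph S b).Adj (e₁, none) (e₂, some j) ↔ e₁ = e₂ ∧ j.val < leafCount S e₁ := Iff.rfl
      by_cases h6 : e₁ = e₂ ∧ j.val < leafCount S e₁
      · rw [if_pos (h5.mpr h6), if_pos]
        refine ⟨?_, ?_⟩
        · rw [if_pos (he.mpr h6.1)]
          exact one_ne_zero
        · rw [if_pos (by simpa using h6.2)]
          exact one_ne_zero
      · rw [if_neg (fun h => h6 (h5.mp h)), if_neg]
        rintro ⟨h7, h8⟩
        apply h6
        constructor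
        · by_contra h9
          rw [if_neg (fun h => h9 (he.mp h))] at h7
          exact h7 rfl
        · by_contra h9
          rw [if_neg (by simpa using h9)] at h8
          exact h8 rfl
  | some i =>
    simp only at h3
    cases l₂ with
    | none =>
      simp only at h4
      show (if (lfE y₁).eval x env = 0 then _ else
        (if (lfE y₂).eval x env = 0 then
          (andE (eqE (enE y₁) (enE y₂)) (ltE (.sub (lfE y₁) (.const 1)) (leafCountE O y₂))).eval x env
          else _)) = _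
      rw [h3, if_neg (by omega), h4, if_pos rfl, ev_and, ev_eq, ev_lt]
      simp only [Exp.eval, h3, hl₂]
      have h5 : (altGraph S b).Adj (e₁, some i) (e₂, none) ↔ e₁ = e₂ ∧ i.val < leafCount S e₂ := Iff.rfl
      by_cases h6 : e₁ = e₂ ∧ i.val < leafCount S e₂
      · rw [if_pos (h5.mpr h6), if_pos]
        refine ⟨?_, ?_⟩
        · rw [if_pos (he.mpr h6.1)]
          exact one_ne_zero
        · rw [if_pos (by simpa using h6.2)]
          exact one_ne_zero
      · rw [if_neg (fun h => h6 (h5.mp h)), if_neg]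
        rintro ⟨h7, h8⟩
        apply h6
        constructor
        · by_contra h9
          rw [if_neg (fun h => h9 (he.mp h))] at h7
          exact h7 rfl
        · by_contra h9
          rw [if_neg (by simpa using h9)] at h8
          exact h8 rfl
    | some j =>
      simp only at h4
      show (if (lfE y₁).eval x env = 0 then _ else
        (if (lfE y₂).eval x env = 0 then _ else 0)) = _
      rw [h3, if_neg (by omega), h4, if_neg (by omega), if_neg]
      exact fun h => h

end Vale.Agent.Lib.P310.Full
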