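import Vale.Agent.Lib.P310.Full.TabBasic

/-!
# Every derivable fact of the tableau is true of the run of the program
-/

namespace Vale.Agent.Lib.P310.Full

/-- The state at time `t`. -/
def cf (Pg : List Instr) (c₀ : Conf) (t : ℕ) : Conf := Nat.iterate (step Pg) t c₀

lemma cf_succ (Pg : List Instr) (c₀ : Conf) (t : ℕ) :
    cf Pg c₀ (t + 1) = step Pg (cf Pg c₀ t) := by
  unfold cf
  exact Function.iterate_succ_apply' _ _ _

lemma step_of {Pg : List Instr} {c : Conf} {I : Instr} (hI : Pg[c.pc]? = some I) :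
    step Pg c = I.exec c := by
  unfold step
  rw [hI]

lemma exec_reg_of_not_writes (I : Instr) (c : Conf) {r : ℕ} (h : ¬ writesReg I r) :
    (I.exec c).reg r = c.reg r := by
  cases I <;> simp_all [Instr.exec, writesReg, Function.update_apply]

lemma exec_mem_of_not_writes (I : Instr) (c : Conf) {j : ℕ} (h : ¬ writesArr I j) :
    (I.exec c).mem j = c.mem j := by
  cases I <;> simp_all [Instr.exec, writesArr, Function.update_apply]

lemma exec_pc_of_seq (I : Instr) (c : Conf) (h : isSeq I) : (I.exec c).pc = c.pc + 1 := by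
  cases I <;> simp_all [Instr.exec, isSeq]

/-- The initial state of a program on an input of length `m` with cells `xi`. -/
structure InitOK (c₀ : Conf) (m : ℕ) (xi : ℕ → ℕ) : Prop where
  pc : c₀.pc = 0
  reg : ∀ r, c₀.reg r = if r = 0 then m else 0
  mem0 : ∀ a, c₀.mem 0 a = if a < m then xi a else 0
  mem : ∀ j a, j ≠ 0 → c₀.mem j a = 0

variable {V : Type} [AddCommGroup V] [Fintype V] (vn : V ≃ Fin (Fintype.card V)) {e : ℕ}
  {τ J : ℕ} (Pg : List Instr) (c₀ : Conf) (m : ℕ) (xi : ℕ → ℕ)

/-- The meaning of the control states. -/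
def Inv : HState Pg.length τ J e → (Fin 4 → Fin e → V) → Prop
  | .pc c, x => (cf Pg c₀ (sv vn x sT)).pc = c.val
  | .rg r, x => (cf Pg c₀ (sv vn x sT)).reg r.val = sv vn x sW
  | .ra r, x => (cf Pg c₀ (sv vn x sT)).reg r.val = sv vn x sA
  | .ru r, x => (cf Pg c₀ (sv vn x sT)).reg r.val = sv vn x sU
  | .ar j, x => (cf Pg c₀ (sv vn x sT)).mem j.val (sv vn x sA) = sv vn x sW
  | .kr c r, x => (cf Pg c₀ (sv vn x sT)).pc = c.val ∧
      (cf Pg c₀ (sv vn x sT + 1)).reg r.val = sv vn x sW
  | .ka c j, x => (cf Pg c₀ (sv vn x sT)).pc = c.val ∧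
      (cf Pg c₀ (sv vn x sT + 1)).mem j.val (sv vn x sA) = sv vn x sW
  | .s1 c, x => (cf Pg c₀ (sv vn x sT)).pc = c.val ∧ ∃ I, Pg[c.val]? = some I ∧
      (cf Pg c₀ (sv vn x sT)).reg (srcOf I) = sv vn x sW
  | .wr c, x => (cf Pg c₀ (sv vn x sT)).pc = c.val ∧ ∃ I, Pg[c.val]? = some I ∧
      (∀ r, writesReg I r → (cf Pg c₀ (sv vn x sT + 1)).reg r = sv vn x sW) ∧
      (∀ j, writesArr I j → (cf Pg c₀ (sv vn x sT + 1)).mem j (sv vn x sA) = sv vn x sW)
  | .go c, x => (cf Pg c₀ (sv vn x sT + 1)).pc = c.val
  | .l1 c, x => (cf Pg c₀ (sv vn x sT)).pc = c.val ∧ ∃ I, Pg[c.val]? = some I ∧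
      (cf Pg c₀ (sv vn x sT)).reg (addrOf I) = sv vn x sA
  | .n1 c, x => (cf Pg c₀ (sv vn x sT)).pc = c.val ∧ ∃ I, Pg[c.val]? = some I ∧
      (cf Pg c₀ (sv vn x sT)).reg (addrOf I) = sv vn x sU
  | .n2 c, x => (cf Pg c₀ (sv vn x sT)).pc = c.val ∧ ∃ I, Pg[c.val]? = some I ∧
      (cf Pg c₀ (sv vn x sT)).reg (addrOf I) ≠ sv vn x sA
  | .cp b r i, x => (cf Pg c₀ (sv vn x sT)).reg r.val = sv vn x sW ∧
      ∀ i' : Fin e, i'.val < i.val → x (if b then sU else sA) i' = x sW i'
  | .ge, x => sv vn x sT = 0 ∧ m ≤ sv vn x sA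
  | .acc, _ => ∃ t, outcome Pg (cf Pg c₀ t) = some true
  | .dead, _ => False

variable {Pg c₀ m xi}

lemma step_cf {t : ℕ} {c : ℕ} {I : Instr} (h : (cf Pg c₀ t).pc = c) (hI : Pg[c]? = some I) :
    cf Pg c₀ (t + 1) = I.exec (cf Pg c₀ t) := by
  rw [cf_succ, step_of (by rw [h]; exact hI)]

/-- The rules with two premises are sound. -/
lemma inv_conj {A B C : HState Pg.length τ J e} (hok : ConjOK Pg A B C) {x : Fin 4 → Fin e → V}
    (hA : Inv vn Pg c₀ m A x) (hB : Inv vn Pg c₀ m B x) : Inv vn Pg c₀ m C x := by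
  cases hok with
  | s1 c r I hI hu h =>
    simp only [Inv] at hA hB ⊢
    exact ⟨hA, I, hI, by rw [← h]; exact hB⟩
  | kr c r I hI h =>
    simp only [Inv] at hA hB ⊢
    refine ⟨hA, ?_⟩
    rw [step_cf hA hI, exec_reg_of_not_writes I _ h, hB]
  | ka c j I hI h =>
    simp only [Inv] at hA hB ⊢
    refine ⟨hA, ?_⟩
    rw [step_cf hA hI, exec_mem_of_not_writes I _ h, hB]
  | kn c j I hI h =>
    simp only [Inv] at hA hB ⊢
    obtain ⟨h1, I', hI', h2⟩ := hA
    have hII : I' = I := by
      rw [hI] at hI'
      exact (Option.some.inj hI').symm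
    subst hII
    refine ⟨h1, ?_⟩
    rw [step_cf h1 hI]
    cases I' with
    | store j' s' r' =>
      simp only [writesArr] at h
      simp only [Instr.exec, h, Function.update_self]
      have h2' : sv vn x sA ≠ (cf Pg c₀ (sv vn x sT)).reg s' := Ne.symm h2
      rw [Function.update_of_ne h2']
      rw [h] at hB
      exact hB
    | _ => simp only [writesArr] at h
  | l1 c s I hI hm h =>
    simp only [Inv] at hA hB ⊢
    exact ⟨hA, I, hI, by rw [← h]; exact hB⟩
  | n1 c s I hI hm h =>
    simp only [Inv] at hA hB ⊢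
    exact ⟨hA, I, hI, by rw [← h]; exact hB⟩
  | wrL c r s j hI =>
    simp only [Inv] at hA hB ⊢
    obtain ⟨h1, I', hI', h2⟩ := hA
    have hII : I' = .load r j.val s := by
      rw [hI] at hI'
      exact (Option.some.inj hI').symm
    subst hII
    refine ⟨h1, _, hI, fun r' hr' => ?_, fun j' hj' => ?_⟩
    · simp only [writesReg] at hr'
      subst hr'
      rw [step_cf h1 hI]
      simp only [Instr.exec, Function.update_self]
      simp only [addrOf] at h2
      rw [h2, hB]
    · simp only [writesArr] at hj'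
  | wrS c j' s r hI =>
    simp only [Inv] at hA hB ⊢
    obtain ⟨h1, I', hI', h2⟩ := hA
    have hII : I' = .store j' s r.val := by
      rw [hI] at hI'
      exact (Option.some.inj hI').symm
    subst hII
    refine ⟨h1, _, hI, fun r' hr' => ?_, fun j₂ hj₂ => ?_⟩
    · simp only [writesReg] at hr'
    · simp only [writesArr] at hj₂
      subst hj₂
      rw [step_cf h1 hI]
      simp only [Instr.exec, Function.update_self]
      simp only [addrOf] at h2
      rw [h2, Function.update_self, hB]

/-- The rules without guard and translation are sound. -/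
lemma inv_move {A C : HState Pg.length τ J e} (hok : MoveOK Pg A C) {x : Fin 4 → Fin e → V}
    (hA : Inv vn Pg c₀ m A x) : Inv vn Pg c₀ m C x := by
  cases hok with
  | mov c r s hI =>
    simp only [Inv] at hA ⊢
    obtain ⟨h1, I', hI', h2⟩ := hA
    have hII : I' = .mov r s := by
      rw [hI] at hI'
      exact (Option.some.inj hI').symm
    subst hII
    refine ⟨h1, _, hI, fun r' hr' => ?_, fun j' hj' => ?_⟩
    · simp only [writesReg] at hr'
      subst hr'
      rw [step_cf h1 hI]
      simp only [Instr.exec, Function.update_self]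
      exact h2
    · simp only [writesArr] at hj'
  | next c c' I hI hs h =>
    simp only [Inv] at hA ⊢
    rw [step_cf hA hI, exec_pc_of_seq I _ hs, hA, h]
  | stay c b hI =>
    simp only [Inv] at hA ⊢
    rw [step_cf hA hI]
    exact hA
  | acc c hI =>
    simp only [Inv] at hA ⊢
    refine ⟨sv vn x sT, ?_⟩
    unfold outcome
    rw [hA, hI]
  | cp0 b r =>
    simp only [Inv] at hA ⊢
    exact ⟨hA, fun i' h => absurd h (by simp)⟩
  | cpA r =>
    simp only [Inv] at hA ⊢
    have h1 : x sA = x sW := funext fun i => by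
      have := hA.2 i (by simp)
      simpa using this
    unfold sv at hA ⊢
    rw [h1]
    exact hA.1
  | cpU r =>
    simp only [Inv] at hA ⊢
    have h1 : x sU = x sW := funext fun i => by
      have := hA.2 i (by simp)
      simpa using this
    unfold sv at hA ⊢
    rw [h1]
    exact hA.1

variable (hvn : ((vn 0 : Fin _) : ℕ) = 0)

include hvn in
/-- The rules that add one to a slot are sound. -/
lemma inv_carry {s : Fin 4} {A C : HState Pg.length τ J e} (hok : StepOK Pg s A C)
    {x : Fin 4 → Fin e → V} {i : Fin e} {d : V} (hg : GHolds (carryG vn s i d) x)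
    (hd : ((vn d : Fin _) : ℕ) + 1 < Fintype.card V) (hA : Inv vn Pg c₀ m A x) :
    Inv vn Pg c₀ m C (fun s' i' => x s' i' + carryA vn s i d s' i') := by
  obtain ⟨h1, h2⟩ := carry_effect vn hvn hg hd
  set x' : Fin 4 → Fin e → V := fun s' i' => x s' i' + carryA vn s i d s' i' with hx'
  have hsv : ∀ s', s' ≠ s → sv vn x' s' = sv vn x s' := by
    intro s' hs'
    unfold sv
    rw [h2 s' hs']
  cases hok with
  | kr c r =>
    simp only [Inv] at hA ⊢
    rw [h1, hsv sW (by decide)]
    exact hA.2
  | ka c j =>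
    simp only [Inv] at hA ⊢
    rw [h1, hsv sW (by decide), hsv sA (by decide)]
    exact hA.2
  | go c =>
    simp only [Inv] at hA ⊢
    rw [h1]
    exact hA
  | wrR c r I hI h =>
    simp only [Inv] at hA ⊢
    rw [h1, hsv sW (by decide)]
    obtain ⟨_, I', hI', h3, _⟩ := hA
    have hII : I' = I := by
      rw [hI] at hI'
      exact (Option.some.inj hI').symm
    subst hII
    exact h3 _ h
  | wrA c j I hI h =>
    simp only [Inv] at hA ⊢
    rw [h1, hsv sW (by decide), hsv sA (by decide)]
    obtain ⟨_, I', hI', _, h3⟩ := hA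
    have hII : I' = I := by
      rw [hI] at hI'
      exact (Option.some.inj hI').symm
    subst hII
    exact h3 _ h
  | inc c r hI =>
    simp only [Inv] at hA ⊢
    rw [h1, hsv sT (by decide), hsv sA (by decide)]
    obtain ⟨h3, I', hI', h4⟩ := hA
    have hII : I' = .inc r := by
      rw [hI] at hI'
      exact (Option.some.inj hI').symm
    subst hII
    refine ⟨h3, _, hI, fun r' hr' => ?_, fun j' hj' => ?_⟩
    · simp only [writesReg] at hr'
      subst hr'
      rw [step_cf h3 hI]
      simp only [Instr.exec, Function.update_self]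
      simp only [srcOf] at h4
      rw [h4]
    · simp only [writesArr] at hj'
  | ge =>
    simp only [Inv] at hA ⊢
    rw [h1, hsv sT (by decide)]
    exact ⟨hA.1, by omega⟩

include hvn in
/-- The rules that subtract one from the value slot are sound. -/
lemma inv_back {A C : HState Pg.length τ J e} (hok : BackOK Pg A C)
    {x : Fin 4 → Fin e → V} {i : Fin e} {d : V} (hg : GHolds (backG vn sW i d) x)
    (hd : ((vn d : Fin _) : ℕ) + 1 < Fintype.card V) (hA : Inv vn Pg c₀ m A x) :
    Inv vn Pg c₀ m C (fun s' i' => x s' i' + backA vn sW i d s' i') := by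
  obtain ⟨h1, h2⟩ := back_effect vn hvn hg hd
  set x' : Fin 4 → Fin e → V := fun s' i' => x s' i' + backA vn sW i d s' i' with hx'
  have hsv : ∀ s', s' ≠ sW → sv vn x' s' = sv vn x s' := by
    intro s' hs'
    unfold sv
    rw [h2 s' hs']
  cases hok with
  | dec c r hI =>
    simp only [Inv] at hA ⊢
    rw [hsv sT (by decide), hsv sA (by decide)]
    obtain ⟨h3, I', hI', h4⟩ := hA
    have hII : I' = .dec r := by
      rw [hI] at hI'
      exact (Option.some.inj hI').symm
    subst hII
    refine ⟨h3, _, hI, fun r' hr' => ?_, fun j' hj' => ?_⟩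
    · simp only [writesReg] at hr'
      subst hr'
      rw [step_cf h3 hI]
      simp only [Instr.exec, Function.update_self]
      simp only [srcOf] at h4
      rw [h4, h1]
      omega
    · simp only [writesArr] at hj'

/-- The rules that change a free slot are sound. -/
lemma inv_free {A : HState Pg.length τ J e} {s : Fin 4} (hok : FreeOK Pg A s)
    {x : Fin 4 → Fin e → V} (i : Fin e) (d : V) (hA : Inv vn Pg c₀ m A x) :
    Inv vn Pg c₀ m A (fun s' i' => x s' i' + oneA s i d s' i') := by
  have h2 : ∀ s', s' ≠ s → (fun s' i' => x s' i' + oneA s i d s' i') s' = x s' := by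
    intro s' hs'
    funext i'
    simp [oneA, hs']
  set x' : Fin 4 → Fin e → V := fun s' i' => x s' i' + oneA s i d s' i' with hx'
  have hsv : ∀ s', s' ≠ s → sv vn x' s' = sv vn x s' := by
    intro s' hs'
    unfold sv
    rw [h2 s' hs']
  cases hok with
  | pc c =>
    simp only [Inv] at hA ⊢
    rw [hsv sT (by decide)]
    exact hA
  | rg r =>
    simp only [Inv] at hA ⊢
    rw [hsv sT (by decide), hsv sW (by decide)]
    exact hA
  | ra r =>
    simp only [Inv] at hA ⊢
    rw [hsv sT (by decide), hsv sA (by decide)]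
    exact hA
  | ru r =>
    simp only [Inv] at hA ⊢
    rw [hsv sT (by decide), hsv sU (by decide)]
    exact hA
  | n2 c =>
    simp only [Inv] at hA ⊢
    rw [hsv sT (by decide), hsv sA (by decide)]
    exact hA
  | acc =>
    exact hA

include hvn in
/-- The rules with the guard that the value is zero are sound. -/
lemma inv_zero (hc₀ : InitOK c₀ m xi) {A C : HState Pg.length τ J e} (hok : ZeroOK Pg A C)
    {x : Fin 4 → Fin e → V} (hg : GHolds (numG vn sW 0) x) (he : 0 < Fintype.card V ^ e)
    (hA : Inv vn Pg c₀ m A x) : Inv vn Pg c₀ m C x := by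
  have hW : sv vn x sW = 0 := sv_of_numG vn hg he
  cases hok with
  | dec c r hI =>
    simp only [Inv] at hA ⊢
    obtain ⟨h3, I', hI', h4⟩ := hA
    have hII : I' = .dec r := by
      rw [hI] at hI'
      exact (Option.some.inj hI').symm
    subst hII
    refine ⟨h3, _, hI, fun r' hr' => ?_, fun j' hj' => ?_⟩
    · simp only [writesReg] at hr'
      subst hr'
      rw [step_cf h3 hI]
      simp only [Instr.exec, Function.update_self]
      simp only [srcOf] at h4
      rw [h4, hW]
    · simp only [writesArr] at hj'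
  | jz c c' r hI =>
    simp only [Inv] at hA ⊢
    obtain ⟨h3, I', hI', h4⟩ := hA
    have hII : I' = .jz r c'.val := by
      rw [hI] at hI'
      exact (Option.some.inj hI').symm
    subst hII
    rw [step_cf h3 hI]
    simp only [srcOf] at h4
    simp [Instr.exec, h4, hW]
  | ge j hj =>
    simp only [Inv] at hA ⊢
    rw [hA.1]
    show c₀.mem j.val _ = _
    rw [hj, hc₀.mem0, if_neg (by omega), hW]

include hvn in
/-- The rules with the guard that a digit of the value is not zero are sound. -/
lemma inv_nz {A C : HState Pg.length τ J e} (hok : NzOK Pg A C)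
    {x : Fin 4 → Fin e → V} {i : Fin e} {d : V} (hg : GHolds (gDig sW i d) x) (hd : d ≠ 0)
    (hA : Inv vn Pg c₀ m A x) : Inv vn Pg c₀ m C x := by
  have hW : sv vn x sW ≠ 0 := by
    intro h
    have h1 := dval_eq_zero vn hvn h i
    rw [hg sW i d (by simp [gDig])] at h1
    exact hd h1
  cases hok with
  | jz c c' r L hI h =>
    simp only [Inv] at hA ⊢
    obtain ⟨h3, I', hI', h4⟩ := hA
    have hII : I' = .jz r L := by
      rw [hI] at hI'
      exact (Option.some.inj hI').symm
    subst hII
    rw [step_cf h3 hI]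
    simp only [srcOf] at h4
    simp [Instr.exec, h4, hW, h3, h]

/-- The copy rules are sound. -/
lemma inv_copy {b : Bool} {r : Fin τ} {i : Fin e} {d : V} {x : Fin 4 → Fin e → V}
    (hg : GHolds (gOr (gDig (if b then sU else sA) i d) (gDig sW i d)) x)
    (hA : Inv vn Pg c₀ m (HState.cp (J := J) b r i.castSucc) x) :
    Inv vn Pg c₀ m (HState.cp (J := J) b r i.succ) x := by
  have hne : (if b then sU else sA) ≠ sW := by
    cases b <;> decide
  have h1 : x (if b then sU else sA) i = d :=
    gOr_left hg _ i d (by simp [gDig])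
  have h2 : x sW i = d := by
    refine gOr_right (fun s i' => ?_) hg sW i d (by simp [gDig])
    by_cases h3 : s = sW
    · subst h3
      left
      simp [gDig, hne.symm]
    · right
      simp [gDig, h3]
  simp only [Inv] at hA ⊢
  refine ⟨hA.1, fun i' hi' => ?_⟩
  by_cases h3 : i' = i
  · subst h3
    rw [h1, h2]
  · refine hA.2 i' ?_
    simp only [Fin.val_succ] at hi'
    simp only [Fin.val_castSucc]
    have : i'.val ≠ i.val := fun h => h3 (Fin.ext h)
    omega

/-- The rules that compare the two addresses are sound. -/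
lemma inv_neq {c : Fin Pg.length} {i : Fin e} {d d' : V} {x : Fin 4 → Fin e → V} (hd : d ≠ d')
    (hg : GHolds (gOr (gDig sA i d) (gDig sU i d')) x)
    (hA : Inv vn Pg c₀ m (HState.n1 (τ := τ) (J := J) c) x) :
    Inv vn Pg c₀ m (HState.n2 (τ := τ) (J := J) c) x := by
  have h1 : x sA i = d := gOr_left hg _ i d (by simp [gDig])
  have h2 : x sU i = d' := by
    refine gOr_right (fun s i' => ?_) hg sU i d' (by simp [gDig])
    by_cases h3 : s = sU
    · subst h3
      left
      simp [gDig, show (sU : Fin 4) ≠ sA by decide]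
    · right
      simp [gDig, h3]
  simp only [Inv] at hA ⊢
  obtain ⟨h3, I, hI, h4⟩ := hA
  refine ⟨h3, I, hI, fun h5 => ?_⟩
  rw [h4] at h5
  have h6 : x sU = x sA := dval_inj vn h5
  rw [h6, h1] at h2
  exact hd h2

/-- The initial rules are sound. -/
lemma inv_init (hc₀ : InitOK c₀ m xi) (hm : m < Fintype.card V ^ e) (he : 0 < Fintype.card V ^ e)
    (h : HState Pg.length τ J e) (x : Fin 4 → Fin e → V)
    (hg : ∀ s i a, (ruleOf vn Pg m (RuleIdx.init h)).guard s i = some a → x s i = a)
    (h₁ : ∀ q, (ruleOf vn Pg m (RuleIdx.init h)).prem₁ = some q → Inv vn Pg c₀ m q x) :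
    Inv vn Pg c₀ m (ruleOf vn Pg m (RuleIdx.init h)).concl
      (fun s i => x s i + (ruleOf vn Pg m (RuleIdx.init h)).add s i) := by
  have hdead : (ruleOf vn Pg m (RuleIdx.init h)) = deadRule → False := by
    intro hr
    rw [hr] at h₁
    exact h₁ _ rfl
  have hnone : ∀ x' : Fin 4 → Fin e → V, (fun s i => x' s i + (0 : V)) = x' := by
    intro x'
    funext s i
    simp
  have hT : ∀ (g : Fin 4 → Fin e → Option V), GHolds (gOr (numG vn sT 0) g) x → sv vn x sT = 0 :=
    fun g hg' => sv_of_numG vn (gOr_left hg') he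
  cases h with
  | pc c =>
    by_cases hc : c.val = 0
    · simp only [ruleOf, hc, if_true] at hg ⊢
      rw [hnone]
      simp only [Inv]
      rw [sv_of_numG vn hg he, hc]
      exact hc₀.pc
    · exfalso
      exact hdead (by simp [ruleOf, hc])
  | rg r =>
    simp only [ruleOf] at hg ⊢
    rw [hnone]
    simp only [Inv]
    rw [hT _ hg]
    have h2 : sv vn x sW = if r.val = 0 then m else 0 := by
      refine sv_of_numG vn (gOr_right (numG_disj vn (by decide) _ _) hg) ?_
      split <;> omega
    rw [h2]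
    exact hc₀.reg _
  | ar j =>
    by_cases hj : j.val = 0
    · exfalso
      exact hdead (by simp [ruleOf, hj])
    · simp only [ruleOf, hj, if_false] at hg ⊢
      rw [hnone]
      simp only [Inv]
      rw [hT _ hg]
      have h2 : sv vn x sW = 0 :=
        sv_of_numG vn (gOr_right (numG_disj vn (by decide) _ _) hg) he
      rw [h2]
      exact hc₀.mem _ _ hj
  | ge =>
    simp only [ruleOf] at hg ⊢
    rw [hnone]
    simp only [Inv]
    refine ⟨hT _ hg, ?_⟩
    have h2 : sv vn x sA = m :=
      sv_of_numG vn (gOr_right (numG_disj vn (by decide) _ _) hg) hm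
    omega
  | ra r => exact absurd rfl hdead
  | ru r => exact absurd rfl hdead
  | kr c r => exact absurd rfl hdead
  | ka c j => exact absurd rfl hdead
  | s1 c => exact absurd rfl hdead
  | wr c => exact absurd rfl hdead
  | go c => exact absurd rfl hdead
  | l1 c => exact absurd rfl hdead
  | n1 c => exact absurd rfl hdead
  | n2 c => exact absurd rfl hdead
  | cp b r i => exact absurd rfl hdead
  | acc => exact absurd rfl hdead
  | dead => exact absurd rfl hdead

end Vale.Agent.Lib.P310.Full
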