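import Vale.Agent.Lib.P310.Full.AdjDefs
import Vale.Agent.Lib.P310.Full.TabSound

/-!
# The reduction as machine code, and running another program after it
-/

namespace Vale.Agent.Lib.P310.Full

open Function

/-- Twice the square of the first cell of the input. -/
def limE : Exp := .mul (.const 2) (.mul (hd 0) (hd 0))
/-- How much of the loop remains. -/
def subE : Exp := .sub (.var 3) (.var 2)

/-- The number of working registers. -/
def hR (E : Exp) : ℕ := max E.ht (max limE.ht subE.ht)
/-- The first register of the relocated program. -/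
def kR (E : Exp) : ℕ := 5 + hR E

/-- The head of the loop. -/
def pH : ℕ := limE.len + 1
/-- The test of the loop. -/
def pJ : ℕ := pH + subE.len
/-- The start of the code of the body. -/
def pC : ℕ := pJ + 1
/-- The end of the code of the body. -/
def pS (E : Exp) : ℕ := pC + E.len
/-- The end of the loop. -/
def pEnd (E : Exp) : ℕ := pS E + 3
/-- The start of the relocated program. -/
def offR (E : Exp) : ℕ := pEnd E + 1

/-- The code that fills array `1` with the values of `E` at the positions below `limE`. -/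
def rCode (E : Exp) : List Instr :=
  comp limE 5 0 ++ (.mov 3 5 :: (comp subE 5 pH ++ (.jz 5 (pEnd E) ::
    (comp E 5 pC ++ [.store 1 2 5, .inc 2, .jz zr pH, .load (kR E) 0 zr]))))

/-- A relocated instruction. -/
def relocI (K off : ℕ) : Instr → Instr
  | .inc r => .inc (K + r)
  | .dec r => .dec (K + r)
  | .mov r s => .mov (K + r) (K + s)
  | .jz r t => .jz (K + r) (off + t)
  | .load r j s => .load (K + r) (j + 1) (K + s)
  | .store j s r => .store (j + 1) (K + s) (K + r)
  | .halt b => .halt b

/-- The program: the reduction followed by the relocated program `A`. -/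
def mCode (E : Exp) (A : List Instr) : List Instr :=
  rCode E ++ A.map (relocI (kR E) (offR E))

lemma rCode_length (E : Exp) : (rCode E).length = offR E := by
  simp only [rCode, List.length_append, List.length_cons, comp_length, List.length_nil, offR, pEnd,
    pS, pC, pJ, pH]
  omega

/-- The simulation of a program by its relocated copy. -/
structure Sim (K off : ℕ) (a m : Conf) : Prop where
  pc : m.pc = off + a.pc
  reg : ∀ r, m.reg (K + r) = a.reg r
  mem : ∀ j b, m.mem (j + 1) b = a.mem j b

section Sim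

variable {K off : ℕ} {R A : List Instr}

lemma get_reloc (hR : R.length = off) (i : ℕ) :
    (R ++ A.map (relocI K off))[off + i]? = (A[i]?).map (relocI K off) := by
  rw [List.getElem?_append_right (by omega), hR, Nat.add_sub_cancel_left, List.getElem?_map]

lemma Sim.step (hR : R.length = off) {a m : Conf} (h : Sim K off a m) :
    Sim K off (step A a) (step (R ++ A.map (relocI K off)) m) := by
  have hg := get_reloc (A := A) (K := K) hR a.pc
  unfold Full.step
  rw [h.pc, hg]
  cases hI : A[a.pc]? with
  | none => exact h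
  | some I =>
    simp only [Option.map_some]
    cases I with
    | inc r =>
      refine ⟨?_, fun r' => ?_, h.mem⟩
      · simp only [relocI, Instr.exec, h.pc]
        omega
      · simp only [relocI, Instr.exec, update_apply, Nat.add_left_cancel_iff, h.reg]
    | dec r =>
      refine ⟨?_, fun r' => ?_, h.mem⟩
      · simp only [relocI, Instr.exec, h.pc]
        omega
      · simp only [relocI, Instr.exec, update_apply, Nat.add_left_cancel_iff, h.reg]
    | mov r s =>
      refine ⟨?_, fun r' => ?_, h.mem⟩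
      · simp only [relocI, Instr.exec, h.pc]
        omega
      · simp only [relocI, Instr.exec, update_apply, Nat.add_left_cancel_iff, h.reg]
    | jz r t =>
      refine ⟨?_, h.reg, h.mem⟩
      simp only [relocI, Instr.exec, h.pc, h.reg]
      split <;> omega
    | load r j s =>
      refine ⟨?_, fun r' => ?_, h.mem⟩
      · simp only [relocI, Instr.exec, h.pc]
        omega
      · simp only [relocI, Instr.exec, update_apply, Nat.add_left_cancel_iff, h.reg, h.mem]
    | store j s r =>
      refine ⟨?_, h.reg, fun j' b => ?_⟩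
      · simp only [relocI, Instr.exec, h.pc]
        omega
      · show (update m.mem (j + 1) (update (m.mem (j + 1)) (m.reg (K + s)) (m.reg (K + r)))) (j' + 1) b =
          (update a.mem j (update (a.mem j) (a.reg s) (a.reg r))) j' b
        rw [h.reg, h.reg]
        by_cases hj : j' = j
        · subst hj
          simp only [update_self, update_apply, h.mem]
        · rw [update_of_ne (by omega), update_of_ne hj, h.mem]
    | halt b => exact h

lemma Sim.outcome (hR : R.length = off) {a m : Conf} (h : Sim K off a m) :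
    Full.outcome (R ++ A.map (relocI K off)) m = Full.outcome A a := by
  have hg := get_reloc (A := A) (K := K) hR a.pc
  unfold Full.outcome
  rw [h.pc, hg]
  cases hI : A[a.pc]? with
  | none => rfl
  | some I =>
    cases I <;> rfl

lemma Sim.iterate (hR : R.length = off) {a m : Conf} (h : Sim K off a m) (t : ℕ) :
    Sim K off (Nat.iterate (Full.step A) t a)
      (Nat.iterate (Full.step (R ++ A.map (relocI K off))) t m) := by
  induction t with
  | zero => exact h
  | succ t ih =>
    rw [iterate_succ_apply', iterate_succ_apply']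
    exact ih.step hR

end Sim

section Loop

variable {E : Exp} {A : List Instr}

/-- The contents of the first registers during the loop. -/
def envR (m ptr lim : ℕ) : ℕ → ℕ :=
  fun i => if i = 0 then m else if i = 2 then ptr else if i = 3 then lim else 0

/-- The state at the head of the loop. -/
structure LoopInv (E : Exp) (x : ℕ → ℕ) (m lim ptr : ℕ) (c : Conf) : Prop where
  pc : c.pc = pH
  env : ∀ i : Fin 5, c.reg i = envR m ptr lim i
  hi : ∀ r, kR E ≤ r → c.reg r = 0
  mem0 : c.mem 0 = x
  mem1 : ∀ a, c.mem 1 a = if a < ptr then E.eval x (envR m a lim) else 0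
  memHi : ∀ j a, 2 ≤ j → c.mem j a = 0

lemma code_all : CodeAt (mCode E A) 0 (mCode E A) := by
  intro i _
  simp

lemma code_r : CodeAt (mCode E A) 0 (rCode E) := (code_all (E := E) (A := A)).left

lemma code_lim : CodeAt (mCode E A) 0 (comp limE 5 0) := (code_r (E := E) (A := A)).left

lemma code_rest : CodeAt (mCode E A) limE.len (.mov 3 5 :: (comp subE 5 pH ++ (.jz 5 (pEnd E) ::
    (comp E 5 pC ++ [.store 1 2 5, .inc 2, .jz zr pH, .load (kR E) 0 zr])))) := by
  have h := (code_r (E := E) (A := A)).right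
  rwa [comp_length, Nat.zero_add] at h

lemma code_cons {P : List Instr} {p : ℕ} {I : Instr} {l : List Instr} (h : CodeAt P p (I :: l)) :
    CodeAt P (p + 1) l := by
  intro i hi
  have h1 := h (i + 1) (by simp; omega)
  simpa [Nat.add_assoc, Nat.add_comm 1 i] using h1

lemma code_head {P : List Instr} {p : ℕ} {I : Instr} {l : List Instr} (h : CodeAt P p (I :: l)) :
    P[p]? = some I := by
  have h1 := h 0 (by simp)
  simpa using h1

lemma code_mov : (mCode E A)[limE.len]? = some (.mov 3 5) := code_head code_rest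

lemma code_rest2 : CodeAt (mCode E A) pH (comp subE 5 pH ++ (.jz 5 (pEnd E) ::
    (comp E 5 pC ++ [.store 1 2 5, .inc 2, .jz zr pH, .load (kR E) 0 zr]))) :=
  code_cons code_rest

lemma code_sub : CodeAt (mCode E A) pH (comp subE 5 pH) := code_rest2.left

lemma code_rest3 : CodeAt (mCode E A) pJ (.jz 5 (pEnd E) ::
    (comp E 5 pC ++ [.store 1 2 5, .inc 2, .jz zr pH, .load (kR E) 0 zr])) := by
  have h := (code_rest2 (E := E) (A := A)).right
  rwa [comp_length] at h

lemma code_jz : (mCode E A)[pJ]? = some (.jz 5 (pEnd E)) := code_head code_rest3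

lemma code_rest4 : CodeAt (mCode E A) pC
    (comp E 5 pC ++ [.store 1 2 5, .inc 2, .jz zr pH, .load (kR E) 0 zr]) :=
  code_cons code_rest3

lemma code_cell : CodeAt (mCode E A) pC (comp E 5 pC) := code_rest4.left

lemma code_rest5 : CodeAt (mCode E A) (pS E)
    [.store 1 2 5, .inc 2, .jz zr pH, .load (kR E) 0 zr] := by
  have h := (code_rest4 (E := E) (A := A)).right
  rwa [comp_length] at h

lemma code_store : (mCode E A)[pS E]? = some (.store 1 2 5) := code_head code_rest5

lemma code_inc : (mCode E A)[pS E + 1]? = some (.inc 2) := code_head (code_cons code_rest5)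

lemma code_back : (mCode E A)[pS E + 2]? = some (.jz zr pH) :=
  code_head (code_cons (code_cons code_rest5))

lemma code_load : (mCode E A)[pS E + 3]? = some (.load (kR E) 0 zr) :=
  code_head (code_cons (code_cons (code_cons code_rest5)))

lemma subE_eval (x : ℕ → ℕ) (m ptr lim : ℕ) : subE.eval x (envR m ptr lim) = lim - ptr := by
  simp [subE, Exp.eval, envR]

lemma limE_eval (x env : ℕ → ℕ) : limE.eval x env = 2 * (x 0 * x 0) := rfl

lemma ht_sub_le (E : Exp) : subE.ht ≤ hR E := by
  unfold hR
  omega

lemma ht_lim_le (E : Exp) : limE.ht ≤ hR E := by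
  unfold hR
  omega

lemma ht_E_le (E : Exp) : E.ht ≤ hR E := by
  unfold hR
  omega

lemma frame_low {c c' : Conf} {k : ℕ} (h : Frame c c' 5 k) (i : Fin 5) :
    c'.reg i = c.reg i := h.1 i (Or.inl (by have := i.isLt; omega))

lemma frame_high {c c' : Conf} {k : ℕ} {E : Exp} (hk : k ≤ hR E) (h : Frame c c' 5 k) (r : ℕ)
    (hr : kR E ≤ r) : c'.reg r = c.reg r :=
  h.1 r (Or.inr (by unfold kR at hr; omega))

/-- The first part of the code: the limit of the loop. -/
lemma loop_start {x : ℕ → ℕ} {m : ℕ} {c₀ : Conf} (hpc : c₀.pc = 0)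
    (hreg : ∀ r, c₀.reg r = if r = 0 then m else 0) (hx : c₀.mem 0 = x)
    (hhi : ∀ j a, 1 ≤ j → c₀.mem j a = 0) :
    ∃ t c, Reach (mCode E A) c₀ t c ∧ LoopInv E x m (2 * (x 0 * x 0)) 0 c ∧
      t ≤ limE.cost x (envR m 0 0) + 1 := by
  have henv : ∀ i : Fin 5, c₀.reg i = envR m 0 0 i := by
    intro i
    rw [hreg]
    fin_cases i <;> simp [envR]
  obtain ⟨t, c, h1, h2, h3, h4, h5⟩ := comp_spec x (envR m 0 0) limE 5 0 c₀ le_rfl code_lim hpc
    (by rw [hreg]; simp) henv hx
  rw [limE_eval] at h3
  have h2' : c.pc = limE.len := by omega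
  refine ⟨t + 1, _, h1.trans (reach_at h2' code_mov (Reach.refl _ _)), ?_, by omega⟩
  have hr5 : ∀ i : Fin 5, c.reg i = envR m 0 0 i := fun i => by rw [frame_low h4, henv]
  refine ⟨?_, fun i => ?_, fun r hr => ?_, ?_, fun a => ?_, fun j a hj => ?_⟩
  · simp only [Instr.exec, h2', pH]
  · have e0 : c.reg 0 = m := by simpa [envR] using hr5 0
    have e1 : c.reg 1 = 0 := by simpa [envR] using hr5 1
    have e2 : c.reg 2 = 0 := by simpa [envR] using hr5 2
    have e4 : c.reg 4 = 0 := by simpa [envR] using hr5 4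
    simp only [Instr.exec, h3, update_apply]
    fin_cases i
    · simp [envR, e0]
    · simp [envR, e1]
    · simp [envR, e2]
    · simp [envR]
    · simp [envR, e4]
  · have hk : 3 ≠ r := by
      unfold kR at hr
      omega
    simp only [Instr.exec, update_apply, hk.symm, if_false]
    rw [frame_high (ht_lim_le E) h4 r hr, hreg, if_neg]
    unfold kR at hr
    omega
  · simp only [Instr.exec, h4.2, hx]
  · simp only [Instr.exec, h4.2]
    rw [hhi 1 a le_rfl]
    simp
  · simp only [Instr.exec, h4.2]
    exact hhi j a (by omega)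

/-- One round of the loop. -/
lemma loop_step {x : ℕ → ℕ} {m lim ptr : ℕ} {c : Conf} (h : LoopInv E x m lim ptr c)
    (hlt : ptr < lim) :
    ∃ t c', Reach (mCode E A) c t c' ∧ LoopInv E x m lim (ptr + 1) c' ∧
      t ≤ subE.cost x (envR m ptr lim) + E.cost x (envR m ptr lim) + 4 := by
  obtain ⟨t₁, c₁, a1, a2, a3, a4, a5⟩ := comp_spec x (envR m ptr lim) subE 5 pH c (le_rfl)
    code_sub h.pc (by simpa [envR] using h.env 1) h.env h.mem0
  rw [subE_eval] at a3
  have a2' : c₁.pc = pJ := a2
  have hr5 : ∀ i : Fin 5, c₁.reg i = envR m ptr lim i := fun i => by rw [frame_low a4, h.env]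
  have hjz : (Instr.jz 5 (pEnd E)).exec c₁ = ⟨pC, c₁.reg, c₁.mem⟩ := by
    simp only [Instr.exec, a3]
    rw [if_neg (by omega), a2']
    rfl
  obtain ⟨t₂, c₂, b1, b2, b3, b4, b5⟩ := comp_spec x (envR m ptr lim) E 5 pC
    ⟨pC, c₁.reg, c₁.mem⟩ (le_rfl) code_cell rfl (by simpa [envR] using hr5 1) hr5
    (by simp only; rw [a4.2, h.mem0])
  have b2' : c₂.pc = pS E := b2
  have hr5' : ∀ i : Fin 5, c₂.reg i = envR m ptr lim i := fun i => by
    rw [frame_low b4]
    exact hr5 i
  have hz : c₂.reg zr = 0 := by simpa [envR] using hr5' 1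
  have h2 : c₂.reg 2 = ptr := by simpa [envR] using hr5' 2
  have hmem : c₂.mem = c.mem := by
    rw [b4.2]
    exact a4.2
  -- store, increment, jump
  let c₃ : Conf := Instr.exec (.store 1 2 5) c₂
  let c₄ : Conf := Instr.exec (.inc 2) c₃
  have c₃pc : c₃.pc = pS E + 1 := by simp only [c₃, Instr.exec, b2']
  have c₄pc : c₄.pc = pS E + 2 := by simp only [c₄, c₃, Instr.exec, b2']
  have R₁ : Reach (mCode E A) c (t₁ + (1 + t₂)) c₂ := by
    refine a1.trans ?_
    rw [Nat.add_comm 1 t₂]
    exact reach_at a2' code_jz (by rw [hjz]; exact b1)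
  have R₂ : Reach (mCode E A) c₂ 3 (Instr.exec (.jz zr pH) c₄) :=
    reach_at b2' code_store (reach_at c₃pc code_inc (reach_at c₄pc code_back (Reach.refl _ _)))
  refine ⟨t₁ + (1 + t₂) + 3, _, R₁.trans R₂, ?_, by omega⟩
  have hregs : ∀ i, (Instr.exec (.jz zr pH) c₄).reg i = update c₂.reg 2 (c₂.reg 2 + 1) i := by
    intro i
    rfl
  have hmems : (Instr.exec (.jz zr pH) c₄).mem =
      update c₂.mem 1 (update (c₂.mem 1) (c₂.reg 2) (c₂.reg 5)) := rfl
  refine ⟨?_, fun i => ?_, fun r hr => ?_, ?_, fun a => ?_, fun j a hj => ?_⟩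
  · show (if (update c₂.reg 2 (c₂.reg 2 + 1)) zr = 0 then pH else c₄.pc + 1) = pH
    rw [if_pos]
    simpa [update_apply, zr] using hz
  · rw [hregs]
    have h3 := hr5' i
    fin_cases i
    · simpa [update_apply, envR] using h3
    · simpa [update_apply, envR] using h3
    · simp [update_apply, envR, h2]
    · simpa [update_apply, envR] using h3
    · simpa [update_apply, envR] using h3
  · rw [hregs]
    have hk : r ≠ 2 := by
      unfold kR at hr
      omega
    simp only [update_apply, hk, if_false]
    rw [frame_high (ht_E_le E) b4 r hr]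
    show c₁.reg r = 0
    rw [frame_high (ht_sub_le E) a4 r hr]
    exact h.hi r hr
  · rw [hmems]
    simp only [update_apply, zero_ne_one, if_false, hmem]
    exact h.mem0
  · rw [hmems]
    simp only [update_self, update_apply, h2, hmem, b3, h.mem1]
    by_cases ha : a = ptr
    · simp [ha]
    · simp only [ha, if_false]
      by_cases ha' : a < ptr
      · rw [if_pos ha', if_pos (by omega)]
      · rw [if_neg ha', if_neg (by omega)]
  · rw [hmems]
    have hj1 : j ≠ 1 := by omega
    simp only [update_apply, hj1, if_false, hmem]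
    exact h.memHi j a hj

/-- Leaving the loop. -/
lemma loop_exit {x : ℕ → ℕ} {m lim : ℕ} {c : Conf} (h : LoopInv E x m lim lim c) :
    ∃ t c', Reach (mCode E A) c t c' ∧ c'.pc = offR E ∧ c'.reg (kR E) = x 0 ∧
      (∀ r, kR E < r → c'.reg r = 0) ∧ c'.mem 1 = c.mem 1 ∧ (∀ j, 2 ≤ j → c'.mem j = c.mem j) ∧
      t ≤ subE.cost x (envR m lim lim) + 2 := by
  obtain ⟨t₁, c₁, a1, a2, a3, a4, a5⟩ := comp_spec x (envR m lim lim) subE 5 pH c (le_rfl)
    code_sub h.pc (by simpa [envR] using h.env 1) h.env h.mem0
  rw [subE_eval] at a3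
  have a2' : c₁.pc = pJ := a2
  have hr5 : ∀ i : Fin 5, c₁.reg i = envR m lim lim i := fun i => by rw [frame_low a4, h.env]
  have hjz : ((Instr.jz 5 (pEnd E)).exec c₁).pc = pS E + 3 := by
    simp only [Instr.exec, a3]
    rw [if_pos (by omega)]
    rfl
  refine ⟨t₁ + 2, _, a1.trans (reach_at a2' code_jz (reach_at hjz code_load (Reach.refl _ _))),
    ?_, ?_, fun r hr => ?_, ?_, fun j _ => ?_, by omega⟩
  · simp only [Instr.exec, a3]
    rw [if_pos (by omega)]
    rfl
  · simp only [Instr.exec, update_self]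
    have h1 : c₁.reg zr = 0 := by simpa [envR] using hr5 1
    rw [h1, a4.2, h.mem0]
  · have hk : r ≠ kR E := by omega
    simp only [Instr.exec, update_apply, hk, if_false]
    rw [frame_high (ht_sub_le E) a4 r hr.le]
    exact h.hi r hr.le
  · simp only [Instr.exec]
    rw [a4.2]
  · simp only [Instr.exec]
    rw [a4.2]

/-- The whole loop. -/
lemma loop_all {x : ℕ → ℕ} {m lim : ℕ} {c : Conf} {Tit : ℕ}
    (hT : ∀ ptr, ptr < lim → subE.cost x (envR m ptr lim) + E.cost x (envR m ptr lim) + 4 ≤ Tit)
    (d : ℕ) {ptr : ℕ} (hd : ptr + d = lim) (h : LoopInv E x m lim ptr c) :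
    ∃ t c', Reach (mCode E A) c t c' ∧ LoopInv E x m lim lim c' ∧ t ≤ d * Tit := by
  induction d generalizing ptr c with
  | zero =>
    have : ptr = lim := by omega
    subst this
    exact ⟨0, c, Reach.refl _ _, h, by omega⟩
  | succ d ih =>
    obtain ⟨t₁, c₁, h1, h2, h3⟩ := loop_step (A := A) h (by omega)
    obtain ⟨t₂, c₂, h4, h5, h6⟩ := ih (ptr := ptr + 1) (by omega) h2
    refine ⟨t₁ + t₂, c₂, h1.trans h4, h5, ?_⟩
    have := hT ptr (by omega)
    have h7 : (d + 1) * Tit = d * Tit + Tit := by ring
    omega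

/-- The cell of the output after the loop. -/
theorem run_reduction {x : ℕ → ℕ} {m n : ℕ} {c₀ : Conf} (hpc : c₀.pc = 0)
    (hreg : ∀ r, c₀.reg r = if r = 0 then m else 0) (hx : c₀.mem 0 = x)
    (hhi : ∀ j a, 1 ≤ j → c₀.mem j a = 0) (hn : x 0 = n) (G H : SimpleGraph (Fin n)) {Tit : ℕ}
    (hT : ∀ ptr, ptr ≤ 2 * (n * n) →
      subE.cost x (envR m ptr (2 * (n * n))) + E.cost x (envR m ptr (2 * (n * n))) + 4 ≤ Tit)
    (hcell : ∀ a, a < 2 * (n * n) → E.eval x (envR m a (2 * (n * n))) =
      if a < n * n then adjCell G a else adjCell H (a - n * n))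
    (hout : ∀ a, 2 * (n * n) ≤ a → adjCell H (a - n * n) = 0) :
    ∃ t c, Reach (mCode E A) c₀ t c ∧ Sim (kR E) (offR E) (graphConf n G H) c ∧
      t ≤ limE.cost x (envR m 0 0) + 1 + 2 * (n * n) * Tit + Tit := by
  subst hn
  obtain ⟨t₁, c₁, h1, h2, h3⟩ := loop_start (E := E) (A := A) hpc hreg hx hhi
  obtain ⟨t₂, c₂, h4, h5, h6⟩ := loop_all (A := A) (fun ptr hp => hT ptr hp.le)
    (2 * (x 0 * x 0)) (Nat.zero_add _) h2
  obtain ⟨t₃, c₃, h7, h8, h9, h10, h11, h12, h13⟩ := loop_exit (A := A) h5
  have h14 := hT (2 * (x 0 * x 0)) le_rfl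
  refine ⟨t₁ + t₂ + t₃, c₃, (h1.trans h4).trans h7, ⟨?_, fun r => ?_, fun j b => ?_⟩, by omega⟩
  · rw [h8]
    rfl
  · by_cases hr : r = 0
    · subst hr
      simpa [graphConf] using h9
    · rw [h10 _ (by omega)]
      simp [graphConf, hr]
  · by_cases hj : j = 0
    · subst hj
      rw [h11, h5.mem1]
      simp only [graphConf, if_true]
      by_cases hb : b < 2 * (x 0 * x 0)
      · rw [if_pos hb]
        exact hcell b hb
      · rw [if_neg hb]
        have h15 : ¬ b < x 0 * x 0 := by omega
        rw [if_neg h15, hout b (by omega)]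
    · rw [h12 _ (by omega), h5.memHi _ _ (by omega)]
      simp [graphConf, hj]

end Loop

end Vale.Agent.Lib.P310.Full
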