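import Vale.Agent.Lib.P310.Full.AdjSpec3
import Vale.Agent.Lib.P310.Full.Run

/-!
# The expression computes the adjacency matrices
-/

namespace Vale.Agent.Lib.P310.Full

open FC

lemma adjCell_eq {n : ℕ} (G : SimpleGraph (Fin n)) {a : ℕ} (h1 : a / n < n) (h2 : a % n < n)
    (ha : a < n * n) :
    adjCell G a = open Classical in if G.Adj ⟨a / n, h1⟩ ⟨a % n, h2⟩ then 1 else 0 := by
  classical
  unfold adjCell
  by_cases h : G.Adj ⟨a / n, h1⟩ ⟨a % n, h2⟩
  · rw [if_pos h, if_pos]
    refine ⟨⟨a / n, h1⟩, ⟨a % n, h2⟩, ?_, h⟩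
    simp only
    rw [Nat.mul_comm]
    exact Nat.div_add_mod a n
  · rw [if_neg h, if_neg]
    rintro ⟨i, j, h3, h4⟩
    have h5 : a / n = i.val := by
      rw [← h3, Nat.mul_comm]
      rw [Nat.mul_add_div (by omega), Nat.div_eq_of_lt j.isLt, Nat.add_zero]
    have h6 : a % n = j.val := by
      rw [← h3, Nat.mul_comm]
      rw [Nat.mul_add_mod, Nat.mod_eq_of_lt j.isLt]
    apply h
    have h7 : (⟨a / n, h1⟩ : Fin n) = i := Fin.ext h5
    have h8 : (⟨a % n, h2⟩ : Fin n) = j := Fin.ext h6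
    rw [h7, h8]
    exact h4

lemma adjCell_out {n : ℕ} (G : SimpleGraph (Fin n)) {a : ℕ} (ha : n * n ≤ a) : adjCell G a = 0 := by
  classical
  unfold adjCell
  rw [if_neg]
  rintro ⟨i, j, h3, -⟩
  have h1 := i.isLt
  have h2 := j.isLt
  have h4 : (i.val + 1) * n ≤ n * n := Nat.mul_le_mul_right _ h1
  have h5 : (i.val + 1) * n = i.val * n + n := by ring
  omega

variable {ρ : ℕ} {V : Type} [AddCommGroup V] [Fintype V] [DecidableEq V] [HasVn V]
  {S : Sys ρ V}

/-- The value of the expression at a position of the output. -/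
theorem cell_core {x env : ℕ → ℕ} {O : Oracles} (hx : HeaderOK S x) (hO : OracleSpec S O x) {a n : ℕ}
    (e : Vtx S ≃ Fin n) (he : ∀ v, (e v).val = vtxN S v) (h0 : x 0 = n)
    (henv : env 2 = a) (ha : a < 2 * (n * n)) :
    (cellE O).eval x env = if a < n * n then adjCell ((altGraph S 0).comap e.symm) a
    else adjCell ((altGraph S 1).comap e.symm) (a - n * n) := by
  classical
  have hnpos : 0 < n := by
    by_contra h
    have : n = 0 := by omega
    rw [this] at ha
    omega
  have hnn : 0 < n * n := Nat.mul_pos hnpos hnpos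
  have hv : (Exp.var 2).eval x env = a := henv
  have hnnE : (Exp.mul (hd 0) (hd 0)).eval x env = n * n := by
    simp only [Exp.eval, ev_hd, h0]
  have hb : (Exp.div (.var 2) (.mul (hd 0) (hd 0))).eval x env = a / (n * n) := by
    show (Exp.var 2).eval x env / (Exp.mul (hd 0) (hd 0)).eval x env = _
    rw [hv, hnnE]
  have hm : (Exp.mod (.var 2) (.mul (hd 0) (hd 0))).eval x env = a % (n * n) := by
    show (Exp.var 2).eval x env % (Exp.mul (hd 0) (hd 0)).eval x env = _
    rw [hv, hnnE]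
  have hy₁ : (Exp.div (.mod (.var 2) (.mul (hd 0) (hd 0))) (hd 0)).eval x env = a % (n * n) / n := by
    show (Exp.mod (.var 2) (.mul (hd 0) (hd 0))).eval x env / x 0 = _
    rw [hm, h0]
  have hy₂ : (Exp.mod (.mod (.var 2) (.mul (hd 0) (hd 0))) (hd 0)).eval x env = a % (n * n) % n := by
    show (Exp.mod (.var 2) (.mul (hd 0) (hd 0))).eval x env % x 0 = _
    rw [hm, h0]
  have hmlt : a % (n * n) < n * n := Nat.mod_lt _ hnn
  have h1 : a % (n * n) / n < n := Nat.div_lt_of_lt_mul hmlt
  have h2 : a % (n * n) % n < n := Nat.mod_lt _ hnpos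
  have hN : ∀ y : Fin n, vtxN S (e.symm y) = y.val := by
    intro y
    rw [← he, Equiv.apply_symm_apply]
  have hN₁ := hN ⟨a % (n * n) / n, h1⟩
  have hN₂ := hN ⟨a % (n * n) % n, h2⟩
  by_cases hlt : a < n * n
  · rw [if_pos hlt]
    have hd : a / (n * n) = (0 : ZMod 2).val := by
      rw [Nat.div_eq_of_lt hlt]
      rfl
    have hmod : a % (n * n) = a := Nat.mod_eq_of_lt hlt
    have key := ev_vtxAdjE (b := 0) hx hO (hb.trans hd) (hy₁.trans hN₁.symm) (hy₂.trans hN₂.symm)
    refine key.trans ?_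
    rw [adjCell_eq _ (by rw [← hmod]; exact h1) (by rw [← hmod]; exact h2) hlt]
    simp only [SimpleGraph.comap_adj, hmod]
  · rw [if_neg hlt]
    have hlt2 : a - n * n < n * n := by omega
    have hmod : a % (n * n) = a - n * n := by
      rw [Nat.mod_eq_sub_mod (by omega), Nat.mod_eq_of_lt hlt2]
    have hd : a / (n * n) = (1 : ZMod 2).val := by
      have h3 : a / (n * n) = 1 := by
        have h4 := Nat.div_add_mod a (n * n)
        rw [hmod] at h4
        have h5 : n * n * (a / (n * n)) = n * n := by omega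
        exact Nat.eq_of_mul_eq_mul_left hnn (by rw [h5, Nat.mul_one])
      rw [h3]
      rfl
    have key := ev_vtxAdjE (b := 1) hx hO (hb.trans hd) (hy₁.trans hN₁.symm) (hy₂.trans hN₂.symm)
    refine key.trans ?_
    rw [adjCell_eq _ (by rw [← hmod]; exact h1) (by rw [← hmod]; exact h2) hlt2]
    simp only [SimpleGraph.comap_adj, hmod]

end Vale.Agent.Lib.P310.Full
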