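import Vale.Agent.Lib.P310.Full.Core.ProgCode

/-!
# Explicit linear checks for the Reed-Solomon encoding
-/

namespace Vale.Agent.Lib.P310.FC

open Function Matrix

variable {F V : Type} {ρ ℓ : ℕ} [Field F] [AddCommGroup V] [Module F V]

/-- The value that equation `e` must have, if any. -/
def gv (G : Guard V ℓ) (e : Fin ρ) : Option V :=
  if h : e.val < ρ - ℓ then some 0
  else G ⟨e.val - (ρ - ℓ), by have := e.isLt; omega⟩

section Lemmas

variable (hℓ : ℓ ≤ ρ) (α : Fin ρ → F)

/-- The first points. -/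
def v₀ : Fin ℓ → F := fun i => α (Fin.castLE hℓ i)

/-- The inverse of the Vandermonde matrix at the first points. -/
noncomputable def dMat : Matrix (Fin ℓ) (Fin ℓ) F := (vandermonde (v₀ hℓ α))⁻¹

/-- The coefficients of the values at the first points that give the value at the point `p`. -/
noncomputable def wCoef (p : F) (i : Fin ℓ) : F := ∑ j : Fin ℓ, p ^ (j : ℕ) * dMat hℓ α j i

variable {α}

lemma v₀_inj (hα : Injective α) : Injective (v₀ hℓ α) :=
  fun _ _ h => Fin.castLE_injective hℓ (hα h)

lemma d_mul_a (hα : Injective α) (j j' : Fin ℓ) :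
    ∑ i, dMat hℓ α j i * (v₀ hℓ α i) ^ (j' : ℕ) = if j = j' then 1 else 0 := by
  have h1 : IsUnit (vandermonde (v₀ hℓ α)).det :=
    isUnit_iff_ne_zero.mpr (det_vandermonde_ne_zero_iff.mpr (v₀_inj hℓ hα))
  have h2 := nonsing_inv_mul _ h1
  have h3 := congrFun (congrFun h2 j) j'
  simp only [mul_apply, vandermonde_apply, one_apply] at h3
  exact h3

lemma a_mul_d (hα : Injective α) (i i' : Fin ℓ) :
    ∑ j : Fin ℓ, (v₀ hℓ α i) ^ (j : ℕ) * dMat hℓ α j i' = if i = i' then 1 else 0 := by
  have h1 : IsUnit (vandermonde (v₀ hℓ α)).det :=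
    isUnit_iff_ne_zero.mpr (det_vandermonde_ne_zero_iff.mpr (v₀_inj hℓ hα))
  have h2 := mul_nonsing_inv _ h1
  have h3 := congrFun (congrFun h2 i) i'
  simp only [mul_apply, vandermonde_apply, one_apply] at h3
  exact h3

/-- The registers computed from the values at the first points. -/
noncomputable def regOf (α : Fin ρ → F) (s : Fin ρ → V) (j : Fin ℓ) : V :=
  ∑ i : Fin ℓ, dMat hℓ α j i • s (Fin.castLE hℓ i)

lemma regOf_encode (hα : Injective α) (x : Fin ℓ → V) (j : Fin ℓ) :
    regOf hℓ α (encode α x) j = x j := by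
  classical
  unfold regOf encode
  simp only [Finset.smul_sum, smul_smul]
  rw [Finset.sum_comm]
  have h1 : ∀ j' : Fin ℓ, ∑ i : Fin ℓ, (dMat hℓ α j i * α (Fin.castLE hℓ i) ^ (j' : ℕ)) • x j' =
      (if j = j' then (1 : F) else 0) • x j' := by
    intro j'
    rw [← Finset.sum_smul]
    congr 1
    exact d_mul_a hℓ hα j j'
  simp only [h1, ite_smul, one_smul, zero_smul]
  simp

lemma wCoef_sum (p : F) (s : Fin ρ → V) :
    ∑ i : Fin ℓ, wCoef hℓ α p i • s (Fin.castLE hℓ i) =
      ∑ j : Fin ℓ, p ^ (j : ℕ) • regOf hℓ α s j := by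
  unfold wCoef regOf
  simp only [Finset.smul_sum, smul_smul, Finset.sum_smul]
  rw [Finset.sum_comm]

lemma encode_regOf_first (hα : Injective α) (s : Fin ρ → V) (i : Fin ℓ) :
    encode α (regOf hℓ α s) (Fin.castLE hℓ i) = s (Fin.castLE hℓ i) := by
  classical
  unfold encode regOf
  simp only [Finset.smul_sum, smul_smul]
  rw [Finset.sum_comm]
  have h1 : ∀ i' : Fin ℓ, ∑ j : Fin ℓ, (α (Fin.castLE hℓ i) ^ (j : ℕ) * dMat hℓ α j i') •
      s (Fin.castLE hℓ i') = (if i = i' then (1 : F) else 0) • s (Fin.castLE hℓ i') := by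
    intro i'
    rw [← Finset.sum_smul]
    congr 1
    exact a_mul_d hℓ hα i i'
  simp only [h1, ite_smul, one_smul, zero_smul]
  simp

/-- A sum over the points that is concentrated on the first points. -/
lemma sum_first {g : Fin ρ → V} (hg : ∀ i : Fin ρ, ℓ ≤ i.val → g i = 0) :
    ∑ i, g i = ∑ i : Fin ℓ, g (Fin.castLE hℓ i) := by
  classical
  have h1 : ∑ i : Fin ℓ, g (Fin.castLE hℓ i) =
      ∑ i ∈ (Finset.univ : Finset (Fin ℓ)).map (Fin.castLEEmb hℓ), g i := by
    rw [Finset.sum_map]
    rfl
  rw [h1]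
  refine (Finset.sum_subset (Finset.subset_univ _) fun i _ hi => hg i ?_).symm
  by_contra hlt
  apply hi
  simp only [Finset.mem_map, Finset.mem_univ, true_and]
  exact ⟨⟨i.val, by omega⟩, rfl⟩

end Lemmas

section Coef

variable (hℓ : ℓ ≤ ρ) (α : Fin ρ → F)

/-- The coefficients of the equations: for `e < ρ - ℓ` the value at the point `ℓ + e` is the
combination of the values at the first points; for `e = ρ - ℓ + j` the combination of the values at
the first points that gives the register `j`. -/
noncomputable def coef (e i : Fin ρ) : F :=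
  if h : e.val < ρ - ℓ then
    (if i.val = ℓ + e.val then 1
     else if hi : i.val < ℓ then wCoef hℓ α (α ⟨ℓ + e.val, by omega⟩) ⟨i.val, hi⟩ else 0)
  else
    (if hi : i.val < ℓ then
      dMat hℓ α ⟨e.val - (ρ - ℓ), by have := e.isLt; omega⟩ ⟨i.val, hi⟩ else 0)

variable {α}

lemma coef_sum_lo (e : Fin ρ) (he : e.val < ρ - ℓ) (s : Fin ρ → V) :
    ∑ i, coef hℓ α e i • s i = s ⟨ℓ + e.val, by omega⟩ +
      ∑ j : Fin ℓ, (α ⟨ℓ + e.val, by omega⟩) ^ (j : ℕ) • regOf hℓ α s j := by
  classical
  rw [← wCoef_sum]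
  have h1 : ∀ i, coef hℓ α e i • s i =
      (if i = (⟨ℓ + e.val, by omega⟩ : Fin ρ) then s i else 0) +
      (if hi : i.val < ℓ then wCoef hℓ α (α ⟨ℓ + e.val, by omega⟩) ⟨i.val, hi⟩ • s i else 0) := by
    intro i
    unfold coef
    rw [dif_pos he]
    by_cases h2 : i.val = ℓ + e.val
    · have h3 : i = (⟨ℓ + e.val, by omega⟩ : Fin ρ) := Fin.ext h2
      rw [if_pos h2, if_pos h3, dif_neg (by omega)]
      simp
    · have h3 : i ≠ (⟨ℓ + e.val, by omega⟩ : Fin ρ) := fun h => h2 (congrArg Fin.val h)
      rw [if_neg h2, if_neg h3, zero_add]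
      by_cases h4 : i.val < ℓ
      · rw [dif_pos h4, dif_pos h4]
      · rw [dif_neg h4, dif_neg h4, zero_smul]
  simp only [h1, Finset.sum_add_distrib, Finset.sum_ite_eq', Finset.mem_univ, if_true]
  congr 1
  rw [sum_first hℓ (fun i hi => by rw [dif_neg (by omega)])]
  refine Finset.sum_congr rfl fun i _ => ?_
  simp only [Fin.val_castLE, i.isLt, dif_pos]

lemma coef_sum_hi (e : Fin ρ) (he : ¬ e.val < ρ - ℓ) (s : Fin ρ → V) :
    ∑ i, coef hℓ α e i • s i =
      regOf hℓ α s ⟨e.val - (ρ - ℓ), by have := e.isLt; omega⟩ := by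
  classical
  have h1 : ∀ i, coef hℓ α e i • s i =
      (if hi : i.val < ℓ then
        dMat hℓ α ⟨e.val - (ρ - ℓ), by have := e.isLt; omega⟩ ⟨i.val, hi⟩ • s i else 0) := by
    intro i
    unfold coef
    rw [dif_neg he]
    by_cases h4 : i.val < ℓ
    · rw [dif_pos h4, dif_pos h4]
    · rw [dif_neg h4, dif_neg h4, zero_smul]
  simp only [h1]
  rw [sum_first hℓ (fun i hi => by rw [dif_neg (by omega)])]
  unfold regOf
  refine Finset.sum_congr rfl fun i _ => ?_
  simp only [Fin.val_castLE, i.isLt, dif_pos]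

/-- The equations describe the encodings of the register vectors that meet a guard. -/
theorem equations_iff [CharP F 2] (hα : Injective α) (G : Guard V ℓ) (s : Fin ρ → V) :
    (∀ e a, gv G e = some a → ∑ i, coef hℓ α e i • s i = a) ↔
      ∃ x : Fin ℓ → V, s = encode α x ∧ G.Holds x := by
  have h2 : ∀ v : V, v + v = 0 := by
    intro v
    have h1 : ((2 : ℕ) : F) = 0 := CharP.cast_eq_zero F 2
    have h3 : ((2 : ℕ) : F) • v = 0 := by rw [h1, zero_smul]
    rw [Nat.cast_smul_eq_nsmul, two_nsmul] at h3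
    exact h3
  constructor
  · intro h
    refine ⟨regOf hℓ α s, ?_, fun j a hj => ?_⟩
    · funext i
      by_cases hi : i.val < ℓ
      · exact (encode_regOf_first hℓ hα s ⟨i.val, hi⟩).symm
      · have he : i.val - ℓ < ρ - ℓ := by
          have := i.isLt
          omega
        set e : Fin ρ := ⟨i.val - ℓ, by have := i.isLt; omega⟩ with he'
        have h3 := h e 0 (by
          unfold gv
          rw [dif_pos (show e.val < ρ - ℓ from he)])
        rw [coef_sum_lo hℓ e he s] at h3
        have hev : e.val = i.val - ℓ := rfl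
        have h4 : (⟨ℓ + e.val, by have := i.isLt; omega⟩ : Fin ρ) = i := by
          apply Fin.ext
          simp only [hev]
          omega
        rw [h4] at h3
        have h5 : s i = ∑ j : Fin ℓ, (α i) ^ (j : ℕ) • regOf hℓ α s j := by
          have h6 := h2 (∑ j : Fin ℓ, (α i) ^ (j : ℕ) • regOf hℓ α s j)
          rw [← add_right_cancel_iff (a := ∑ j : Fin ℓ, (α i) ^ (j : ℕ) • regOf hℓ α s j), h3, h6]
        exact h5
    · set e : Fin ρ := ⟨ρ - ℓ + j.val, by have := j.isLt; omega⟩ with he'
      have he : ¬ e.val < ρ - ℓ := by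
        simp only [he']
        omega
      have h3 := h e a (by
        unfold gv
        rw [dif_neg he, ← hj]
        congr 1
        apply Fin.ext
        simp only [he']
        omega)
      rw [coef_sum_hi hℓ e he s] at h3
      rw [← h3]
      congr 1
      apply Fin.ext
      simp only [he']
      omega
  · rintro ⟨x, rfl, hx⟩ e a ha
    by_cases he : e.val < ρ - ℓ
    · have h3 : a = 0 := by
        unfold gv at ha
        rw [dif_pos he] at ha
        exact (Option.some.inj ha).symm
      rw [coef_sum_lo hℓ e he, h3]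
      simp only [regOf_encode hℓ hα]
      exact h2 _
    · rw [coef_sum_hi hℓ e he, regOf_encode hℓ hα]
      unfold gv at ha
      rw [dif_neg he] at ha
      exact hx _ _ ha

end Coef

section Bits

variable {w : ℕ} (hℓ : ℓ ≤ ρ) (α : Fin ρ → F) (bit : Fin w → V →+ ZMod 2)

/-- The equation of a check number. -/
def eqOf {w : ℕ} (q : Fin (ρ * w)) : Fin ρ := (finProdFinEquiv.symm q).1
/-- The bit of a check number. -/
def bitOf {w : ℕ} (q : Fin (ρ * w)) : Fin w := (finProdFinEquiv.symm q).2

lemma eqOf_val {w : ℕ} (q : Fin (ρ * w)) : (eqOf q).val = q.val / w := by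
  simp [eqOf, finProdFinEquiv, Fin.divNat]

lemma bitOf_val {w : ℕ} (q : Fin (ρ * w)) : (bitOf q).val = q.val % w := by
  simp [bitOf, finProdFinEquiv, Fin.modNat]

/-- The row of a check. -/
noncomputable def rowE (G : Guard V ℓ) (q : Fin (ρ * w)) (i : Fin ρ) (r : V) : ZMod 2 :=
  match gv G (eqOf q) with
  | none => 0
  | some _ => bit (bitOf q) (coef hℓ α (eqOf q) i • r)

/-- The constant of a check. -/
def cstE (G : Guard V ℓ) (q : Fin (ρ * w)) : ZMod 2 :=
  match gv G (eqOf q) with
  | none => 0
  | some a => bit (bitOf q) a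

/-- The explicit checks. -/
noncomputable def checksE [CharP F 2] (hα : Injective α)
    (hbit : ∀ v : V, (∀ t, bit t v = 0) → v = 0) : Checks (V := V) α ℓ (ρ * w) where
  row := rowE hℓ α bit
  row_add := by
    intro G q i a b
    unfold rowE
    cases gv G (eqOf q) with
    | none => simp
    | some _ => simp [smul_add]
  cst := cstE bit
  spec := by
    intro G s
    rw [← equations_iff hℓ hα G s]
    constructor
    · intro h e a ha
      have h3 : ∀ t, bit t (∑ i, coef hℓ α e i • s i - a) = 0 := by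
        intro t
        have h4 := h (finProdFinEquiv (e, t))
        have he : eqOf (finProdFinEquiv (e, t)) = e := by simp [eqOf]
        have ht : bitOf (finProdFinEquiv (e, t)) = t := by simp [bitOf]
        unfold rowE cstE at h4
        rw [he, ht] at h4
        simp only [ha] at h4
        rw [map_sub, map_sum, h4, sub_self]
      exact sub_eq_zero.mp (hbit _ h3)
    · intro h q
      unfold rowE cstE
      cases hg : gv G (eqOf q) with
      | none => simp
      | some a =>
        simp only
        rw [← map_sum, h _ _ hg]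

end Bits

end Vale.Agent.Lib.P310.FC
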