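import Vale.Agent.Lib.P310.Full.Exec

/-!
# Expressions and their compilation to machine code
-/

namespace Vale.Agent.Lib.P310.Full

open Function

/-- Arithmetic expressions over the input array and the first five registers. -/
inductive Exp : Type
  | const (n : ℕ)
  | var (i : Fin 5)
  | add (a b : Exp)
  | sub (a b : Exp)
  | mul (a b : Exp)
  | div (a b : Exp)
  | mod (a b : Exp)
  | ite (c a b : Exp)
  | read (a : Exp)

namespace Exp

/-- The value of an expression: `x` is the array `0`, `env` holds the registers. -/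
def eval (x env : ℕ → ℕ) : Exp → ℕ
  | const n => n
  | var i => env i
  | add a b => a.eval x env + b.eval x env
  | sub a b => a.eval x env - b.eval x env
  | mul a b => a.eval x env * b.eval x env
  | div a b => a.eval x env / b.eval x env
  | mod a b => a.eval x env % b.eval x env
  | ite c a b => if c.eval x env = 0 then b.eval x env else a.eval x env
  | read a => x (a.eval x env)

/-- The number of registers used by the code of an expression. -/
def ht : Exp → ℕ
  | const _ => 1
  | var _ => 1
  | add a b => max a.ht (b.ht + 1) + 5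
  | sub a b => max a.ht (b.ht + 1) + 5
  | mul a b => max a.ht (b.ht + 1) + 5
  | div a b => max a.ht (b.ht + 1) + 5
  | mod a b => max a.ht (b.ht + 1) + 5
  | ite c a b => max c.ht (max a.ht b.ht)
  | read a => a.ht

/-- The length of the code of an expression. -/
def len : Exp → ℕ
  | const n => n + 1
  | var _ => 1
  | add a b => a.len + b.len + 4
  | sub a b => a.len + b.len + 4
  | mul a b => a.len + b.len + 9
  | div a b => a.len + b.len + 18
  | mod a b => a.len + b.len + 18
  | ite c a b => c.len + 1 + a.len + 1 + b.len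
  | read a => a.len + 1

/-- A bound for the running time of the code. -/
def cost (x env : ℕ → ℕ) : Exp → ℕ
  | const n => n + 1
  | var _ => 1
  | add a b => a.cost x env + b.cost x env + (4 * b.eval x env + 1)
  | sub a b => a.cost x env + b.cost x env + (4 * b.eval x env + 1)
  | mul a b => a.cost x env + b.cost x env +
      (b.eval x env * (4 * a.eval x env + 4) + 3)
  | div a b => a.cost x env + b.cost x env + (10 * a.eval x env + 10)
  | mod a b => a.cost x env + b.cost x env + (10 * a.eval x env + 10)
  | ite c a b => c.cost x env + 1 + (if c.eval x env = 0 then b.cost x env else a.cost x env + 1)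
  | read a => a.cost x env + 1

end Exp

/-- The code of an expression at position `p`: the value goes to the register `d`; the registers
from `d` on are used. -/
def comp : Exp → ℕ → ℕ → List Instr
  | .const n, d, _ => .mov d zr :: List.replicate n (.inc d)
  | .var i, d, _ => [.mov d i]
  | .add a b, d, p =>
      comp a d p ++ (comp b (d + 1) (p + a.len) ++ addCode d (p + a.len + b.len))
  | .sub a b, d, p =>
      comp a d p ++ (comp b (d + 1) (p + a.len) ++ subCode d (p + a.len + b.len))
  | .mul a b, d, p =>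
      comp a d p ++ (comp b (d + 1) (p + a.len) ++ mulCode d (p + a.len + b.len))
  | .div a b, d, p =>
      comp a d p ++ (comp b (d + 1) (p + a.len) ++ divCode false d (p + a.len + b.len))
  | .mod a b, d, p =>
      comp a d p ++ (comp b (d + 1) (p + a.len) ++ divCode true d (p + a.len + b.len))
  | .ite c a b, d, p =>
      comp c d p ++ (.jz d (p + c.len + 1 + a.len + 1) ::
        (comp a d (p + c.len + 1) ++ (.jz zr (p + c.len + 1 + a.len + 1 + b.len) ::
          comp b d (p + c.len + 1 + a.len + 1))))
  | .read a, d, p => comp a d p ++ [.load d 0 d]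

lemma comp_length (e : Exp) : ∀ d p, (comp e d p).length = e.len := by
  induction e with
  | const n => intro d p; simp [comp, Exp.len]
  | var i => intro d p; simp [comp, Exp.len]
  | add a b iha ihb => intro d p; simp [comp, Exp.len, iha, ihb, addCode]; omega
  | sub a b iha ihb => intro d p; simp [comp, Exp.len, iha, ihb, subCode]; omega
  | mul a b iha ihb => intro d p; simp [comp, Exp.len, iha, ihb, mulCode]; omega
  | div a b iha ihb => intro d p; simp [comp, Exp.len, iha, ihb, divCode]; omega
  | mod a b iha ihb => intro d p; simp [comp, Exp.len, iha, ihb, divCode]; omega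
  | ite c a b ihc iha ihb => intro d p; simp [comp, Exp.len, ihc, iha, ihb]; omega
  | read a iha => intro d p; simp [comp, Exp.len, iha]

lemma Exp.ht_pos (e : Exp) : 0 < e.ht := by
  induction e with
  | const n => simp [Exp.ht]
  | var i => simp [Exp.ht]
  | add a b iha ihb => simp [Exp.ht]
  | sub a b iha ihb => simp [Exp.ht]
  | mul a b iha ihb => simp [Exp.ht]
  | div a b iha ihb => simp [Exp.ht]
  | mod a b iha ihb => simp [Exp.ht]
  | ite c a b ihc iha ihb =>
    simp only [Exp.ht]
    exact lt_of_lt_of_le ihc (le_max_left _ _)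
  | read a iha => simpa [Exp.ht] using iha

variable {P : List Instr}

/-- The specification of the code of an expression. -/
def CompSpec (P : List Instr) (x env : ℕ → ℕ) (e : Exp) : Prop :=
  ∀ (d p : ℕ) (c : Conf), 5 ≤ d → CodeAt P p (comp e d p) → c.pc = p → c.reg zr = 0 →
    (∀ i : Fin 5, c.reg i = env i) → c.mem 0 = x →
    ∃ t c', Reach P c t c' ∧ c'.pc = p + e.len ∧ c'.reg d = e.eval x env ∧ Frame c c' d e.ht ∧
      t ≤ e.cost x env

lemma add_spec {d q : ℕ} (hd : 2 ≤ d) (hcode : CodeAt P q (addCode d q)) (c : Conf) (hpc : c.pc = q)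
    (hz : c.reg zr = 0) :
    ∃ t c', Reach P c t c' ∧ c'.pc = q + 4 ∧ c'.reg d = c.reg d + c.reg (d + 1) ∧
      Frame c c' d 5 ∧ t ≤ 4 * c.reg (d + 1) + 1 := by
  obtain ⟨t, c', h1, h2, h3, h4, h5, h6, h7⟩ := add_loop hd hcode _ c hpc rfl hz
  exact ⟨t, c', h1, h2, h3, ⟨fun i hi => h5 i (by omega) (by omega), h6⟩, h7⟩

lemma sub_spec {d q : ℕ} (hd : 2 ≤ d) (hcode : CodeAt P q (subCode d q)) (c : Conf) (hpc : c.pc = q)
    (hz : c.reg zr = 0) :
    ∃ t c', Reach P c t c' ∧ c'.pc = q + 4 ∧ c'.reg d = c.reg d - c.reg (d + 1) ∧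
      Frame c c' d 5 ∧ t ≤ 4 * c.reg (d + 1) + 1 := by
  obtain ⟨t, c', h1, h2, h3, h4, h5, h6, h7⟩ := sub_loop hd hcode _ c hpc rfl hz
  exact ⟨t, c', h1, h2, h3, ⟨fun i hi => h5 i (by omega) (by omega), h6⟩, h7⟩

/-- The code of a binary operation. -/
lemma binary_spec {x env : ℕ → ℕ} {a b : Exp} (iha : CompSpec P x env a) (ihb : CompSpec P x env b)
    (op : ℕ → ℕ → List Instr) (lo : ℕ) (f g : ℕ → ℕ → ℕ)
    (hop : ∀ d q (c : Conf), 2 ≤ d → CodeAt P q (op d q) → c.pc = q → c.reg zr = 0 →
      ∃ t c', Reach P c t c' ∧ c'.pc = q + lo ∧ c'.reg d = f (c.reg d) (c.reg (d + 1)) ∧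
        Frame c c' d 5 ∧ t ≤ g (c.reg d) (c.reg (d + 1)))
    (d p : ℕ) (c : Conf) (hd : 5 ≤ d)
    (hcode : CodeAt P p (comp a d p ++ (comp b (d + 1) (p + a.len) ++ op d (p + a.len + b.len))))
    (hpc : c.pc = p) (hz : c.reg zr = 0) (henv : ∀ i : Fin 5, c.reg i = env i) (hmem : c.mem 0 = x) :
    ∃ t c', Reach P c t c' ∧ c'.pc = p + (a.len + b.len + lo) ∧
      c'.reg d = f (a.eval x env) (b.eval x env) ∧ Frame c c' d (max a.ht (b.ht + 1) + 5) ∧
      t ≤ a.cost x env + b.cost x env + g (a.eval x env) (b.eval x env) := by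
  have h1 := hcode.left
  have h2 := hcode.right
  rw [comp_length] at h2
  have h3 := h2.left
  have h4 := h2.right
  rw [comp_length] at h4
  obtain ⟨t₁, c₁, R₁, a1, a2, ⟨a3, a4⟩, a5⟩ := iha d p c hd h1 hpc hz henv hmem
  have hz₁ : c₁.reg zr = 0 := by
    rw [a3 zr (Or.inl (by simp only [zr]; omega)), hz]
  have henv₁ : ∀ i : Fin 5, c₁.reg i = env i := by
    intro i
    rw [a3 i (Or.inl (by have := i.isLt; omega)), henv]
  obtain ⟨t₂, c₂, R₂, b1, b2, ⟨b3, b4⟩, b5⟩ := ihb (d + 1) (p + a.len) c₁ (by omega) h3 a1 hz₁ henv₁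
    (by rw [a4, hmem])
  have hz₂ : c₂.reg zr = 0 := by
    rw [b3 zr (Or.inl (by simp only [zr]; omega)), hz₁]
  obtain ⟨t₃, c₃, R₃, d1, d2, ⟨d3, d4⟩, d5⟩ := hop d (p + a.len + b.len) c₂ (by omega) h4 b1 hz₂
  have hd₂ : c₂.reg d = a.eval x env := by
    rw [b3 d (Or.inl (by omega)), a2]
  refine ⟨_, c₃, (R₁.trans R₂).trans R₃, by rw [d1]; omega, ?_, ⟨fun i hi => ?_, ?_⟩, ?_⟩
  · rw [d2, hd₂, b2]
  · have m1 : a.ht ≤ max a.ht (b.ht + 1) := le_max_left _ _
    have m2 : b.ht + 1 ≤ max a.ht (b.ht + 1) := le_max_right _ _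
    rw [d3 i (by omega), b3 i (by omega), a3 i (by omega)]
  · rw [d4, b4, a4]
  · rw [hd₂, b2] at d5
    omega

/-- The code of an expression is correct. -/
theorem comp_spec (x env : ℕ → ℕ) (e : Exp) : CompSpec P x env e := by
  induction e with
  | const n =>
    intro d p c hd hcode hpc hz henv hmem
    have key : ∀ (k q : ℕ) (c : Conf), CodeAt P q (List.replicate k (.inc d)) → c.pc = q →
        ∃ c', Reach P c k c' ∧ c'.pc = q + k ∧ c'.reg d = c.reg d + k ∧
          (∀ i, i ≠ d → c'.reg i = c.reg i) ∧ c'.mem = c.mem := by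
      intro k
      induction k with
      | zero =>
        intro q c _ hq
        exact ⟨c, Reach.refl _ _, by simp [hq], rfl, fun _ _ => rfl, rfl⟩
      | succ k ih =>
        intro q c hc hq
        have h0 := hc.get 0 (by simp) (I := .inc d) (by simp)
        have h1 : CodeAt P (q + 1) (List.replicate k (.inc d)) := by
          intro i hi
          have := hc (i + 1) (by simp at hi ⊢; omega)
          rw [show q + 1 + i = q + (i + 1) by omega, this]
          simp only [List.getElem?_replicate]
          simp at hi ⊢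
        obtain ⟨c', h2, h3, h4, h5, h6⟩ := ih (q + 1) ((Instr.inc d).exec c) h1
          (by simp [Instr.exec, hq])
        refine ⟨c', ?_, by omega, ?_, ?_, ?_⟩
        · exact reach_at (q := q + 0) hq h0 h2
        · rw [h4]
          simp [Instr.exec]
          omega
        · intro i hi
          rw [h5 i hi]
          simp [Instr.exec, Function.update_apply, hi]
        · rw [h6]
          rfl
    have h0 := hcode.get 0 (by simp [comp]) (I := .mov d zr) (by simp [comp])
    have h1 : CodeAt P (p + 1) (List.replicate n (.inc d)) := by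
      intro i hi
      have := hcode (i + 1) (by simp [comp] at hi ⊢; omega)
      rw [show p + 1 + i = p + (i + 1) by omega, this]
      simp [comp]
    obtain ⟨c', h2, h3, h4, h5, h6⟩ := key n (p + 1) ((Instr.mov d zr).exec c) h1
      (by simp [Instr.exec, hpc])
    refine ⟨_, c', reach_at (q := p + 0) hpc h0 h2, ?_, ?_, ⟨fun i hi => ?_, ?_⟩, ?_⟩
    · simp [Exp.len, h3]
      omega
    · rw [h4]
      simp [Instr.exec, hz, Exp.eval]
    · have hi' : i ≠ d := by
        simp only [Exp.ht] at hi
        omega
      rw [h5 i hi']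
      simp [Instr.exec, Function.update_apply, hi']
    · rw [h6]
      rfl
    · simp [Exp.cost]
  | var i =>
    intro d p c hd hcode hpc hz henv hmem
    have h0 := hcode.get 0 (by simp [comp]) (I := .mov d i) (by simp [comp])
    refine ⟨_, _, reach_at (q := p + 0) hpc h0 (Reach.refl _ _), ?_, ?_, ⟨fun j hj => ?_, ?_⟩, ?_⟩
    · simp [Instr.exec, hpc, Exp.len]
    · simp [Instr.exec, Exp.eval, henv]
    · have hj' : j ≠ d := by
        simp only [Exp.ht] at hj
        omega
      simp [Instr.exec, Function.update_apply, hj']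
    · rfl
    · simp [Exp.cost]
  | add a b iha ihb =>
    intro d p c hd hcode hpc hz henv hmem
    obtain ⟨t, c', h1, h2, h3, h4, h5⟩ := binary_spec iha ihb addCode 4 (fun u v => u + v)
      (fun _ v => 4 * v + 1) (fun d q c hd h hq hz => add_spec hd h c hq hz) d p c hd hcode hpc hz henv hmem
    exact ⟨t, c', h1, by simpa [Exp.len] using h2, by simpa [Exp.eval] using h3, by simpa [Exp.ht] using h4,
      by simpa [Exp.cost] using h5⟩
  | sub a b iha ihb =>
    intro d p c hd hcode hpc hz henv hmem
    obtain ⟨t, c', h1, h2, h3, h4, h5⟩ := binary_spec iha ihb subCode 4 (fun u v => u - v)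
      (fun _ v => 4 * v + 1) (fun d q c hd h hq hz => sub_spec hd h c hq hz) d p c hd hcode hpc hz henv hmem
    exact ⟨t, c', h1, by simpa [Exp.len] using h2, by simpa [Exp.eval] using h3, by simpa [Exp.ht] using h4,
      by simpa [Exp.cost] using h5⟩
  | mul a b iha ihb =>
    intro d p c hd hcode hpc hz henv hmem
    obtain ⟨t, c', h1, h2, h3, h4, h5⟩ := binary_spec iha ihb mulCode 9 (fun u v => u * v)
      (fun u v => v * (4 * u + 4) + 3) (fun d q c hd h hq hz => mul_spec hd h c hq hz) d p c hd hcode hpc hz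
      henv hmem
    exact ⟨t, c', h1, by simpa [Exp.len] using h2, by simpa [Exp.eval] using h3, by simpa [Exp.ht] using h4,
      by simpa [Exp.cost] using h5⟩
  | div a b iha ihb =>
    intro d p c hd hcode hpc hz henv hmem
    obtain ⟨t, c', h1, h2, h3, h4, h5⟩ := binary_spec iha ihb (divCode false) 18 (fun u v => u / v)
      (fun u _ => 10 * u + 10) (fun d q c hd h hq hz => by
        simpa using div_spec hd false h c hq hz) d p c hd hcode hpc hz henv hmem
    exact ⟨t, c', h1, by simpa [Exp.len] using h2, by simpa [Exp.eval] using h3, by simpa [Exp.ht] using h4,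
      by simpa [Exp.cost] using h5⟩
  | mod a b iha ihb =>
    intro d p c hd hcode hpc hz henv hmem
    obtain ⟨t, c', h1, h2, h3, h4, h5⟩ := binary_spec iha ihb (divCode true) 18 (fun u v => u % v)
      (fun u _ => 10 * u + 10) (fun d q c hd h hq hz => by
        simpa using div_spec hd true h c hq hz) d p c hd hcode hpc hz henv hmem
    exact ⟨t, c', h1, by simpa [Exp.len] using h2, by simpa [Exp.eval] using h3, by simpa [Exp.ht] using h4,
      by simpa [Exp.cost] using h5⟩
  | ite e a b ihe iha ihb =>
    intro d p c hd hcode hpc hz henv hmem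
    simp only [comp] at hcode
    have h1 := hcode.left
    have h2 := hcode.right
    rw [comp_length] at h2
    obtain ⟨t₁, c₁, R₁, a1, a2, ⟨a3, a4⟩, a5⟩ := ihe d p c hd h1 hpc hz henv hmem
    have hz₁ : c₁.reg zr = 0 := by
      rw [a3 zr (Or.inl (by simp only [zr]; omega)), hz]
    have henv₁ : ∀ i : Fin 5, c₁.reg i = env i := by
      intro i
      rw [a3 i (Or.inl (by have := i.isLt; omega)), henv]
    have hj := h2.get 0 (by simp) (I := .jz d (p + e.len + 1 + a.len + 1)) (by simp)
    have h3 : CodeAt P (p + e.len + 1) (comp a d (p + e.len + 1) ++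
        (.jz zr (p + e.len + 1 + a.len + 1 + b.len) :: comp b d (p + e.len + 1 + a.len + 1))) := by
      intro i hi
      have h := h2 (i + 1) (by simp at hi ⊢; omega)
      rw [show p + e.len + 1 + i = p + e.len + (i + 1) by omega, h]
      simp
    have h4 := h3.left
    have h5 := h3.right
    rw [comp_length] at h5
    have hj2 := h5.get 0 (by simp) (I := .jz zr (p + e.len + 1 + a.len + 1 + b.len)) (by simp)
    have h6 : CodeAt P (p + e.len + 1 + a.len + 1) (comp b d (p + e.len + 1 + a.len + 1)) := by
      intro i hi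
      have h := h5 (i + 1) (by simp at hi ⊢; omega)
      rw [show p + e.len + 1 + a.len + 1 + i = p + e.len + 1 + a.len + (i + 1) by omega, h]
      simp
    have hlen : ∀ (r : ℕ), p + e.len + 1 + a.len + 1 + b.len = p + (e.len + 1 + a.len + 1 + b.len) := by
      intro _
      omega
    have hm1 : e.ht ≤ max e.ht (max a.ht b.ht) := le_max_left _ _
    have hm2 : a.ht ≤ max e.ht (max a.ht b.ht) := le_trans (le_max_left _ _) (le_max_right _ _)
    have hm3 : b.ht ≤ max e.ht (max a.ht b.ht) := le_trans (le_max_right _ _) (le_max_right _ _)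
    by_cases hv : e.eval x env = 0
    · -- the else branch
      set c₂ := (Instr.jz d (p + e.len + 1 + a.len + 1)).exec c₁ with hc₂
      have p2 : c₂.pc = p + e.len + 1 + a.len + 1 := by
        simp [hc₂, Instr.exec, a2, hv]
      have r2 : c₂.reg = c₁.reg := rfl
      have m2 : c₂.mem = c₁.mem := rfl
      obtain ⟨t₃, c₃, R₃, b1, b2, ⟨b3, b4⟩, b5⟩ := ihb d _ c₂ hd h6 p2 (by rw [r2]; exact hz₁)
        (by rw [r2]; exact henv₁) (by rw [m2, a4, hmem])
      refine ⟨_, c₃, R₁.trans (reach_at (q := p + e.len + 0) a1 hj R₃), ?_, ?_, ⟨fun i hi => ?_, ?_⟩, ?_⟩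
      · rw [b1]
        simp only [Exp.len]
        omega
      · simp only [Exp.eval, hv, if_true, b2]
      · simp only [Exp.ht] at hi
        rw [b3 i (by omega), r2, a3 i (by omega)]
      · rw [b4, m2, a4]
      · simp only [Exp.cost, hv, if_true]
        omega
    · -- the then branch
      set c₂ := (Instr.jz d (p + e.len + 1 + a.len + 1)).exec c₁ with hc₂
      have p2 : c₂.pc = p + e.len + 1 := by
        simp [hc₂, Instr.exec, a2, hv, a1]
      have r2 : c₂.reg = c₁.reg := rfl
      have m2 : c₂.mem = c₁.mem := rfl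
      obtain ⟨t₃, c₃, R₃, b1, b2, ⟨b3, b4⟩, b5⟩ := iha d _ c₂ hd h4 p2 (by rw [r2]; exact hz₁)
        (by rw [r2]; exact henv₁) (by rw [m2, a4, hmem])
      have hz₃ : c₃.reg zr = 0 := by
        rw [b3 zr (Or.inl (by simp only [zr]; omega)), r2, hz₁]
      refine ⟨_, _, R₁.trans (reach_at (q := p + e.len + 0) a1 hj (R₃.trans
        (reach_at (q := p + e.len + 1 + a.len + 0) b1 hj2 (Reach.refl _ _)))), ?_, ?_,
        ⟨fun i hi => ?_, ?_⟩, ?_⟩
      · simp only [Instr.exec, hz₃, if_true, Exp.len]
        omega
      · simp only [Instr.exec, Exp.eval, hv, if_false, b2]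
      · simp only [Exp.ht] at hi
        simp only [Instr.exec]
        rw [b3 i (by omega), r2, a3 i (by omega)]
      · simp only [Instr.exec]
        rw [b4, m2, a4]
      · simp only [Exp.cost, hv, if_false]
        omega
  | read a iha =>
    intro d p c hd hcode hpc hz henv hmem
    simp only [comp] at hcode
    have h1 := hcode.left
    have h2 := hcode.right
    rw [comp_length] at h2
    obtain ⟨t₁, c₁, R₁, a1, a2, ⟨a3, a4⟩, a5⟩ := iha d p c hd h1 hpc hz henv hmem
    have hj := h2.get 0 (by simp) (I := .load d 0 d) (by simp)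
    refine ⟨_, _, R₁.trans (reach_at (q := p + a.len + 0) a1 hj (Reach.refl _ _)), ?_, ?_,
      ⟨fun i hi => ?_, ?_⟩, ?_⟩
    · simp only [Instr.exec, Exp.len]
      omega
    · simp only [Instr.exec, Function.update_self, Exp.eval]
      rw [a4, hmem, a2]
    · simp only [Exp.ht] at hi
      have hi' : i ≠ d := by
        have := Exp.ht_pos a
        omega
      simp only [Instr.exec, Function.update_apply, hi', if_false]
      exact a3 i hi
    · simp only [Instr.exec]
      exact a4
    · simp only [Exp.cost]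
      omega

end Vale.Agent.Lib.P310.Full
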