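import Vale.Agent.Lib.P310.WL

/-!
# `k`-WL equivalence is invariant under renaming the vertices
-/

namespace Vale.Agent.Lib.P310

variable {k : ℕ} {V W : Type} [Fintype V] [Fintype W]

lemma wlColor_comap (e : V ≃ W) (G : SimpleGraph V) (r : ℕ) (x : Fin k → W) :
    wlColor (G.comap e.symm) r x = wlColor G r (fun i => e.symm (x i)) := by
  classical
  induction r generalizing x with
  | zero =>
    funext i j
    simp only [wlColor, atomicType, SimpleGraph.comap_adj, EmbeddingLike.apply_eq_iff_eq]
  | succ r ih =>
    simp only [wlColor]
    refine Prod.ext (ih x) ?_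
    simp only
    have h1 : (fun y => fun i => wlColor (G.comap e.symm) r (Function.update x i y)) =
        (fun y' => fun i => wlColor G r (Function.update (fun i => e.symm (x i)) i y')) ∘ e.symm := by
      funext y i
      rw [ih]
      simp only [Function.comp]
      congr 1
      funext i'
      by_cases h : i' = i
      · subst h
        simp
      · simp [Function.update_of_ne h]
    rw [h1, ← Multiset.map_map, Multiset.map_univ_val_equiv]

lemma wlEquiv_comap (e : V ≃ W) (G H : SimpleGraph V) :
    WLEquiv k (G.comap e.symm) (H.comap e.symm) ↔ WLEquiv k G H := by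
  classical
  have key : ∀ (F : SimpleGraph V) (r : ℕ),
      (Finset.univ : Finset (Fin k → W)).val.map (wlColor (F.comap e.symm) r) =
        (Finset.univ : Finset (Fin k → V)).val.map (wlColor F r) := by
    intro F r
    have h1 : wlColor (F.comap e.symm) r =
        (wlColor F r) ∘ (Equiv.arrowCongr (Equiv.refl (Fin k)) e.symm) := by
      funext x
      rw [wlColor_comap]
      rfl
    rw [h1, ← Multiset.map_map, Multiset.map_univ_val_equiv]
  unfold WLEquiv
  simp only [key]

end Vale.Agent.Lib.P310
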