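import Vale.Agent.Lib.P310.Full.TabProg
import Vale.Agent.Lib.P310.Full.CellSpec
import Vale.Agent.Lib.P310.Full.Transfer

/-!
# The diagonal argument for a fixed size
-/

namespace Vale.Agent.Lib.P310.Full

open FC Function

/-- The initial state of a program on an input. -/
def startConf (m : ℕ) (x : ℕ → ℕ) : Conf :=
  ⟨0, fun r => if r = 0 then m else 0, fun j a => if j = 0 then x a else 0⟩

lemma startConf_init {m : ℕ} {x : ℕ → ℕ} (hx : ∀ a, m ≤ a → x a = 0) :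
    InitOK (startConf m x) m x where
  pc := rfl
  reg := fun _ => rfl
  mem0 := fun a => by
    show (if (0 : ℕ) = 0 then x a else 0) = _
    rw [if_pos rfl]
    by_cases h : a < m
    · rw [if_pos h]
    · rw [if_neg h, hx a (by omega)]
  mem := fun j a h => by
    show (if j = 0 then x a else 0) = 0
    rw [if_neg h]

lemma startConf_mem0 (m : ℕ) (x : ℕ → ℕ) : (startConf m x).mem 0 = x := by
  funext a
  show (if (0 : ℕ) = 0 then x a else 0) = x a
  rw [if_pos rfl]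

lemma startConf_mem (m : ℕ) (x : ℕ → ℕ) {j : ℕ} (hj : j ≠ 0) (a : ℕ) : (startConf m x).mem j a = 0 := by
  show (if j = 0 then x a else 0) = 0
  rw [if_neg hj]

lemma cf_stable {Pg : List Instr} {c₀ : Conf} {t : ℕ} {b : Bool}
    (h : outcome Pg (cf Pg c₀ t) = some b) (d : ℕ) : cf Pg c₀ (t + d) = cf Pg c₀ t := by
  induction d with
  | zero => rfl
  | succ d ih =>
    rw [← Nat.add_assoc, cf_succ, ih]
    unfold outcome at h
    unfold step
    cases hI : Pg[(cf Pg c₀ t).pc]? with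
    | none => rfl
    | some I =>
      rw [hI] at h
      cases I <;> simp_all [Instr.exec]

lemma outcome_unique {Pg : List Instr} {c₀ : Conf} {t t' : ℕ} {b b' : Bool}
    (h : outcome Pg (cf Pg c₀ t) = some b) (h' : outcome Pg (cf Pg c₀ t') = some b') : b = b' := by
  rcases Nat.le_total t t' with hle | hle
  · obtain ⟨d, rfl⟩ := Nat.exists_eq_add_of_le hle
    rw [cf_stable h, h] at h'
    exact Option.some.inj h'
  · obtain ⟨d, rfl⟩ := Nat.exists_eq_add_of_le hle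
    rw [cf_stable h', h'] at h
    exact (Option.some.inj h).symm

variable {F V : Type} [Field F] [CharP F 2] [AddCommGroup V] [Module F V] [Fintype V]
  [DecidableEq V] [HasVn V] {ρ e w : ℕ}

section

variable (hρ : 0 < ρ) (hℓ : 4 * e ≤ ρ) {α : Fin ρ → F} (hα : Injective α)
  (bit : Fin w → V →+ ZMod 2) (hbit : ∀ v : V, (∀ t, bit t v = 0) → v = 0)
  (Pg : List Instr) (τ J : ℕ) (j₀ : Fin J) (m : ℕ)

/-- The query. -/
noncomputable abbrev qAcc : Fin (npOf Pg τ J e ρ w m V j₀).nQ :=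
  Fintype.equivFin (HState Pg.length τ J e) .acc

/-- The input of the tableau of a program. -/
noncomputable abbrev xT : ℕ → ℕ :=
  theX (npOf Pg τ J e ρ w m V j₀) hρ hℓ hα bit hbit (inRT Pg τ J e j₀ ρ w m)
    (tRT Pg τ J e j₀ ρ w m) (qAcc Pg τ J j₀ m)

/-- The system of the tableau of a program. -/
noncomputable abbrev sT' : Sys ρ V :=
  theS (npOf Pg τ J e ρ w m V j₀) hρ hℓ hα bit hbit (inRT Pg τ J e j₀ ρ w m)
    (tRT Pg τ J e j₀ ρ w m) (qAcc Pg τ J j₀ m)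

/-- The size of the graphs. -/
noncomputable abbrev nT' : ℕ :=
  4 * numPieces (sT' hρ hℓ hα bit hbit Pg τ J j₀ m) * leafP (sT' hρ hℓ hα bit hbit Pg τ J j₀ m)

/-- The graphs. -/
noncomputable abbrev gT' (b : ZMod 2) : SimpleGraph (Fin (nT' hρ hℓ hα bit hbit Pg τ J j₀ m)) :=
  (altGraph (sT' hρ hℓ hα bit hbit Pg τ J j₀ m) b).comap
    (vtxEquiv (sT' hρ hℓ hα bit hbit Pg τ J j₀ m)).symm

end

variable {hρ : 0 < ρ} {hℓ : 4 * e ≤ ρ} {α : Fin ρ → F} {hα : Injective α}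
  {bit : Fin w → V →+ ZMod 2} {hbit : ∀ v : V, (∀ t, bit t v = 0) → v = 0}
  {τ J : ℕ} {j₀ : Fin J} {m : ℕ} {A : List Instr}

/-- The program on the input computes the graphs and then runs `A`. -/
theorem run_M {Pg : List Instr} (hP : Pg = mCode theE A) (hvn : (HasVn.vn (0 : V) : Fin _).val = 0)
    (hfit : (npOf Pg τ J e ρ w m V j₀).bPow (Fintype.card V) + e ≤ m) {Tit : ℕ}
    (hT : ∀ ptr, ptr ≤ 2 * (nT' hρ hℓ hα bit hbit Pg τ J j₀ m *
        nT' hρ hℓ hα bit hbit Pg τ J j₀ m) →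
      subE.cost (xT hρ hℓ hα bit hbit Pg τ J j₀ m)
        (envR m ptr (2 * (nT' hρ hℓ hα bit hbit Pg τ J j₀ m *
          nT' hρ hℓ hα bit hbit Pg τ J j₀ m))) +
      theE.cost (xT hρ hℓ hα bit hbit Pg τ J j₀ m)
        (envR m ptr (2 * (nT' hρ hℓ hα bit hbit Pg τ J j₀ m *
          nT' hρ hℓ hα bit hbit Pg τ J j₀ m))) + 4 ≤ Tit) :
    ∃ t c, Reach Pg (startConf m (xT hρ hℓ hα bit hbit Pg τ J j₀ m)) t c ∧
      Sim (kR theE) (offR theE) (graphConf _ (gT' hρ hℓ hα bit hbit Pg τ J j₀ m 0)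
        (gT' hρ hℓ hα bit hbit Pg τ J j₀ m 1)) c ∧
      t ≤ limE.cost (xT hρ hℓ hα bit hbit Pg τ J j₀ m) (envR m 0 0) + 1 +
        2 * (nT' hρ hℓ hα bit hbit Pg τ J j₀ m *
          nT' hρ hℓ hα bit hbit Pg τ J j₀ m) * Tit + Tit := by
  have hI := inputOK_T (V := V) (Pg := Pg) (τ := τ) (J := J) (e := e) (j₀ := j₀) (ρ := ρ)
    (w := w) (m := m) hfit
  have hL := theX_layout (p := npOf Pg τ J e ρ w m V j₀) (hρ := hρ) (hℓ := hℓ) (hα := hα)
    (bit := bit) (hbit := hbit) (inR := inRT Pg τ J e j₀ ρ w m)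
    (tR := tRT Pg τ J e j₀ ρ w m) (q₀ := qAcc Pg τ J j₀ m) hvn hI
  have hH := theX_header (p := npOf Pg τ J e ρ w m V j₀) (hρ := hρ) (hℓ := hℓ) (hα := hα)
    (bit := bit) (hbit := hbit) (inR := inRT Pg τ J e j₀ ρ w m)
    (tR := tRT Pg τ J e j₀ ρ w m) (q₀ := qAcc Pg τ J j₀ m)
  have hO := theO_spec hL
  have hm0 : (startConf m (xT hρ hℓ hα bit hbit Pg τ J j₀ m)).mem 0 =
      xT hρ hℓ hα bit hbit Pg τ J j₀ m := by
    exact startConf_mem0 _ _
  have hpc : (startConf m (xT hρ hℓ hα bit hbit Pg τ J j₀ m)).pc = 0 := rfl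
  have hreg : ∀ r, (startConf m (xT hρ hℓ hα bit hbit Pg τ J j₀ m)).reg r =
      if r = 0 then m else 0 := fun _ => rfl
  have hhi : ∀ j a, 1 ≤ j → (startConf m (xT hρ hℓ hα bit hbit Pg τ J j₀ m)).mem j a = 0 := by
    intro j a hj
    exact startConf_mem _ _ (by omega) a
  have hcell : ∀ a, a < 2 * (nT' hρ hℓ hα bit hbit Pg τ J j₀ m *
        nT' hρ hℓ hα bit hbit Pg τ J j₀ m) →
      theE.eval (xT hρ hℓ hα bit hbit Pg τ J j₀ m)
        (envR m a (2 * (nT' hρ hℓ hα bit hbit Pg τ J j₀ m *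
          nT' hρ hℓ hα bit hbit Pg τ J j₀ m))) =
      if a < nT' hρ hℓ hα bit hbit Pg τ J j₀ m * nT' hρ hℓ hα bit hbit Pg τ J j₀ m then
        adjCell (gT' hρ hℓ hα bit hbit Pg τ J j₀ m 0) a
      else adjCell (gT' hρ hℓ hα bit hbit Pg τ J j₀ m 1)
        (a - nT' hρ hℓ hα bit hbit Pg τ J j₀ m * nT' hρ hℓ hα bit hbit Pg τ J j₀ m) :=
    fun a ha => cell_core hH hO (vtxEquiv _) (fun _ => rfl) hH.h0 (by simp [envR]) ha
  have h := run_reduction (E := theE) (A := A) hpc hreg hm0 hhi hH.h0 _ _ hT hcell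
    (fun a ha => adjCell_out _ (by omega))
  rw [← hP] at h
  exact h

lemma sim_final {E : Exp} {B : List Instr} {Pg : List Instr} (hP : Pg = mCode E B) {a c : Conf}
    (h : Sim (kR E) (offR E) a c) (t : ℕ) :
    outcome Pg (Nat.iterate (step Pg) t c) = outcome B (Nat.iterate (step B) t a) := by
  subst hP
  exact (h.iterate (rCode_length E) t).outcome (rCode_length E)

/-- The diagonal argument: the program `A` cannot decide `ρ`-WL equivalence of the graphs of the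
tableau of the program that first computes these graphs and then runs `A`. -/
theorem diag {Pg : List Instr} (hP : Pg = mCode theE A) (hvn : (HasVn.vn (0 : V) : Fin _).val = 0)
    (hρ3 : 3 ≤ ρ) (hℓ2 : 2 * (4 * e) ≤ ρ + 1) (hj₀ : j₀.val = 0)
    (hτ : ∀ I, I ∈ Pg → InstrOK τ J I)
    (hfit : (npOf Pg τ J e ρ w m V j₀).bPow (Fintype.card V) + e ≤ m) {Tit TA : ℕ}
    (hT : ∀ ptr, ptr ≤ 2 * (nT' hρ hℓ hα bit hbit Pg τ J j₀ m *
        nT' hρ hℓ hα bit hbit Pg τ J j₀ m) →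
      subE.cost (xT hρ hℓ hα bit hbit Pg τ J j₀ m)
        (envR m ptr (2 * (nT' hρ hℓ hα bit hbit Pg τ J j₀ m *
          nT' hρ hℓ hα bit hbit Pg τ J j₀ m))) +
      theE.cost (xT hρ hℓ hα bit hbit Pg τ J j₀ m)
        (envR m ptr (2 * (nT' hρ hℓ hα bit hbit Pg τ J j₀ m *
          nT' hρ hℓ hα bit hbit Pg τ J j₀ m))) + 4 ≤ Tit)
    (hA : ∃ t, t ≤ TA ∧ ∃ b : Bool, outcome A (Nat.iterate (step A) t
        (graphConf _ (gT' hρ hℓ hα bit hbit Pg τ J j₀ m 0) (gT' hρ hℓ hα bit hbit Pg τ J j₀ m 1))) =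
          some b ∧
        (b = true ↔ Vale.Agent.Lib.P310.WLEquiv ρ (gT' hρ hℓ hα bit hbit Pg τ J j₀ m 0)
          (gT' hρ hℓ hα bit hbit Pg τ J j₀ m 1)))
    (hbig : nT' hρ hℓ hα bit hbit Pg τ J j₀ m +
      (limE.cost (xT hρ hℓ hα bit hbit Pg τ J j₀ m) (envR m 0 0) + 1 +
        2 * (nT' hρ hℓ hα bit hbit Pg τ J j₀ m *
          nT' hρ hℓ hα bit hbit Pg τ J j₀ m) * Tit + Tit) + TA + 1 < Fintype.card V ^ e) :
    False := by
  classical
  have hI := inputOK_T (V := V) (Pg := Pg) (τ := τ) (J := J) (e := e) (j₀ := j₀) (ρ := ρ)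
    (w := w) (m := m) hfit
  have hL := theX_layout (p := npOf Pg τ J e ρ w m V j₀) (hρ := hρ) (hℓ := hℓ) (hα := hα)
    (bit := bit) (hbit := hbit) (inR := inRT Pg τ J e j₀ ρ w m)
    (tR := tRT Pg τ J e j₀ ρ w m) (q₀ := qAcc Pg τ J j₀ m) hvn hI
  have hH := theX_header (p := npOf Pg τ J e ρ w m V j₀) (hρ := hρ) (hℓ := hℓ) (hα := hα)
    (bit := bit) (hbit := hbit) (inR := inRT Pg τ J e j₀ ρ w m)
    (tR := tRT Pg τ J e j₀ ρ w m) (q₀ := qAcc Pg τ J j₀ m)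
  set x := xT hρ hℓ hα bit hbit Pg τ J j₀ m with hx
  set n := nT' hρ hℓ hα bit hbit Pg τ J j₀ m with hn
  have hx0 : x 0 = n := hH.h0
  have hcells : ∀ a, x a ≤ n := fun a => hx0 ▸ hL.cells a
  have hmle : m ≤ n := hx0 ▸ hL.mle
  have hout0 : ∀ a, m ≤ a → x a = 0 := fun a ha => NP.xLay_out (by
    refine le_trans ?_ ha
    exact hfit)
  have hI0 : InitOK (startConf m x) m x := startConf_init hout0
  obtain ⟨t₁, c, hR, hSim, hle⟩ := run_M hP hvn hfit hT
  have hle' : t₁ ≤ limE.cost x (envR m 0 0) + 1 + 2 * (n * n) * Tit + Tit := hle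
  obtain ⟨t₂, ht₂, b, hout, hb⟩ := hA
  have hoM : outcome Pg (cf Pg (startConf m x) (t₂ + t₁)) = some b := by
    unfold cf
    rw [Function.iterate_add_apply, hR, sim_final hP hSim, hout]
  have hWL : Vale.Agent.Lib.P310.WLEquiv ρ (gT' hρ hℓ hα bit hbit Pg τ J j₀ m 0)
      (gT' hρ hℓ hα bit hbit Pg τ J j₀ m 1) ↔
      ¬ (progT (V := V) Pg τ J e j₀ ρ w m x).Derives
        (qAcc (V := V) (e := e) (ρ := ρ) (w := w) Pg τ J j₀ m) (fun _ => 0) := by
    refine (wlEquiv_comap (vtxEquiv (sT' hρ hℓ hα bit hbit Pg τ J j₀ m)) _ _).trans ?_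
    exact wlEquiv_progSys_iff hρ _ _ _ _ _ _ hρ3 hα hℓ2
  cases b with
  | false =>
    have h1 : ¬ Vale.Agent.Lib.P310.WLEquiv ρ (gT' hρ hℓ hα bit hbit Pg τ J j₀ m 0)
      (gT' hρ hℓ hα bit hbit Pg τ J j₀ m 1) := fun h => by simpa using hb.mpr h
    rw [hWL, not_not] at h1
    have h2 := tder_of_derives x h1
    have h3 : (Fintype.equivFin (HState Pg.length τ J e)).symm
        (qAcc (V := V) (e := e) (ρ := ρ) (w := w) Pg τ J j₀ m) = HState.acc :=
      Equiv.symm_apply_apply _ _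
    rw [h3] at h2
    have hbd : n < Fintype.card V ^ e := by omega
    have h4 := inv_of_der HasVn.vn j₀ hvn hI0 hj₀ (by omega)
      (fun a _ => lt_of_le_of_lt (hcells a) hbd) h2
    obtain ⟨t', ht'⟩ := h4
    have h5 := outcome_unique ht' hoM
    simp at h5
  | true =>
    have h1 := hb.mp rfl
    rw [hWL] at h1
    apply h1
    have h2 := dv_acc (vn := HasVn.vn) hvn (Pg := Pg) (e := e) (τ := τ) hI0 hj₀ hτ (B₀ := n)
      (t := t₂ + t₁) hmle (fun a _ => hcells a) (by omega) hoM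
    exact derives_of_tder x h2

end Vale.Agent.Lib.P310.Full
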