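import Vale.Agent.Lib.P310.Full.Model

/-!
# Numbers written with digits in a finite group
-/

namespace Vale.Agent.Lib.P310.Full

/-- The number with the given digits in base `Q`. -/
def nval (Q : ℕ) {e : ℕ} (z : Fin e → ℕ) : ℕ := ∑ i, z i * Q ^ (i : ℕ)

lemma nval_succ (Q : ℕ) {e : ℕ} (z : Fin (e + 1) → ℕ) :
    nval Q z = z 0 + Q * nval Q (fun i : Fin e => z i.succ) := by
  unfold nval
  rw [Fin.sum_univ_succ, Finset.mul_sum]
  simp only [Fin.val_zero, pow_zero, mul_one, Fin.val_succ, pow_succ]
  congr 1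
  exact Finset.sum_congr rfl fun i _ => by ring

/-- Adding one to a number: the digits below position `i` are maximal and become zero, the digit at
`i` grows by one, the others stay. -/
lemma carry_val {Q : ℕ} (hQ : 0 < Q) {e : ℕ} (z z' : Fin e → ℕ) (i : Fin e)
    (hlow : ∀ j, j < i → z j = Q - 1 ∧ z' j = 0) (hi : z' i = z i + 1)
    (hhigh : ∀ j, i < j → z' j = z j) : nval Q z' = nval Q z + 1 := by
  induction e with
  | zero => exact i.elim0
  | succ e ih =>
    rw [nval_succ, nval_succ]
    refine Fin.cases ?_ (fun i₁ => ?_) i hlow hi hhigh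
    · intro _ h1 h2
      have h3 : (fun i : Fin e => z' i.succ) = fun i : Fin e => z i.succ :=
        funext fun j => h2 _ (Fin.succ_pos j)
      rw [h3, h1]
      omega
    · intro h0 h1 h2
      have h3 := ih (fun j => z j.succ) (fun j => z' j.succ) i₁
        (fun j hj => h0 j.succ (Fin.succ_lt_succ_iff.mpr hj)) h1
        (fun j hj => h2 j.succ (Fin.succ_lt_succ_iff.mpr hj))
      obtain ⟨h4, h5⟩ := h0 0 (Fin.succ_pos i₁)
      rw [h3, h4, h5, mul_add, mul_one]
      omega

/-- Where the carry stops when adding one to a number that does not overflow. -/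
lemma carry_exists {Q : ℕ} (hQ : 0 < Q) {e : ℕ} (z : Fin e → ℕ) (hz : ∀ i, z i < Q)
    (hv : nval Q z + 1 < Q ^ e) : ∃ i, z i + 1 < Q ∧ ∀ j, j < i → z j = Q - 1 := by
  induction e with
  | zero =>
    simp [nval] at hv
  | succ e ih =>
    by_cases h0 : z 0 + 1 < Q
    · exact ⟨0, h0, fun j hj => absurd hj (Fin.not_lt_zero j)⟩
    · have h1 : z 0 = Q - 1 := by
        have := hz 0
        omega
      rw [nval_succ, h1, pow_succ] at hv
      have h2 : nval Q (fun i : Fin e => z i.succ) + 1 < Q ^ e := by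
        have h3 : Q - 1 + Q * nval Q (fun i : Fin e => z i.succ) + 1 =
            (nval Q (fun i : Fin e => z i.succ) + 1) * Q := by
          have : Q - 1 + 1 = Q := by omega
          calc Q - 1 + Q * nval Q (fun i : Fin e => z i.succ) + 1
              = (Q - 1 + 1) + Q * nval Q (fun i : Fin e => z i.succ) := by ring
            _ = Q + Q * nval Q (fun i : Fin e => z i.succ) := by rw [this]
            _ = _ := by ring
        rw [h3] at hv
        exact lt_of_mul_lt_mul_right hv (Nat.zero_le _)
      obtain ⟨i, hi, hi'⟩ := ih (fun j => z j.succ) (fun j => hz _) h2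
      refine ⟨i.succ, hi, fun j hj => ?_⟩
      refine Fin.cases (fun _ => h1) (fun j₁ hj₁ => hi' j₁ (Fin.succ_lt_succ_iff.mp hj₁)) j hj

section Group

variable {V : Type} [AddCommGroup V] [Fintype V] (vn : V ≃ Fin (Fintype.card V)) {e : ℕ}

/-- The number with digits in `V`. -/
def dval (y : Fin e → V) : ℕ := nval (Fintype.card V) (fun i => ((vn (y i) : Fin _) : ℕ))

lemma card_pos_V : 0 < Fintype.card V := Fintype.card_pos

/-- The digits of a number. -/
def dig (n : ℕ) (i : Fin e) : V :=
  vn.symm ⟨n / Fintype.card V ^ (i : ℕ) % Fintype.card V, Nat.mod_lt _ card_pos_V⟩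

lemma dval_eq (y : Fin e → V) :
    dval vn y = (finFunctionFinEquiv (fun i => vn (y i)) : Fin (Fintype.card V ^ e)) := by
  rw [finFunctionFinEquiv_apply]
  rfl

lemma dval_lt (y : Fin e → V) : dval vn y < Fintype.card V ^ e := by
  rw [dval_eq]
  exact Fin.isLt _

lemma dval_inj {y y' : Fin e → V} (h : dval vn y = dval vn y') : y = y' := by
  rw [dval_eq, dval_eq] at h
  have h1 := finFunctionFinEquiv.injective (Fin.ext h)
  funext i
  exact vn.injective (congrFun h1 i)

lemma dval_dig {n : ℕ} (hn : n < Fintype.card V ^ e) : dval vn (dig vn n : Fin e → V) = n := by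
  rw [dval_eq]
  have h : (fun i => vn (dig vn n i : V)) = finFunctionFinEquiv.symm (⟨n, hn⟩ : Fin _) := by
    funext i
    apply Fin.ext
    rw [finFunctionFinEquiv_symm_apply_val]
    simp [dig]
  rw [h, Equiv.apply_symm_apply]

lemma dig_dval (y : Fin e → V) : (dig vn (dval vn y) : Fin e → V) = y :=
  dval_inj vn (dval_dig vn (dval_lt vn y))

lemma dig_zero (hvn : ((vn 0 : Fin _) : ℕ) = 0) (i : Fin e) : (dig vn 0 i : V) = 0 := by
  apply vn.injective
  apply Fin.ext
  simp [dig, hvn]

lemma dval_zero (hvn : ((vn 0 : Fin _) : ℕ) = 0) : dval vn (fun _ : Fin e => (0 : V)) = 0 := by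
  simp [dval, nval, hvn]

lemma dval_eq_zero (hvn : ((vn 0 : Fin _) : ℕ) = 0) {y : Fin e → V} (h : dval vn y = 0) (i : Fin e) :
    y i = 0 := by
  have h1 : y = fun _ => 0 := dval_inj vn (by rw [h, dval_zero vn hvn])
  rw [h1]

end Group

end Vale.Agent.Lib.P310.Full
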