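import Vale.Agent.Lib.P310.Full.Model

/-!
# Running code: reachability, loops for the arithmetic operations
-/

namespace Vale.Agent.Lib.P310.Full

open Function

/-- Reachability in exactly `t` steps. -/
def Reach (P : List Instr) (c : Conf) (t : ℕ) (c' : Conf) : Prop :=
  Nat.iterate (step P) t c = c'

lemma Reach.refl (P : List Instr) (c : Conf) : Reach P c 0 c := rfl

lemma Reach.trans {P : List Instr} {c c' c'' : Conf} {s t : ℕ} (h1 : Reach P c s c')
    (h2 : Reach P c' t c'') : Reach P c (s + t) c'' := by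
  unfold Reach at *
  rw [Nat.add_comm, Function.iterate_add_apply, h1, h2]

lemma reach_at {P : List Instr} {c c' : Conf} {q t : ℕ} {I : Instr} (hpc : c.pc = q)
    (hI : P[q]? = some I) (hr : Reach P (I.exec c) t c') : Reach P c (t + 1) c' := by
  have h : step P c = I.exec c := by
    unfold step
    rw [hpc, hI]
  unfold Reach at *
  rw [Function.iterate_succ_apply, h, hr]

/-- A piece of code at a position of a program. -/
def CodeAt (P : List Instr) (p : ℕ) (l : List Instr) : Prop :=
  ∀ i, i < l.length → P[p + i]? = l[i]?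

lemma CodeAt.left {P : List Instr} {p : ℕ} {l₁ l₂ : List Instr} (h : CodeAt P p (l₁ ++ l₂)) :
    CodeAt P p l₁ := by
  intro i hi
  rw [h i (by simp; omega), List.getElem?_append_left hi]

lemma CodeAt.right {P : List Instr} {p : ℕ} {l₁ l₂ : List Instr} (h : CodeAt P p (l₁ ++ l₂)) :
    CodeAt P (p + l₁.length) l₂ := by
  intro i hi
  have h1 := h (l₁.length + i) (by simp; omega)
  rw [List.getElem?_append_right (by omega)] at h1
  simpa [Nat.add_assoc] using h1

lemma CodeAt.get {P : List Instr} {p : ℕ} {l : List Instr} (h : CodeAt P p l) (i : ℕ)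
    (hi : i < l.length) {I : Instr} (hI : l[i]? = some I) : P[p + i]? = some I := by
  rw [h i hi, hI]

/-- The frame of a piece of code: registers outside `d, ..., d + k - 1` do not change. -/
def Frame (c c' : Conf) (d k : ℕ) : Prop :=
  (∀ i, (i < d ∨ d + k ≤ i) → c'.reg i = c.reg i) ∧ c'.mem = c.mem

/-- The register that holds zero, used for unconditional jumps. -/
abbrev zr : ℕ := 1

/-- `reg d := reg d + reg (d + 1)`. -/
def addCode (d p : ℕ) : List Instr :=
  [.jz (d + 1) (p + 4), .inc d, .dec (d + 1), .jz zr p]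

/-- `reg d := reg d - reg (d + 1)`. -/
def subCode (d p : ℕ) : List Instr :=
  [.jz (d + 1) (p + 4), .dec d, .dec (d + 1), .jz zr p]

/-- `reg d := reg d * reg (d + 1)`. -/
def mulCode (d p : ℕ) : List Instr :=
  [.mov (d + 2) d, .mov d zr, .jz (d + 1) (p + 9), .dec (d + 1), .mov (d + 3) (d + 2),
    .jz (d + 3) (p + 2), .inc d, .dec (d + 3), .jz zr (p + 5)]

/-- `reg d := reg d / reg (d + 1)` or `reg d := reg d % reg (d + 1)`. -/
def divCode (isMod : Bool) (d p : ℕ) : List Instr :=
  [.jz (d + 1) (p + 17), .mov (d + 2) d, .mov d zr, .mov (d + 4) zr, .mov (d + 3) (d + 1),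
    .jz (d + 2) (p + 15), .dec (d + 2), .dec (d + 3), .inc (d + 4), .jz (d + 3) (p + 11),
    .jz zr (p + 5), .mov (d + 3) (d + 1), .mov (d + 4) zr, .inc d, .jz zr (p + 5),
    (if isMod then .mov d (d + 4) else .mov (d + 4) (d + 4)), .jz zr (p + 18),
    (if isMod then .mov (d + 4) (d + 4) else .mov d zr)]

section Loops

variable {P : List Instr} {d p : ℕ}

lemma add_loop (hd : 2 ≤ d) (hcode : CodeAt P p (addCode d p)) (k : ℕ) :
    ∀ c : Conf, c.pc = p → c.reg (d + 1) = k → c.reg zr = 0 →
      ∃ t c', Reach P c t c' ∧ c'.pc = p + 4 ∧ c'.reg d = c.reg d + k ∧ c'.reg (d + 1) = 0 ∧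
        (∀ i, i ≠ d → i ≠ d + 1 → c'.reg i = c.reg i) ∧ c'.mem = c.mem ∧ t ≤ 4 * k + 1 := by
  have i0 := hcode.get 0 (by simp [addCode]) (I := .jz (d + 1) (p + 4)) (by simp [addCode])
  have i1 := hcode.get 1 (by simp [addCode]) (I := .inc d) (by simp [addCode])
  have i2 := hcode.get 2 (by simp [addCode]) (I := .dec (d + 1)) (by simp [addCode])
  have i3 := hcode.get 3 (by simp [addCode]) (I := .jz zr p) (by simp [addCode])
  have hd1 : d ≠ zr := by simp only [zr]; omega
  have hd0 : d ≠ 0 := by omega
  induction k with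
  | zero =>
    intro c hpc hk hz
    refine ⟨1, _, reach_at hpc i0 (Reach.refl _ _), ?_, ?_, ?_, ?_, ?_, by omega⟩
    · simp [Instr.exec, hk]
    · simp [Instr.exec]
    · simpa [Instr.exec] using hk
    · intro i _ _
      simp [Instr.exec]
    · simp [Instr.exec]
  | succ k ih =>
    intro c hpc hk hz
    set c1 := (Instr.jz (d + 1) (p + 4)).exec c with hc1
    set c2 := (Instr.inc d).exec c1 with hc2
    set c3 := (Instr.dec (d + 1)).exec c2 with hc3
    set c4 := (Instr.jz zr p).exec c3 with hc4
    have p1 : c1.pc = p + 0 + 1 := by simp [hc1, Instr.exec, hk, hpc]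
    have p2 : c2.pc = p + 2 := by simp [hc2, Instr.exec, p1]
    have p3 : c3.pc = p + 3 := by simp [hc3, Instr.exec, p2]
    have r1 : c1.reg = c.reg := rfl
    have z3 : c3.reg zr = 0 := by
      simp [hc3, hc2, Instr.exec, Function.update_apply, r1, hz, hd1.symm, hd0]
    have p4 : c4.pc = p := by simp [hc4, Instr.exec, z3]
    have r4 : c4.reg = c3.reg := rfl
    have k4 : c4.reg (d + 1) = k := by
      rw [r4]
      simp [hc3, hc2, Instr.exec, Function.update_apply, r1, hk]
    have z4 : c4.reg zr = 0 := by rw [r4]; exact z3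
    obtain ⟨t, c', hR, h1, h2, h3, h4, h5, h6⟩ := ih c4 p4 k4 z4
    have hR' : Reach P c (t + 1 + 1 + 1 + 1) c' :=
      reach_at hpc i0 (reach_at (q := p + 1) p1 i1 (reach_at (q := p + 2) p2 i2
        (reach_at (q := p + 3) p3 i3 hR)))
    refine ⟨_, c', hR', h1, ?_, h3, ?_, ?_, by omega⟩
    · rw [h2, r4]
      simp [hc3, hc2, Instr.exec, Function.update_apply, r1]
      omega
    · intro i hi hi'
      rw [h4 i hi hi', r4]
      simp [hc3, hc2, Instr.exec, Function.update_apply, r1, hi, hi']
    · rw [h5]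
      rfl

lemma sub_loop (hd : 2 ≤ d) (hcode : CodeAt P p (subCode d p)) (k : ℕ) :
    ∀ c : Conf, c.pc = p → c.reg (d + 1) = k → c.reg zr = 0 →
      ∃ t c', Reach P c t c' ∧ c'.pc = p + 4 ∧ c'.reg d = c.reg d - k ∧ c'.reg (d + 1) = 0 ∧
        (∀ i, i ≠ d → i ≠ d + 1 → c'.reg i = c.reg i) ∧ c'.mem = c.mem ∧ t ≤ 4 * k + 1 := by
  have i0 := hcode.get 0 (by simp [subCode]) (I := .jz (d + 1) (p + 4)) (by simp [subCode])
  have i1 := hcode.get 1 (by simp [subCode]) (I := .dec d) (by simp [subCode])
  have i2 := hcode.get 2 (by simp [subCode]) (I := .dec (d + 1)) (by simp [subCode])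
  have i3 := hcode.get 3 (by simp [subCode]) (I := .jz zr p) (by simp [subCode])
  have hd1 : d ≠ zr := by simp only [zr]; omega
  have hd0 : d ≠ 0 := by omega
  induction k with
  | zero =>
    intro c hpc hk hz
    refine ⟨1, _, reach_at hpc i0 (Reach.refl _ _), ?_, ?_, ?_, ?_, ?_, by omega⟩
    · simp [Instr.exec, hk]
    · simp [Instr.exec]
    · simpa [Instr.exec] using hk
    · intro i _ _
      simp [Instr.exec]
    · simp [Instr.exec]
  | succ k ih =>
    intro c hpc hk hz
    set c1 := (Instr.jz (d + 1) (p + 4)).exec c with hc1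
    set c2 := (Instr.dec d).exec c1 with hc2
    set c3 := (Instr.dec (d + 1)).exec c2 with hc3
    set c4 := (Instr.jz zr p).exec c3 with hc4
    have p1 : c1.pc = p + 0 + 1 := by simp [hc1, Instr.exec, hk, hpc]
    have p2 : c2.pc = p + 2 := by simp [hc2, Instr.exec, p1]
    have p3 : c3.pc = p + 3 := by simp [hc3, Instr.exec, p2]
    have r1 : c1.reg = c.reg := rfl
    have z3 : c3.reg zr = 0 := by
      simp [hc3, hc2, Instr.exec, Function.update_apply, r1, hz, hd1.symm, hd0]
    have p4 : c4.pc = p := by simp [hc4, Instr.exec, z3]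
    have r4 : c4.reg = c3.reg := rfl
    have k4 : c4.reg (d + 1) = k := by
      rw [r4]
      simp [hc3, hc2, Instr.exec, Function.update_apply, r1, hk]
    have z4 : c4.reg zr = 0 := by rw [r4]; exact z3
    obtain ⟨t, c', hR, h1, h2, h3, h4, h5, h6⟩ := ih c4 p4 k4 z4
    have hR' : Reach P c (t + 1 + 1 + 1 + 1) c' :=
      reach_at hpc i0 (reach_at (q := p + 1) p1 i1 (reach_at (q := p + 2) p2 i2
        (reach_at (q := p + 3) p3 i3 hR)))
    refine ⟨_, c', hR', h1, ?_, h3, ?_, ?_, by omega⟩
    · rw [h2, r4]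
      simp [hc3, hc2, Instr.exec, Function.update_apply, r1]
      omega
    · intro i hi hi'
      rw [h4 i hi hi', r4]
      simp [hc3, hc2, Instr.exec, Function.update_apply, r1, hi, hi']
    · rw [h5]
      rfl

lemma mul_inner (hd : 2 ≤ d) (hcode : CodeAt P p (mulCode d p)) (k : ℕ) :
    ∀ c : Conf, c.pc = p + 5 → c.reg (d + 3) = k → c.reg zr = 0 →
      ∃ t c', Reach P c t c' ∧ c'.pc = p + 2 ∧ c'.reg d = c.reg d + k ∧ c'.reg (d + 3) = 0 ∧
        (∀ i, i ≠ d → i ≠ d + 3 → c'.reg i = c.reg i) ∧ c'.mem = c.mem ∧ t ≤ 4 * k + 1 := by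
  have i5 := hcode.get 5 (by simp [mulCode]) (I := .jz (d + 3) (p + 2)) (by simp [mulCode])
  have i6 := hcode.get 6 (by simp [mulCode]) (I := .inc d) (by simp [mulCode])
  have i7 := hcode.get 7 (by simp [mulCode]) (I := .dec (d + 3)) (by simp [mulCode])
  have i8 := hcode.get 8 (by simp [mulCode]) (I := .jz zr (p + 5)) (by simp [mulCode])
  have hd1 : d ≠ zr := by simp only [zr]; omega
  have hd0 : d ≠ 0 := by omega
  induction k with
  | zero =>
    intro c hpc hk hz
    refine ⟨1, _, reach_at hpc i5 (Reach.refl _ _), ?_, ?_, ?_, ?_, ?_, by omega⟩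
    · simp [Instr.exec, hk]
    · simp [Instr.exec]
    · simpa [Instr.exec] using hk
    · intro i _ _
      simp [Instr.exec]
    · simp [Instr.exec]
  | succ k ih =>
    intro c hpc hk hz
    set c1 := (Instr.jz (d + 3) (p + 2)).exec c with hc1
    set c2 := (Instr.inc d).exec c1 with hc2
    set c3 := (Instr.dec (d + 3)).exec c2 with hc3
    set c4 := (Instr.jz zr (p + 5)).exec c3 with hc4
    have p1 : c1.pc = p + 6 := by simp [hc1, Instr.exec, hk, hpc]
    have p2 : c2.pc = p + 7 := by simp [hc2, Instr.exec, p1]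
    have p3 : c3.pc = p + 8 := by simp [hc3, Instr.exec, p2]
    have r1 : c1.reg = c.reg := rfl
    have z3 : c3.reg zr = 0 := by
      have hz3 : zr ≠ d + 3 := by simp only [zr]; omega
      simp only [hc3, hc2, Instr.exec, Function.update_apply]
      rw [if_neg hz3, if_neg hd1.symm]
      exact hz
    have p4 : c4.pc = p + 5 := by simp [hc4, Instr.exec, z3]
    have r4 : c4.reg = c3.reg := rfl
    have k4 : c4.reg (d + 3) = k := by
      rw [r4]
      simp [hc3, hc2, Instr.exec, Function.update_apply, r1, hk]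
    have z4 : c4.reg zr = 0 := by rw [r4]; exact z3
    obtain ⟨t, c', hR, h1, h2, h3, h4, h5, h6⟩ := ih c4 p4 k4 z4
    have hR' : Reach P c (t + 1 + 1 + 1 + 1) c' :=
      reach_at hpc i5 (reach_at p1 i6 (reach_at p2 i7 (reach_at p3 i8 hR)))
    refine ⟨_, c', hR', h1, ?_, h3, ?_, ?_, by omega⟩
    · rw [h2, r4]
      simp [hc3, hc2, Instr.exec, Function.update_apply, r1]
      omega
    · intro i hi hi'
      rw [h4 i hi hi', r4]
      simp [hc3, hc2, Instr.exec, Function.update_apply, r1, hi, hi']
    · rw [h5]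
      rfl

lemma mul_outer (hd : 2 ≤ d) (hcode : CodeAt P p (mulCode d p)) (a b : ℕ) :
    ∀ c : Conf, c.pc = p + 2 → c.reg (d + 1) = b → c.reg (d + 2) = a → c.reg zr = 0 →
      ∃ t c', Reach P c t c' ∧ c'.pc = p + 9 ∧ c'.reg d = c.reg d + a * b ∧
        (∀ i, i ≠ d → i ≠ d + 1 → i ≠ d + 3 → c'.reg i = c.reg i) ∧ c'.mem = c.mem ∧
        t ≤ b * (4 * a + 4) + 1 := by
  have i2 := hcode.get 2 (by simp [mulCode]) (I := .jz (d + 1) (p + 9)) (by simp [mulCode])
  have i3 := hcode.get 3 (by simp [mulCode]) (I := .dec (d + 1)) (by simp [mulCode])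
  have i4 := hcode.get 4 (by simp [mulCode]) (I := .mov (d + 3) (d + 2)) (by simp [mulCode])
  have hd1 : d ≠ zr := by simp only [zr]; omega
  have hd0 : d ≠ 0 := by omega
  induction b with
  | zero =>
    intro c hpc hk ha hz
    refine ⟨1, _, reach_at hpc i2 (Reach.refl _ _), ?_, ?_, ?_, ?_, by omega⟩
    · simp [Instr.exec, hk]
    · simp [Instr.exec]
    · intro i _ _ _
      simp [Instr.exec]
    · simp [Instr.exec]
  | succ b ih =>
    intro c hpc hk ha hz
    set c1 := (Instr.jz (d + 1) (p + 9)).exec c with hc1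
    set c2 := (Instr.dec (d + 1)).exec c1 with hc2
    set c3 := (Instr.mov (d + 3) (d + 2)).exec c2 with hc3
    have p1 : c1.pc = p + 3 := by simp [hc1, Instr.exec, hk, hpc]
    have p2 : c2.pc = p + 4 := by simp [hc2, Instr.exec, p1]
    have p3 : c3.pc = p + 5 := by simp [hc3, Instr.exec, p2]
    have r1 : c1.reg = c.reg := rfl
    have z3 : c3.reg zr = 0 := by
      have hz3 : zr ≠ d + 3 := by simp only [zr]; omega
      have hz1 : zr ≠ d + 1 := by simp only [zr]; omega
      simp only [hc3, hc2, Instr.exec, Function.update_apply]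
      rw [if_neg hz3, if_neg hz1]
      exact hz
    have k3 : c3.reg (d + 3) = a := by
      simp [hc3, hc2, Instr.exec, Function.update_apply, r1, ha]
    obtain ⟨t₁, c₄, hR₁, e1, e2, e3, e4, e5, e6⟩ := mul_inner hd hcode a c3 p3 k3 z3
    have r3 : ∀ i, i ≠ d + 1 → i ≠ d + 3 → c3.reg i = c.reg i := by
      intro i hi hi'
      simp [hc3, hc2, Instr.exec, Function.update_apply, r1, hi, hi']
    have hk4 : c₄.reg (d + 1) = b := by
      rw [e4 _ (by omega) (by omega)]
      simp [hc3, hc2, Instr.exec, Function.update_apply, r1, hk]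
    have ha4 : c₄.reg (d + 2) = a := by
      rw [e4 _ (by omega) (by omega), r3 _ (by omega) (by omega), ha]
    have z4 : c₄.reg zr = 0 := by
      rw [e4 _ (by simp only [zr]; omega) (by simp only [zr]; omega)]
      exact z3
    obtain ⟨t₂, c', hR₂, f1, f2, f3, f4, f5⟩ := ih c₄ e1 hk4 ha4 z4
    have hR' : Reach P c ((t₁ + t₂) + 1 + 1 + 1) c' :=
      reach_at hpc i2 (reach_at p1 i3 (reach_at p2 i4 (hR₁.trans hR₂)))
    refine ⟨_, c', hR', f1, ?_, ?_, ?_, ?_⟩
    · rw [f2, e2]
      have : c3.reg d = c.reg d := r3 d (by omega) (by omega)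
      rw [this]
      ring
    · intro i hi hi' hi''
      rw [f3 i hi hi' hi'', e4 i hi hi'', r3 i hi' hi'']
    · rw [f4, e5]
      rfl
    · have : (b + 1) * (4 * a + 4) = b * (4 * a + 4) + (4 * a + 4) := by ring
      omega

/-- Multiplication. -/
lemma mul_spec (hd : 2 ≤ d) (hcode : CodeAt P p (mulCode d p)) (c : Conf) (hpc : c.pc = p)
    (hz : c.reg zr = 0) :
    ∃ t c', Reach P c t c' ∧ c'.pc = p + 9 ∧ c'.reg d = c.reg d * c.reg (d + 1) ∧
      Frame c c' d 5 ∧ t ≤ c.reg (d + 1) * (4 * c.reg d + 4) + 3 := by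
  have i0 := hcode.get 0 (by simp [mulCode]) (I := .mov (d + 2) d) (by simp [mulCode])
  have i1 := hcode.get 1 (by simp [mulCode]) (I := .mov d zr) (by simp [mulCode])
  have hd1 : d ≠ zr := by simp only [zr]; omega
  have hd0 : d ≠ 0 := by omega
  set c1 := (Instr.mov (d + 2) d).exec c with hc1
  set c2 := (Instr.mov d zr).exec c1 with hc2
  have p1 : c1.pc = p + 1 := by simp [hc1, Instr.exec, hpc]
  have p2 : c2.pc = p + 2 := by simp [hc2, Instr.exec, p1]
  have z1 : c1.reg zr = 0 := by
    have hz2 : zr ≠ d + 2 := by simp only [zr]; omega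
    simp only [hc1, Instr.exec, Function.update_apply]
    rw [if_neg hz2]
    exact hz
  have z2 : c2.reg zr = 0 := by
    simp only [hc2, Instr.exec, Function.update_apply]
    rw [if_neg hd1.symm]
    exact z1
  have h0 : c2.reg d = 0 := by
    simp only [hc2, Instr.exec, Function.update_self]
    exact z1
  have hb : c2.reg (d + 1) = c.reg (d + 1) := by
    simp [hc2, hc1, Instr.exec, Function.update_apply]
  have ha : c2.reg (d + 2) = c.reg d := by
    simp [hc2, hc1, Instr.exec, Function.update_apply]
  obtain ⟨t, c', hR, h1, h2, h3, h4, h5⟩ := mul_outer hd hcode (c.reg d) (c.reg (d + 1)) c2 p2 hb ha z2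
  have hR' : Reach P c (t + 1 + 1) c' := reach_at hpc i0 (reach_at (q := p + 1) p1 i1 hR)
  refine ⟨_, c', hR', by omega, ?_, ⟨fun i hi => ?_, ?_⟩, by rw [Nat.mul_comm] at h5 ⊢; omega⟩
  · rw [h2, h0, zero_add]
  · rw [h3 i (by omega) (by omega) (by omega)]
    simp only [hc2, hc1, Instr.exec, Function.update_apply]
    rw [if_neg (by omega), if_neg (by omega)]
  · rw [h4]
    rfl

lemma div_loop (hd : 2 ≤ d) (isMod : Bool) (hcode : CodeAt P p (divCode isMod d p)) (b k : ℕ) :
    ∀ c : Conf, c.pc = p + 5 → c.reg (d + 2) = k → c.reg (d + 1) = b →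
      c.reg (d + 3) + c.reg (d + 4) = b → 0 < c.reg (d + 3) → c.reg zr = 0 →
      ∃ t c', Reach P c t c' ∧ c'.pc = p + 15 ∧
        c'.reg d * b + c'.reg (d + 4) = c.reg d * b + c.reg (d + 4) + k ∧ c'.reg (d + 4) < b ∧
        (∀ i, i ≠ d → i ≠ d + 2 → i ≠ d + 3 → i ≠ d + 4 → c'.reg i = c.reg i) ∧
        c'.mem = c.mem ∧ t ≤ 10 * k + 1 := by
  have i5 := hcode.get 5 (by simp [divCode]) (I := .jz (d + 2) (p + 15)) (by simp [divCode])
  have i6 := hcode.get 6 (by simp [divCode]) (I := .dec (d + 2)) (by simp [divCode])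
  have i7 := hcode.get 7 (by simp [divCode]) (I := .dec (d + 3)) (by simp [divCode])
  have i8 := hcode.get 8 (by simp [divCode]) (I := .inc (d + 4)) (by simp [divCode])
  have i9 := hcode.get 9 (by simp [divCode]) (I := .jz (d + 3) (p + 11)) (by simp [divCode])
  have i10 := hcode.get 10 (by simp [divCode]) (I := .jz zr (p + 5)) (by simp [divCode])
  have i11 := hcode.get 11 (by simp [divCode]) (I := .mov (d + 3) (d + 1)) (by simp [divCode])
  have i12 := hcode.get 12 (by simp [divCode]) (I := .mov (d + 4) zr) (by simp [divCode])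
  have i13 := hcode.get 13 (by simp [divCode]) (I := .inc d) (by simp [divCode])
  have i14 := hcode.get 14 (by simp [divCode]) (I := .jz zr (p + 5)) (by simp [divCode])
  have hzn : ∀ j, zr ≠ d + j := by
    intro j
    simp only [zr]
    omega
  induction k with
  | zero =>
    intro c hpc hk hb hcb hc0 hz
    refine ⟨1, _, reach_at hpc i5 (Reach.refl _ _), ?_, ?_, ?_, ?_, ?_, by omega⟩
    · simp [Instr.exec, hk]
    · simp [Instr.exec]
    · simp [Instr.exec]
      omega
    · intro i _ _ _ _
      simp [Instr.exec]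
    · simp [Instr.exec]
  | succ k ih =>
    intro c hpc hk hb hcb hc0 hz
    set c1 := (Instr.jz (d + 2) (p + 15)).exec c with hc1
    set c2 := (Instr.dec (d + 2)).exec c1 with hc2
    set c3 := (Instr.dec (d + 3)).exec c2 with hc3
    set c4 := (Instr.inc (d + 4)).exec c3 with hc4
    set c5 := (Instr.jz (d + 3) (p + 11)).exec c4 with hc5
    have p1 : c1.pc = p + 6 := by simp [hc1, Instr.exec, hk, hpc]
    have p2 : c2.pc = p + 7 := by simp [hc2, Instr.exec, p1]
    have p3 : c3.pc = p + 8 := by simp [hc3, Instr.exec, p2]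
    have p4 : c4.pc = p + 9 := by simp [hc4, Instr.exec, p3]
    have r5 : ∀ i, c5.reg i = if i = d + 4 then c.reg (d + 4) + 1 else if i = d + 3 then c.reg (d + 3) - 1
        else if i = d + 2 then k else c.reg i := by
      intro i
      have r1 : c1.reg = c.reg := rfl
      simp only [hc5, hc4, hc3, hc2, Instr.exec, Function.update_apply, r1, hk]
      by_cases h4 : i = d + 4
      · simp [h4]
      · by_cases h3 : i = d + 3
        · simp [h3]
        · by_cases h2 : i = d + 2
          · simp [h2]
          · simp [h4, h3, h2]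
    have m5 : c5.mem = c.mem := rfl
    have z5 : c5.reg zr = 0 := by
      rw [r5, if_neg (hzn 4), if_neg (hzn 3), if_neg (hzn 2), hz]
    by_cases h0 : c.reg (d + 3) = 1
    · -- the counter runs out
      have p5 : c5.pc = p + 11 := by
        have : c4.reg (d + 3) = 0 := by
          have h := r5 (d + 3)
          have h' : c5.reg (d + 3) = c4.reg (d + 3) := rfl
          rw [← h', h]
          simp [h0]
        simp [hc5, Instr.exec, this]
      set c6 := (Instr.mov (d + 3) (d + 1)).exec c5 with hc6
      set c7 := (Instr.mov (d + 4) zr).exec c6 with hc7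
      set c8 := (Instr.inc d).exec c7 with hc8
      set c9 := (Instr.jz zr (p + 5)).exec c8 with hc9
      have p6 : c6.pc = p + 12 := by simp [hc6, Instr.exec, p5]
      have p7 : c7.pc = p + 13 := by simp [hc7, Instr.exec, p6]
      have p8 : c8.pc = p + 14 := by simp [hc8, Instr.exec, p7]
      have r8 : ∀ i, c8.reg i = if i = d then c.reg d + 1 else if i = d + 4 then 0
          else if i = d + 3 then b else if i = d + 2 then k else c.reg i := by
        intro i
        have e5 : c5.reg (d + 1) = b := by
          rw [r5, if_neg (by omega), if_neg (by omega), if_neg (by omega), hb]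
        have e5d : c5.reg d = c.reg d := by
          rw [r5, if_neg (by omega), if_neg (by omega), if_neg (by omega)]
        simp only [hc8, hc7, hc6, Instr.exec, Function.update_apply, e5]
        by_cases hi : i = d
        · subst hi
          simp [e5d]
        · by_cases h4 : i = d + 4
          · subst h4
            simp [z5, hzn]
          · by_cases h3 : i = d + 3
            · subst h3
              simp [hzn]
            · simp only [hi, h4, h3, if_false]
              rw [r5, if_neg h4, if_neg h3]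
    
      have z8 : c8.reg zr = 0 := by
        rw [r8, if_neg (by simp only [zr]; omega), if_neg (hzn 4), if_neg (hzn 3), if_neg (hzn 2), hz]
      have p9 : c9.pc = p + 5 := by simp [hc9, Instr.exec, z8]
      have r9 : c9.reg = c8.reg := rfl
      obtain ⟨t, c', hR, h1, h2, h3, h4, h5, h6⟩ := ih c9 p9
        (by rw [r9, r8, if_neg (by omega), if_neg (by omega), if_neg (by omega), if_pos rfl])
        (by rw [r9, r8, if_neg (by omega), if_neg (by omega), if_neg (by omega), if_neg (by omega), hb])
        (by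
          rw [r9, r8, r8, if_neg (by omega), if_neg (by omega), if_pos rfl,
            if_neg (by omega), if_pos rfl, add_zero])
        (by
          rw [r9, r8, if_neg (by omega), if_neg (by omega), if_pos rfl]
          omega)
        (by rw [r9]; exact z8)
      have hR' : Reach P c (t + 1 + 1 + 1 + 1 + 1 + 1 + 1 + 1 + 1) c' :=
        reach_at hpc i5 (reach_at p1 i6 (reach_at p2 i7 (reach_at p3 i8 (reach_at p4 i9
          (reach_at p5 i11 (reach_at p6 i12 (reach_at p7 i13 (reach_at p8 i14 hR))))))))
      refine ⟨_, c', hR', h1, ?_, h3, ?_, ?_, by omega⟩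
      · rw [h2, r9, r8, r8, if_pos rfl, if_neg (by omega), if_pos rfl]
        have : c.reg (d + 4) + 1 = b := by omega
        rw [← this]
        ring
      · intro i a1 a2 a3 a4
        rw [h4 i a1 a2 a3 a4, r9, r8, if_neg a1, if_neg a4, if_neg a3, if_neg a2]
      · rw [h5]
        rfl
    · -- the counter does not run out
      have p5 : c5.pc = p + 10 := by
        have : c4.reg (d + 3) ≠ 0 := by
          have h := r5 (d + 3)
          have h' : c5.reg (d + 3) = c4.reg (d + 3) := rfl
          rw [← h', h]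
          simp
          omega
        simp [hc5, Instr.exec, this, p4]
      set c6 := (Instr.jz zr (p + 5)).exec c5 with hc6
      have p6 : c6.pc = p + 5 := by simp [hc6, Instr.exec, z5]
      have r6 : c6.reg = c5.reg := rfl
      obtain ⟨t, c', hR, h1, h2, h3, h4, h5, h6⟩ := ih c6 p6
        (by rw [r6, r5, if_neg (by omega), if_neg (by omega), if_pos rfl])
        (by rw [r6, r5, if_neg (by omega), if_neg (by omega), if_neg (by omega), hb])
        (by
          rw [r6, r5, r5, if_neg (by omega), if_pos rfl, if_pos rfl]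
          omega)
        (by
          rw [r6, r5, if_neg (by omega), if_pos rfl]
          omega)
        (by rw [r6]; exact z5)
      have hR' : Reach P c (t + 1 + 1 + 1 + 1 + 1 + 1) c' :=
        reach_at hpc i5 (reach_at p1 i6 (reach_at p2 i7 (reach_at p3 i8 (reach_at p4 i9
          (reach_at p5 i10 hR)))))
      refine ⟨_, c', hR', h1, ?_, h3, ?_, ?_, by omega⟩
      · rw [h2, r6, r5, r5, if_neg (by omega), if_neg (by omega), if_neg (by omega), if_pos rfl]
        ring
      · intro i a1 a2 a3 a4
        rw [h4 i a1 a2 a3 a4, r6, r5, if_neg a4, if_neg a3, if_neg a2]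
      · rw [h5]
        rfl

/-- Division with remainder. -/
lemma div_spec (hd : 2 ≤ d) (isMod : Bool) (hcode : CodeAt P p (divCode isMod d p)) (c : Conf)
    (hpc : c.pc = p) (hz : c.reg zr = 0) :
    ∃ t c', Reach P c t c' ∧ c'.pc = p + 18 ∧
      c'.reg d = (if isMod then c.reg d % c.reg (d + 1) else c.reg d / c.reg (d + 1)) ∧
      Frame c c' d 5 ∧ t ≤ 10 * c.reg d + 10 := by
  have i0 := hcode.get 0 (by simp [divCode]) (I := .jz (d + 1) (p + 17)) (by simp [divCode])
  have hzn : ∀ j, zr ≠ d + j := by
    intro j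
    simp only [zr]
    omega
  by_cases hb : c.reg (d + 1) = 0
  · -- division by zero
    set c1 := (Instr.jz (d + 1) (p + 17)).exec c with hc1
    have p1 : c1.pc = p + 17 := by simp [hc1, Instr.exec, hb]
    cases isMod with
    | true =>
      have i17 := hcode.get 17 (by simp [divCode]) (I := .mov (d + 4) (d + 4)) (by simp [divCode])
      refine ⟨_, _, reach_at hpc i0 (reach_at p1 i17 (Reach.refl _ _)), ?_, ?_, ⟨fun i hi => ?_, ?_⟩, ?_⟩
      · show c1.pc + 1 = p + 18
        rw [p1]
      · simp [Instr.exec, hc1, hb, Function.update_apply]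
      · simp only [Instr.exec, hc1, Function.update_apply]
        rw [if_neg (by omega)]
      · rfl
      · omega
    | false =>
      have i17 := hcode.get 17 (by simp [divCode]) (I := .mov d zr) (by simp [divCode])
      refine ⟨_, _, reach_at hpc i0 (reach_at p1 i17 (Reach.refl _ _)), ?_, ?_, ⟨fun i hi => ?_, ?_⟩, ?_⟩
      · show c1.pc + 1 = p + 18
        rw [p1]
      · simp [Instr.exec, hc1, hb, hz]
      · simp only [Instr.exec, hc1, Function.update_apply]
        rw [if_neg (by omega)]
      · rfl
      · omega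
  · have i1 := hcode.get 1 (by simp [divCode]) (I := .mov (d + 2) d) (by simp [divCode])
    have i2 := hcode.get 2 (by simp [divCode]) (I := .mov d zr) (by simp [divCode])
    have i3 := hcode.get 3 (by simp [divCode]) (I := .mov (d + 4) zr) (by simp [divCode])
    have i4 := hcode.get 4 (by simp [divCode]) (I := .mov (d + 3) (d + 1)) (by simp [divCode])
    have i16 := hcode.get 16 (by simp [divCode]) (I := .jz zr (p + 18)) (by simp [divCode])
    set c1 := (Instr.jz (d + 1) (p + 17)).exec c with hc1
    set c2 := (Instr.mov (d + 2) d).exec c1 with hc2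
    set c3 := (Instr.mov d zr).exec c2 with hc3
    set c4 := (Instr.mov (d + 4) zr).exec c3 with hc4
    set c5 := (Instr.mov (d + 3) (d + 1)).exec c4 with hc5
    have p1 : c1.pc = p + 1 := by simp [hc1, Instr.exec, hb, hpc]
    have p2 : c2.pc = p + 2 := by simp [hc2, Instr.exec, p1]
    have p3 : c3.pc = p + 3 := by simp [hc3, Instr.exec, p2]
    have p4 : c4.pc = p + 4 := by simp [hc4, Instr.exec, p3]
    have p5 : c5.pc = p + 5 := by simp [hc5, Instr.exec, p4]
    have r5 : ∀ i, c5.reg i = if i = d + 3 then c.reg (d + 1) else if i = d + 4 then 0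
        else if i = d then 0 else if i = d + 2 then c.reg d else c.reg i := by
      intro i
      have r1 : c1.reg = c.reg := rfl
      simp only [hc5, hc4, hc3, hc2, Instr.exec, Function.update_apply, r1]
      by_cases h3 : i = d + 3
      · subst h3
        simp
      · by_cases h4 : i = d + 4
        · subst h4
          simp [hzn, hz]
        · by_cases h0 : i = d
          · subst h0
            simp [hzn, hz]
          · simp [h3, h4, h0]
    have m5 : c5.mem = c.mem := rfl
    obtain ⟨t, c', hR, h1, h2, h3, h4, h5, h6⟩ := div_loop hd isMod hcode (c.reg (d + 1)) (c.reg d) c5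
      p5 (by rw [r5]; simp)
      (by
        rw [r5, if_neg (by omega), if_neg (by omega), if_neg (by omega), if_neg (by omega)])
      (by rw [r5, r5]; simp)
      (by rw [r5]; simp; omega)
      (by
        rw [r5, if_neg (hzn 3), if_neg (hzn 4), if_neg (by simpa using hzn 0), if_neg (hzn 2), hz])
    have e0 : c5.reg d = 0 := by rw [r5]; simp
    have e4 : c5.reg (d + 4) = 0 := by rw [r5]; simp
    rw [e0, e4] at h2
    simp only [zero_mul, add_zero, zero_add] at h2
    have hq : c'.reg d = c.reg d / c.reg (d + 1) := by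
      rw [← h2, Nat.mul_comm, Nat.mul_add_div (Nat.pos_of_ne_zero hb), Nat.div_eq_of_lt h3, add_zero]
    have hm : c'.reg (d + 4) = c.reg d % c.reg (d + 1) := by
      rw [← h2, Nat.mul_comm, Nat.mul_add_mod, Nat.mod_eq_of_lt h3]
    have hframe : ∀ i, (i < d ∨ d + 5 ≤ i) → c'.reg i = c.reg i := by
      intro i hi
      rw [h4 i (by omega) (by omega) (by omega) (by omega), r5, if_neg (by omega), if_neg (by omega),
        if_neg (by omega), if_neg (by omega)]
    have hzc : c'.reg zr = 0 := by
      rw [hframe zr (by simp only [zr]; omega), hz]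
    cases isMod with
    | true =>
      have i15 := hcode.get 15 (by simp [divCode]) (I := .mov d (d + 4)) (by simp [divCode])
      set c6 := (Instr.mov d (d + 4)).exec c' with hc6
      have p6 : c6.pc = p + 16 := by simp [hc6, Instr.exec, h1]
      have z6 : c6.reg zr = 0 := by
        simp only [hc6, Instr.exec, Function.update_apply]
        rw [if_neg (by simpa using hzn 0), hzc]
      refine ⟨_, _, reach_at hpc i0 (reach_at p1 i1 (reach_at p2 i2 (reach_at p3 i3 (reach_at p4 i4
        (hR.trans (reach_at h1 i15 (reach_at p6 i16 (Reach.refl _ _)))))))), ?_, ?_, ⟨fun i hi => ?_, ?_⟩, ?_⟩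
      · show (if c6.reg zr = 0 then p + 18 else c6.pc + 1) = p + 18
        rw [if_pos z6]
      · simpa [Instr.exec, hc6] using hm
      · simp only [Instr.exec, hc6, Function.update_apply]
        rw [if_neg (by omega), hframe i hi]
      · show c'.mem = c.mem
        rw [h5]
        rfl
      · omega
    | false =>
      have i15 := hcode.get 15 (by simp [divCode]) (I := .mov (d + 4) (d + 4)) (by simp [divCode])
      set c6 := (Instr.mov (d + 4) (d + 4)).exec c' with hc6
      have p6 : c6.pc = p + 16 := by simp [hc6, Instr.exec, h1]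
      have z6 : c6.reg zr = 0 := by
        simp only [hc6, Instr.exec, Function.update_apply]
        rw [if_neg (hzn 4), hzc]
      refine ⟨_, _, reach_at hpc i0 (reach_at p1 i1 (reach_at p2 i2 (reach_at p3 i3 (reach_at p4 i4
        (hR.trans (reach_at h1 i15 (reach_at p6 i16 (Reach.refl _ _)))))))), ?_, ?_, ⟨fun i hi => ?_, ?_⟩, ?_⟩
      · show (if c6.reg zr = 0 then p + 18 else c6.pc + 1) = p + 18
        rw [if_pos z6]
      · simpa [Instr.exec, hc6, Function.update_apply] using hq
      · simp only [Instr.exec, hc6, Function.update_apply]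
        rw [if_neg (by omega), hframe i hi]
      · show c'.mem = c.mem
        rw [h5]
        rfl
      · omega

end Loops

end Vale.Agent.Lib.P310.Full
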