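import Vale.Agent.Lib.P310.Full.Diag

/-!
# The arithmetic of the sizes, and the fields and vector spaces
-/

namespace Vale.Agent.Lib.P310.Full

open FC Function

namespace NP

variable (p : NP) (Q : ℕ)

/-- The program has room for the tables below its input length. -/
lemma fit_bound (c₀ : ℕ) (hm : p.m = Q ^ 3) (hnT : p.nT ≤ c₀ * Q ^ 2) (hw : p.w ≤ Q)
    (hQ : 30 + (3 * c₀ + 2) * (2 + p.ρ + 4 * p.e) + p.ρ ^ 2 + p.e ≤ Q) :
    p.bPow Q + p.e ≤ p.m := by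
  have hQ2 : 1 ≤ Q ^ 2 := Nat.one_le_pow _ _ (by omega)
  have hQle : Q ≤ Q ^ 2 := Nat.le_self_pow (by norm_num) _
  have h23 : 23 ≤ Q ^ 2 := by omega
  have he : p.e ≤ Q ^ 2 := by omega
  set r := 2 + p.ρ + 4 * p.e with hr
  have h1 : (3 * p.nT + 2) * r ≤ ((3 * c₀ + 2) * r) * Q ^ 2 := by
    have : 3 * p.nT + 2 ≤ (3 * c₀ + 2) * Q ^ 2 := by nlinarith
    calc (3 * p.nT + 2) * r ≤ ((3 * c₀ + 2) * Q ^ 2) * r := Nat.mul_le_mul_right _ this
      _ = _ := by ring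
  have h2 : (p.ρ * p.w * p.ρ) * Q ≤ p.ρ ^ 2 * Q ^ 2 := by
    calc (p.ρ * p.w * p.ρ) * Q ≤ (p.ρ * Q * p.ρ) * Q :=
          Nat.mul_le_mul_right _ (Nat.mul_le_mul_right _ (Nat.mul_le_mul_left _ hw))
      _ = _ := by ring
  have h3 : p.w * Q ≤ Q ^ 2 := by
    calc p.w * Q ≤ Q * Q := Nat.mul_le_mul_right _ hw
      _ = _ := by ring
  have h4 : Q * Q = Q ^ 2 := by ring
  have hb : p.bPow Q = 23 + Q * Q + (3 * p.nT + 2) * r + (p.ρ * p.w * p.ρ) * Q + p.w * Q := rfl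
  rw [hb, hm, h4]
  have h5 : (6 + (3 * c₀ + 2) * r + p.ρ ^ 2) * Q ^ 2 ≤ Q ^ 3 := by
    calc (6 + (3 * c₀ + 2) * r + p.ρ ^ 2) * Q ^ 2 ≤ Q * Q ^ 2 := Nat.mul_le_mul_right _ (by omega)
      _ = _ := by ring
  have h6 : (6 + (3 * c₀ + 2) * r + p.ρ ^ 2) * Q ^ 2 =
      6 * Q ^ 2 + ((3 * c₀ + 2) * r) * Q ^ 2 + p.ρ ^ 2 * Q ^ 2 := by ring
  omega

/-- The number of vertices is polynomial in `Q`. -/
lemma n₀_bound (c₀ : ℕ) (hm : p.m = Q ^ 3) (hnT : p.nT ≤ c₀ * Q ^ 2) (hnQ : p.nQ ≤ Q) (hw : p.w ≤ Q)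
    (hc₀ : c₀ ≤ Q) (hQ : 30 + 4 * p.ρ ^ 2 ≤ Q) : p.n₀ Q + 1 ≤ Q ^ 27 := by
  have hQ0 : 0 < Q := by omega
  have hρQ : p.ρ ≤ Q := by nlinarith
  have hnT' : p.nT ≤ Q ^ 3 := by
    calc p.nT ≤ c₀ * Q ^ 2 := hnT
      _ ≤ Q * Q ^ 2 := Nat.mul_le_mul_right _ hc₀
      _ = _ := by ring
  have hQ3 : 1 ≤ Q ^ 3 := Nat.one_le_pow _ _ hQ0
  have hnR : p.m + p.nT ≤ 2 * Q ^ 3 := by omega
  have hnG : p.nG ≤ 8 * Q ^ 3 := by
    show 3 * (p.m + p.nT) + 2 ≤ _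
    omega
  have hlam : p.lam ≤ Q ^ 2 := by
    show 2 * p.ρ * (p.ρ + p.ρ * p.w) ≤ _
    have h1 : p.ρ + p.ρ * p.w ≤ 2 * p.ρ * Q := by
      have : p.ρ * p.w ≤ p.ρ * Q := Nat.mul_le_mul_left _ hw
      have h2 : p.ρ ≤ p.ρ * Q := Nat.le_mul_of_pos_right _ hQ0
      have h3 : 2 * p.ρ * Q = p.ρ * Q + p.ρ * Q := by ring
      omega
    calc 2 * p.ρ * (p.ρ + p.ρ * p.w) ≤ 2 * p.ρ * (2 * p.ρ * Q) := Nat.mul_le_mul_left _ h1
      _ = (4 * p.ρ ^ 2) * Q := by ring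
      _ ≤ Q * Q := Nat.mul_le_mul_right _ (by omega)
      _ = _ := by ring
  have hρ2 : p.ρ * Q ≤ Q ^ 2 := by
    calc p.ρ * Q ≤ Q * Q := Nat.mul_le_mul_right _ hρQ
      _ = _ := by ring
  have hnP : p.nP Q ≤ Q ^ 8 := by
    have h1 : p.nG * (p.ρ * Q) * p.lam ≤ 8 * Q ^ 7 := by
      calc p.nG * (p.ρ * Q) * p.lam ≤ (8 * Q ^ 3) * Q ^ 2 * Q ^ 2 :=
            Nat.mul_le_mul (Nat.mul_le_mul hnG hρ2) hlam
        _ = _ := by ring
    have h2 : p.nG * (p.ρ * Q) ≤ 8 * Q ^ 5 := by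
      calc p.nG * (p.ρ * Q) ≤ (8 * Q ^ 3) * Q ^ 2 := Nat.mul_le_mul hnG hρ2
        _ = _ := by ring
    have h3 : (p.nQ + (p.m + p.nT)) * (p.ρ * Q) ≤ 3 * Q ^ 5 := by
      have h4 : p.nQ + (p.m + p.nT) ≤ 3 * Q ^ 3 := by
        have : Q ≤ Q ^ 3 := Nat.le_self_pow (by norm_num) _
        omega
      calc (p.nQ + (p.m + p.nT)) * (p.ρ * Q) ≤ (3 * Q ^ 3) * Q ^ 2 := Nat.mul_le_mul h4 hρ2
        _ = _ := by ring
    have h5 : Q ^ 5 ≤ Q ^ 7 := Nat.pow_le_pow_right hQ0 (by norm_num)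
    have h6 : 19 * Q ^ 7 ≤ Q ^ 8 := by
      calc 19 * Q ^ 7 ≤ Q * Q ^ 7 := Nat.mul_le_mul_right _ (by omega)
        _ = _ := by ring
    show p.nG * (p.ρ * Q) * p.lam + p.nG * (p.ρ * Q) + (p.nQ + (p.m + p.nT)) * (p.ρ * Q) ≤ _
    omega
  have hQ8 : 1 ≤ Q ^ 8 := Nat.one_le_pow _ _ hQ0
  have hlp : p.lp Q ≤ Q ^ 17 := by
    show 2 * p.nP Q * (4 * p.nP Q + 1) + 1 ≤ _
    have h1 : 2 * p.nP Q * (4 * p.nP Q + 1) ≤ 10 * Q ^ 16 := by
      calc 2 * p.nP Q * (4 * p.nP Q + 1) ≤ 2 * Q ^ 8 * (5 * Q ^ 8) :=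
            Nat.mul_le_mul (Nat.mul_le_mul_left _ hnP) (by omega)
        _ = _ := by ring
    have h2 : 1 ≤ Q ^ 16 := Nat.one_le_pow _ _ hQ0
    have h3 : 11 * Q ^ 16 ≤ Q ^ 17 := by
      calc 11 * Q ^ 16 ≤ Q * Q ^ 16 := Nat.mul_le_mul_right _ (by omega)
        _ = _ := by ring
    omega
  have hn : p.n₀ Q ≤ 4 * Q ^ 25 := by
    show 4 * p.nP Q * p.lp Q ≤ _
    calc 4 * p.nP Q * p.lp Q ≤ 4 * Q ^ 8 * Q ^ 17 :=
          Nat.mul_le_mul (Nat.mul_le_mul_left _ hnP) hlp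
      _ = _ := by ring
  have h7 : 1 ≤ Q ^ 25 := Nat.one_le_pow _ _ hQ0
  have h8 : 5 * Q ^ 25 ≤ Q ^ 26 := by
    calc 5 * Q ^ 25 ≤ Q * Q ^ 25 := Nat.mul_le_mul_right _ (by omega)
      _ = _ := by ring
  have h9 : Q ^ 26 ≤ Q ^ 27 := Nat.pow_le_pow_right hQ0 (by norm_num)
  omega

end NP

/-- The final inequality. -/
lemma big_ineq {Q n Cc D C k e M₁ : ℕ} (hn : n + 1 ≤ Q ^ 27)
    (hQC : 16 * (Cc + 1) + 3 + C ≤ Q) (hD : 55 * (D + 1) + 2 ≤ e) (hk : 27 * (k / 432) + 2 ≤ e)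
    (hM₁ : M₁ ≤ Cc * (2 * (n * n) + 2) ^ D) :
    n + (M₁ + 1 + 2 * (n * n) * (2 * (Cc * (2 * (n * n) + 2) ^ D) + 4) +
      (2 * (Cc * (2 * (n * n) + 2) ^ D) + 4)) + C * (n + 1) ^ (k / 432) + 1 < Q ^ e := by
  set B := 2 * (n * n) + 2 with hB
  set X := B ^ D with hX
  have hQ0 : 0 < Q := by omega
  have hB2 : 2 ≤ B := by omega
  have hX1 : 1 ≤ X := Nat.one_le_pow _ _ (by omega)
  have hnB : n ≤ B := by nlinarith
  have hBQ : B ≤ Q ^ 55 := by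
    have h1 : B ≤ 2 * ((n + 1) * (n + 1)) := by
      rw [hB]
      nlinarith
    have h2 : (n + 1) * (n + 1) ≤ Q ^ 54 := by
      calc (n + 1) * (n + 1) ≤ Q ^ 27 * Q ^ 27 := Nat.mul_le_mul hn hn
        _ = _ := by ring
    have h3 : 2 * Q ^ 54 ≤ Q ^ 55 := by
      calc 2 * Q ^ 54 ≤ Q * Q ^ 54 := Nat.mul_le_mul_right _ (by omega)
        _ = _ := by ring
    omega
  have hBX : B * X ≤ Q ^ (55 * (D + 1)) := by
    have h1 : B * X = B ^ (D + 1) := by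
      rw [hX]
      ring
    rw [h1, pow_mul]
    exact Nat.pow_le_pow_left hBQ _
  have hY : 16 * (Cc + 1) * (B * X) ≤ Q ^ (55 * (D + 1) + 1) := by
    rw [pow_succ, Nat.mul_comm (Q ^ _)]
    exact Nat.mul_le_mul (by omega) hBX
  have hBX1 : B ≤ B * X := Nat.le_mul_of_pos_right _ (by omega)
  have hXBX : X ≤ B * X := Nat.le_mul_of_pos_left _ (by omega)
  have hTA : C * (n + 1) ^ (k / 432) ≤ Q ^ (27 * (k / 432) + 1) := by
    have h1 : (n + 1) ^ (k / 432) ≤ Q ^ (27 * (k / 432)) := by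
      rw [pow_mul]
      exact Nat.pow_le_pow_left hn _
    rw [pow_succ, Nat.mul_comm (Q ^ _)]
    exact Nat.mul_le_mul (by omega) h1
  have hE1 : Q ^ (55 * (D + 1) + 1) ≤ Q ^ (e - 1) := Nat.pow_le_pow_right hQ0 (by omega)
  have hE2 : Q ^ (27 * (k / 432) + 1) ≤ Q ^ (e - 1) := Nat.pow_le_pow_right hQ0 (by omega)
  have hE3 : 3 * Q ^ (e - 1) ≤ Q ^ e := by
    have h1 : Q ^ e = Q * Q ^ (e - 1) := by
      rw [← pow_succ']
      congr 1
      omega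
    rw [h1]
    exact Nat.mul_le_mul_right _ (by omega)
  have hpos : 1 ≤ Q ^ (e - 1) := Nat.one_le_pow _ _ hQ0
  -- the polynomial part
  have hM₂ : n + (M₁ + 1 + 2 * (n * n) * (2 * (Cc * X) + 4) + (2 * (Cc * X) + 4)) + 1 ≤
      16 * (Cc + 1) * (B * X) := by
    have h1 : 2 * (n * n) ≤ B := by omega
    have h2 : 2 * (n * n) * (2 * (Cc * X) + 4) ≤ B * (2 * (Cc * X) + 4) := Nat.mul_le_mul_right _ h1
    have h3 : B * (2 * (Cc * X) + 4) = 2 * (Cc * (B * X)) + 4 * B := by ring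
    have h4 : Cc * X ≤ Cc * (B * X) := Nat.mul_le_mul_left _ hXBX
    have h5 : 16 * (Cc + 1) * (B * X) = 16 * (Cc * (B * X)) + 16 * (B * X) := by ring
    have h6 : 1 ≤ X := hX1
    have h7 : 2 ≤ B * X := by nlinarith
    omega
  omega

/-- A bound for the numbers of registers and arrays of a program. -/
lemma exists_instrOK (P : List Instr) : ∃ τ J : ℕ, 0 < J ∧ ∀ I, I ∈ P → InstrOK τ J I := by
  induction P with
  | nil => exact ⟨0, 1, by norm_num, fun I h => by simp at h⟩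
  | cons a l ih =>
    obtain ⟨τ, J, hJ, h⟩ := ih
    have hmono : ∀ {τ τ' J J' : ℕ} (I : Instr), τ ≤ τ' → J ≤ J' → InstrOK τ J I → InstrOK τ' J' I := by
      intro τ τ' J J' I h₁ h₂ h
      cases I <;> simp only [InstrOK] at h ⊢ <;> omega
    have hself : ∃ τ' J', ∀ {τ'' J'' : ℕ}, τ' ≤ τ'' → J' ≤ J'' → InstrOK τ'' J'' a := by
      cases a with
      | inc r => exact ⟨r + 1, 0, fun h _ => by simp only [InstrOK]; omega⟩
      | dec r => exact ⟨r + 1, 0, fun h _ => by simp only [InstrOK]; omega⟩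
      | mov r s => exact ⟨r + s + 1, 0, fun h _ => by simp only [InstrOK]; omega⟩
      | jz r t => exact ⟨r + 1, 0, fun h _ => by simp only [InstrOK]; omega⟩
      | load r j s => exact ⟨r + s + 1, j + 1, fun h h' => by simp only [InstrOK]; omega⟩
      | store j s r => exact ⟨r + s + 1, j + 1, fun h h' => by simp only [InstrOK]; omega⟩
      | halt b => exact ⟨0, 0, fun _ _ => by simp only [InstrOK]⟩
    obtain ⟨τ', J', ha⟩ := hself
    refine ⟨τ + τ', J + J', by omega, fun I hI => ?_⟩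
    rcases List.mem_cons.mp hI with rfl | hI
    · exact ha (by omega) (by omega)
    · exact hmono I (by omega) (by omega) (h I hI)

/-- The number of rule indices. -/
lemma card_ruleIdx (L τ J e : ℕ) (V : Type) [Fintype V] (hV : 0 < Fintype.card V) :
    Fintype.card (RuleIdx L τ J e V) ≤
      ((Fintype.card (HState L τ J e) + 1) ^ 3 * 20 * (e + 1) + 2 * τ * e + L * e) *
        Fintype.card V ^ 2 := by
  classical
  rw [← Fintype.card_congr (ruleIdxEquiv L τ J e V)]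
  simp only [Fintype.card_sum, Fintype.card_prod, Fintype.card_fin, Fintype.card_bool]
  set X := Fintype.card (HState L τ J e)
  set Q := Fintype.card V
  set Y := (X + 1) ^ 3 with hY
  have hY' : Y = X * X * X + 3 * (X * X) + 3 * X + 1 := by
    rw [hY]
    ring
  have hQ2 : 1 ≤ Q ^ 2 := Nat.one_le_pow _ _ hV
  have hQle : Q ≤ Q ^ 2 := Nat.le_self_pow (by norm_num) _
  have h1 : 1 ≤ (e + 1) * Q ^ 2 := Nat.mul_pos (by omega) (by omega)
  have h2 : e * Q ≤ (e + 1) * Q ^ 2 := Nat.mul_le_mul (by omega) hQle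
  have t1 : 4 * Y ≤ 4 * Y * ((e + 1) * Q ^ 2) := Nat.le_mul_of_pos_right _ (by omega)
  have t2 : (6 * (X * X) + 4 * X) * (e * Q) ≤ 10 * Y * ((e + 1) * Q ^ 2) :=
    Nat.mul_le_mul (by omega) h2
  have t3 : 2 * τ * e * Q ≤ 2 * τ * e * Q ^ 2 := Nat.mul_le_mul_left _ hQle
  have t4 : L * (e * (Q * Q)) = L * e * Q ^ 2 := by ring
  have t5 : X + X * X * X + 2 * (X * X) ≤ 4 * Y := by omega
  have e1 : X + (X * (X * X) + (X * X + (4 * (X * (X * (e * Q))) + (X * (X * (e * Q)) +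
      (X * (4 * (e * Q)) + (X * X + (X * (X * (e * Q)) + (2 * (τ * (e * Q)) + L * (e * (Q * Q))))))))))
      = (X + X * X * X + 2 * (X * X)) + (6 * (X * X) + 4 * X) * (e * Q) + 2 * τ * e * Q +
        L * (e * (Q * Q)) := by ring
  have e2 : (Y * 20 * (e + 1) + 2 * τ * e + L * e) * Q ^ 2 =
      20 * Y * ((e + 1) * Q ^ 2) + 2 * τ * e * Q ^ 2 + L * e * Q ^ 2 := by ring
  have e3 : 4 * Y * ((e + 1) * Q ^ 2) + 10 * Y * ((e + 1) * Q ^ 2) ≤ 20 * Y * ((e + 1) * Q ^ 2) := by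
    rw [← Nat.add_mul]
    exact Nat.mul_le_mul_right _ (by omega)
  rw [e2, e1]
  omega

/-- A field of characteristic two with many elements. -/
lemma exists_field (k : ℕ) (hk : k ≠ 0) : ∃ (F : Type) (_ : Field F) (_ : CharP F 2) (_ : Fintype F)
    (α : Fin k → F), Injective α ∧ 2 ≤ Fintype.card F := by
  classical
  haveI : Fact (Nat.Prime 2) := ⟨Nat.prime_two⟩
  let F := GaloisField 2 k
  letI : Fintype F := Fintype.ofFinite F
  have hc : Fintype.card F = 2 ^ k := by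
    rw [← Nat.card_eq_fintype_card]
    exact GaloisField.card 2 k hk
  have hle : Fintype.card (Fin k) ≤ Fintype.card F := by
    rw [hc, Fintype.card_fin]
    exact Nat.lt_two_pow_self.le
  obtain ⟨f⟩ := Function.Embedding.nonempty_of_card_le hle
  refine ⟨F, inferInstance, inferInstance, inferInstance, f, f.injective, ?_⟩
  rw [hc]
  calc 2 = 2 ^ 1 := by norm_num
    _ ≤ 2 ^ k := Nat.pow_le_pow_right (by norm_num) (by omega)

/-- A numbering of a finite space that starts with zero. -/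
lemma exists_vn (V : Type) [Fintype V] [Zero V] :
    ∃ vn : V ≃ Fin (Fintype.card V), (vn 0).val = 0 := by
  classical
  have hpos : 0 < Fintype.card V := Fintype.card_pos
  let σ : V ≃ Fin (Fintype.card V) := Fintype.equivFin V
  refine ⟨σ.trans (Equiv.swap (σ 0) ⟨0, hpos⟩), ?_⟩
  simp

/-- Bits of a vector space over a field of characteristic two. -/
lemma exists_bits {F V : Type} [Field F] [CharP F 2] [AddCommGroup V] [Module F V] [Fintype V] :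
    ∃ (w : ℕ) (bit : Fin w → V →+ ZMod 2), (∀ v : V, (∀ t, bit t v = 0) → v = 0) ∧
      w ≤ Fintype.card V := by
  classical
  let _ : Module (ZMod 2) V := AddCommGroup.zmodModule (n := 2) (by
    intro x
    have h1 : ((2 : ℕ) : F) = 0 := CharP.cast_eq_zero F 2
    have h2 : (((2 : ℕ) : F)) • x = 0 := by rw [h1, zero_smul]
    rwa [Nat.cast_smul_eq_nsmul] at h2)
  let b := Module.finBasis (ZMod 2) V
  refine ⟨Module.finrank (ZMod 2) V, fun t => (b.coord t).toAddMonoidHom, ?_, ?_⟩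
  · intro v hv
    refine b.repr.map_eq_zero_iff.mp ?_
    ext t
    exact hv t
  · have h := Module.card_eq_pow_finrank (K := ZMod 2) (V := V)
    rw [h, ZMod.card]
    exact Nat.lt_two_pow_self.le

end Vale.Agent.Lib.P310.Full
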