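import Vale.Agent.Lib.P310.Full.Final1

/-!
# The lower bound for random access machines
-/

namespace Vale.Agent.Lib.P310.Full

open FC Function

lemma sum3_le {a b c d : ℕ} (h : a + b + c ≤ d) : a ≤ d ∧ b ≤ d ∧ c ≤ d := by
  omega

/-- The costs of the three expressions of the reduction. -/
lemma exists_cost : ∃ Cc D : ℕ, ∀ B, 2 ≤ B → ∀ x env : ℕ → ℕ, (∀ a, x a ≤ B) →
    (∀ i : Fin 5, env i ≤ B) →
    limE.cost x env ≤ Cc * B ^ D ∧ subE.cost x env ≤ Cc * B ^ D ∧ theE.cost x env ≤ Cc * B ^ D := by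
  obtain ⟨C, D, h⟩ := ((cost_poly limE).add (cost_poly subE)).add (cost_poly theE)
  exact ⟨C, D, fun B hB x env hx henv => sum3_le (h B hB x env hx henv)⟩

section

variable {F V : Type} [Field F] [CharP F 2] [AddCommGroup V] [Module F V] [Fintype V]
  [DecidableEq V] [HasVn V]

/-- The lower bound on a large enough space. -/
theorem core_false {ρ e w τ J : ℕ} {A Pg : List Instr} (hP : Pg = mCode theE A)
    (hvn : (HasVn.vn (0 : V) : Fin _).val = 0) (hρ : 0 < ρ) (hℓ : 4 * e ≤ ρ) {α : Fin ρ → F}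
    (hα : Injective α) (bit : Fin w → V →+ ZMod 2) (hbit : ∀ v : V, (∀ t, bit t v = 0) → v = 0)
    (hw : w ≤ Fintype.card V) (hρ3 : 3 ≤ ρ) (hℓ2 : 2 * (4 * e) ≤ ρ + 1) {j₀ : Fin J}
    (hj₀ : j₀.val = 0) (hτ : ∀ I, I ∈ Pg → InstrOK τ J I) {Cc D C c₀ : ℕ}
    (hcost : ∀ B, 2 ≤ B → ∀ x env : ℕ → ℕ, (∀ a, x a ≤ B) → (∀ i : Fin 5, env i ≤ B) →
      limE.cost x env ≤ Cc * B ^ D ∧ subE.cost x env ≤ Cc * B ^ D ∧ theE.cost x env ≤ Cc * B ^ D)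
    (hD : 55 * (D + 1) + 2 ≤ e) (hk : 27 * (ρ / 432) + 2 ≤ e)
    (hnT : Fintype.card (RuleIdx Pg.length τ J e V) ≤ c₀ * Fintype.card V ^ 2)
    (hQ : 30 + (3 * c₀ + 2) * (2 + ρ + 4 * e) + 4 * ρ ^ 2 + e + 16 * (Cc + 1) + C +
      Fintype.card (HState Pg.length τ J e) + c₀ ≤ Fintype.card V)
    (hDec : DecidesWL A ρ (fun n => C * (n + 1) ^ (ρ / 432))) : False := by
  obtain ⟨Q, hQV⟩ : ∃ Q, Q = Fintype.card V := ⟨_, rfl⟩
  obtain ⟨m, hm⟩ : ∃ m, m = Fintype.card V ^ 3 := ⟨_, rfl⟩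
  have hfit : (npOf Pg τ J e ρ w m V j₀).bPow (Fintype.card V) + e ≤ m :=
    NP.fit_bound (npOf Pg τ J e ρ w m V j₀) (Fintype.card V) c₀ hm hnT hw (by
      show 30 + (3 * c₀ + 2) * (2 + ρ + 4 * e) + ρ ^ 2 + e ≤ _
      have : ρ ^ 2 ≤ 4 * ρ ^ 2 := by omega
      omega)
  have hn : (npOf Pg τ J e ρ w m V j₀).n₀ (Fintype.card V) + 1 ≤ Fintype.card V ^ 27 :=
    NP.n₀_bound (npOf Pg τ J e ρ w m V j₀) (Fintype.card V) c₀ hm hnT (by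
      show Fintype.card (HState Pg.length τ J e) ≤ _
      omega) hw (by omega) (by
      show 30 + 4 * ρ ^ 2 ≤ _
      omega)
  have hI := inputOK_T (V := V) (Pg := Pg) (τ := τ) (J := J) (e := e) (j₀ := j₀) (ρ := ρ)
    (w := w) (m := m) hfit
  have hL := theX_layout (p := npOf Pg τ J e ρ w m V j₀) (hρ := hρ) (hℓ := hℓ) (hα := hα)
    (bit := bit) (hbit := hbit) (inR := inRT Pg τ J e j₀ ρ w m)
    (tR := tRT Pg τ J e j₀ ρ w m) (q₀ := qAcc Pg τ J j₀ m) hvn hI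
  have hH := theX_header (p := npOf Pg τ J e ρ w m V j₀) (hρ := hρ) (hℓ := hℓ) (hα := hα)
    (bit := bit) (hbit := hbit) (inR := inRT Pg τ J e j₀ ρ w m)
    (tR := tRT Pg τ J e j₀ ρ w m) (q₀ := qAcc Pg τ J j₀ m)
  have hx0 : xT hρ hℓ hα bit hbit Pg τ J j₀ m 0 = nT' hρ hℓ hα bit hbit Pg τ J j₀ m := hH.h0
  have hx0' : xT hρ hℓ hα bit hbit Pg τ J j₀ m 0 =
      (npOf Pg τ J e ρ w m V j₀).n₀ (Fintype.card V) := NP.xLay_hdr (by norm_num)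
  have hcells : ∀ a, xT hρ hℓ hα bit hbit Pg τ J j₀ m a ≤ nT' hρ hℓ hα bit hbit Pg τ J j₀ m :=
    fun a => hx0 ▸ hL.cells a
  have hmle : m ≤ nT' hρ hℓ hα bit hbit Pg τ J j₀ m := hx0 ▸ hL.mle
  have hn' : nT' hρ hℓ hα bit hbit Pg τ J j₀ m + 1 ≤ Fintype.card V ^ 27 := by
    rw [← hx0, hx0']
    exact hn
  obtain ⟨n, hnn⟩ : ∃ n, n = nT' hρ hℓ hα bit hbit Pg τ J j₀ m := ⟨_, rfl⟩
  obtain ⟨x, hxx⟩ : ∃ x, x = xT hρ hℓ hα bit hbit Pg τ J j₀ m := ⟨_, rfl⟩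
  rw [← hnn] at hmle hn'
  rw [← hnn, ← hxx] at hcells
  have hB2 : 2 ≤ 2 * (n * n) + 2 := by omega
  have hnB : n ≤ 2 * (n * n) + 2 := by nlinarith
  have hxB : ∀ a, x a ≤ 2 * (n * n) + 2 := fun a => (hcells a).trans hnB
  have henv : ∀ ptr, ptr ≤ 2 * (n * n) → ∀ i : Fin 5, envR m ptr (2 * (n * n)) i ≤ 2 * (n * n) + 2 := by
    intro ptr hptr i
    unfold envR
    split_ifs <;> omega
  have henv0 : ∀ i : Fin 5, envR m 0 0 i ≤ 2 * (n * n) + 2 := by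
    intro i
    unfold envR
    split_ifs <;> omega
  have hT : ∀ ptr, ptr ≤ 2 * (n * n) →
      subE.cost x (envR m ptr (2 * (n * n))) + theE.cost x (envR m ptr (2 * (n * n))) + 4 ≤
        2 * (Cc * (2 * (n * n) + 2) ^ D) + 4 := by
    intro ptr hptr
    obtain ⟨-, h2, h3⟩ := hcost _ hB2 x _ hxB (henv ptr hptr)
    have h4 := Nat.add_le_add h2 h3
    rw [← Nat.two_mul] at h4
    exact Nat.add_le_add_right h4 4
  have hbig := big_ineq (Q := Fintype.card V) (n := n) (Cc := Cc) (D := D) (C := C) (k := ρ) (e := e)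
    (M₁ := limE.cost x (envR m 0 0)) hn' (by omega) hD hk (hcost _ hB2 x _ hxB henv0).1
  subst hnn hxx
  refine diag (V := V) (F := F) (hρ := hρ) (hℓ := hℓ) (α := α) (hα := hα) (bit := bit)
    (hbit := hbit) (τ := τ) (J := J) (j₀ := j₀) (m := m) (A := A) hP hvn hρ3 hℓ2 hj₀ hτ hfit hT ?_ hbig
  exact hDec _ _ _

end

/-- The lower bound for random access machines. -/
theorem ram_lower_432 : ∃ k₀ : ℕ, ∀ k, k₀ ≤ k → ∀ (A : List Instr) (C : ℕ),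
    ¬ DecidesWL A k (fun n => C * (n + 1) ^ (k / 432)) := by
  obtain ⟨Cc, D, hcost⟩ := exists_cost
  refine ⟨8 * (55 * (D + 1) + 2) + 40, fun k hk A C hDec => ?_⟩
  obtain ⟨e, he⟩ : ∃ e, e = (k + 1) / 8 := ⟨_, rfl⟩
  obtain ⟨F, _, _, _, α, hα, hF⟩ := exists_field k (by omega)
  obtain ⟨Pg, hP⟩ : ∃ Pg, Pg = mCode theE A := ⟨_, rfl⟩
  obtain ⟨τ, J, hJ, hτ⟩ := exists_instrOK Pg
  obtain ⟨c₀, hc₀⟩ : ∃ c₀, c₀ = (Fintype.card (HState Pg.length τ J e) + 1) ^ 3 * 20 * (e + 1) +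
      2 * τ * e + Pg.length * e := ⟨_, rfl⟩
  obtain ⟨Q₀, hQ₀⟩ : ∃ Q₀, Q₀ = 30 + (3 * c₀ + 2) * (2 + k + 4 * e) + 4 * k ^ 2 + e + 16 * (Cc + 1) + C +
      Fintype.card (HState Pg.length τ J e) + c₀ := ⟨_, rfl⟩
  classical
  obtain ⟨vn, hvn⟩ := exists_vn (Fin Q₀ → F)
  letI : HasVn (Fin Q₀ → F) := ⟨vn⟩
  obtain ⟨w, bit, hbit, hw⟩ := exists_bits (F := F) (V := Fin Q₀ → F)
  have hV : Q₀ ≤ Fintype.card (Fin Q₀ → F) := by
    rw [Fintype.card_fun, Fintype.card_fin]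
    calc Q₀ ≤ 2 ^ Q₀ := Nat.lt_two_pow_self.le
      _ ≤ _ := Nat.pow_le_pow_left hF _
  have hV0 : 0 < Fintype.card (Fin Q₀ → F) := Fintype.card_pos
  refine core_false (V := Fin Q₀ → F) (F := F) (ρ := k) (e := e) (w := w) (τ := τ) (J := J) (A := A)
    (Pg := Pg) (C := C) (Cc := Cc) (D := D) (c₀ := c₀) (j₀ := ⟨0, hJ⟩) hP hvn (by omega) (by omega) hα bit hbit hw
    (by omega) (by omega) rfl hτ hcost (by omega) (by omega) ?_ (by rw [← hQ₀]; exact hV) hDec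
  rw [hc₀]
  exact card_ruleIdx _ _ _ _ _ hV0

end Vale.Agent.Lib.P310.Full
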