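import Vale.Agent.Lib.P310.Full.Model

/-!
# Turing machines with several tapes

A machine with finitely many tapes, each infinite to the right; the head of a tape moves left,
moves right or stays, a left move at cell `0` stays at cell `0`. The input is on one of the tapes.
An input to a decision procedure for `k`-WL equivalence is a pair of graphs on `Fin n`, each given
by its adjacency matrix, written row by row.
-/

namespace Vale.Agent.Lib.P310.Full

/-- The move of a head. -/
inductive Dir : Type
  | left
  | right
  | stay

/-- The new position of a head. -/
def Dir.apply : Dir → ℕ → ℕ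
  | .left, h => h - 1
  | .right, h => h + 1
  | .stay, h => h

/-- A deterministic Turing machine with tapes numbered by `τ`. The transition function sees the
symbols under all heads; it gives the new state, the symbols written and the moves of the heads. -/
structure MTM (τ Q Γ : Type) where
  blank : Γ
  bit : Bool → Γ
  start : Q
  acc : Q
  rej : Q
  acc_ne_rej : acc ≠ rej
  inp : τ
  δ : Q → (τ → Γ) → Q × (τ → Γ) × (τ → Dir)

/-- A configuration of a machine with several tapes. -/
structure MCfg (τ Q Γ : Type) where
  q : Q
  tape : τ → ℕ → Γ
  head : τ → ℕ

namespace MTM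

variable {τ Q Γ : Type} (M : MTM τ Q Γ)

open Classical in
/-- One step of the machine; a configuration in state `acc` or `rej` does not change any more. -/
noncomputable def step (c : MCfg τ Q Γ) : MCfg τ Q Γ :=
  if c.q = M.acc ∨ c.q = M.rej then c
  else
    ⟨(M.δ c.q fun i => c.tape i (c.head i)).1,
      fun i => Function.update (c.tape i) (c.head i)
        ((M.δ c.q fun i => c.tape i (c.head i)).2.1 i),
      fun i => ((M.δ c.q fun i => c.tape i (c.head i)).2.2 i).apply (c.head i)⟩

open Classical in
/-- The initial configuration on an input word: the word is on the input tape, everything else is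
blank and all heads are on cell `0`. -/
noncomputable def init (w : List Bool) : MCfg τ Q Γ :=
  ⟨M.start, fun i j => if i = M.inp then (w[j]?).elim M.blank M.bit else M.blank, fun _ => 0⟩

/-- The configuration after `t` steps on input `w`. -/
noncomputable def run (w : List Bool) (t : ℕ) : MCfg τ Q Γ := (M.step)^[t] (M.init w)

/-- The machine has stopped on input `w` after at most `t` steps. -/
def HaltsWithin (w : List Bool) (t : ℕ) : Prop :=
  (M.run w t).q = M.acc ∨ (M.run w t).q = M.rej

end MTM

open Classical in
/-- The adjacency matrix of a graph on `Fin n`, row by row. -/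
noncomputable def adjBits {n : ℕ} (G : SimpleGraph (Fin n)) : List Bool :=
  (List.finRange n).flatMap fun i => (List.finRange n).map fun j => decide (G.Adj i j)

/-- The input word for a pair of graphs on `Fin n`: the two adjacency matrices. -/
noncomputable def encPair {n : ℕ} (G H : SimpleGraph (Fin n)) : List Bool :=
  adjBits G ++ adjBits H

/-- The machine decides `k`-WL equivalence of pairs of graphs with the same number of vertices. -/
def MDecidesWL {τ Q Γ : Type} (k : ℕ) (M : MTM τ Q Γ) : Prop :=
  ∀ (n : ℕ) (G H : SimpleGraph (Fin n)),
    (WLEquiv k G H → ∃ t, (M.run (encPair G H) t).q = M.acc) ∧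
      (¬ WLEquiv k G H → ∃ t, (M.run (encPair G H) t).q = M.rej)

/-- The running time of the machine is at most `C * n ^ e` on all pairs of graphs with `n ≥ n₀`
vertices. -/
def MTimeBigO {τ Q Γ : Type} (M : MTM τ Q Γ) (e : ℕ) : Prop :=
  ∃ C n₀ : ℕ, ∀ n, n₀ ≤ n → ∀ G H : SimpleGraph (Fin n),
    M.HaltsWithin (encPair G H) (C * n ^ e)

end Vale.Agent.Lib.P310.Full
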