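import Vale.Agent.Lib.P310.Full.Exec
import Vale.Agent.Lib.P310.Full.TMModel

/-!
# Flowcharts: programs whose control points form a finite type
-/

namespace Vale.Agent.Lib.P310.Full

open Function

/-- A step of a flowchart. -/
inductive FI (Pt : Type) : Type
  | inc (r : ℕ) (nx : Pt)
  | dec (r : ℕ) (nx : Pt)
  | mov (r s : ℕ) (nx : Pt)
  | load (r j s : ℕ) (nx : Pt)
  | store (j s r : ℕ) (nx : Pt)
  | br (r : ℕ) (z nz : Pt)
  | halt (b : Bool)

variable {Pt : Type}

/-- The first instruction of a step. -/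
def FI.c1 (num : Pt → ℕ) : FI Pt → Instr
  | .inc r _ => .inc r
  | .dec r _ => .dec r
  | .mov r s _ => .mov r s
  | .load r j s _ => .load r j s
  | .store j s r _ => .store j s r
  | .br r z _ => .jz r (2 * num z)
  | .halt b => .halt b

/-- The second instruction of a step, a jump on the zero register `1`. -/
def FI.c2 (num : Pt → ℕ) : FI Pt → Instr
  | .inc _ nx => .jz 1 (2 * num nx)
  | .dec _ nx => .jz 1 (2 * num nx)
  | .mov _ _ nx => .jz 1 (2 * num nx)
  | .load _ _ _ nx => .jz 1 (2 * num nx)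
  | .store _ _ _ nx => .jz 1 (2 * num nx)
  | .br _ _ nz => .jz 1 (2 * num nz)
  | .halt b => .halt b

/-- The program of a flowchart. -/
def flowP {N : ℕ} (fl : Pt → FI Pt) (e : Pt ≃ Fin N) : List Instr :=
  (List.finRange N).flatMap fun i =>
    [(fl (e.symm i)).c1 (fun p => (e p).val), (fl (e.symm i)).c2 (fun p => (e p).val)]

lemma getElem?_flatMap_const {α β : Type} (f : α → List β) {d : ℕ} (hd : ∀ a, (f a).length = d)
    (l : List α) (i j : ℕ) (hj : j < d) :
    (l.flatMap f)[i * d + j]? = (l[i]?).bind (fun a => (f a)[j]?) := by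
  induction l generalizing i with
  | nil => simp
  | cons a l ih =>
    rw [List.flatMap_cons]
    cases i with
    | zero =>
      simp only [Nat.zero_mul, Nat.zero_add, List.getElem?_cons_zero, Option.bind_some]
      rw [List.getElem?_append_left (by rw [hd]; exact hj)]
    | succ i =>
      have h1 : (i + 1) * d + j = (f a).length + (i * d + j) := by
        rw [hd, Nat.add_mul]
        omega
      rw [h1, List.getElem?_append_right (by omega), Nat.add_sub_cancel_left, ih]
      simp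

lemma getElem?_finRange {N i : ℕ} (h : i < N) : (List.finRange N)[i]? = some ⟨i, h⟩ := by
  rw [List.getElem?_eq_getElem (by simpa using h)]
  simp

/-- Reaching a state within `T` steps. -/
def RR (P : List Instr) (a b : Conf) (T : ℕ) : Prop := ∃ t, t ≤ T ∧ Reach P a t b

lemma RR.refl (P : List Instr) (a : Conf) : RR P a a 0 := ⟨0, le_rfl, Reach.refl P a⟩

lemma RR.trans {P : List Instr} {a b c : Conf} {S T : ℕ} (h₁ : RR P a b S) (h₂ : RR P b c T) :
    RR P a c (S + T) := by
  obtain ⟨s, hs, h₁⟩ := h₁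
  obtain ⟨t, ht, h₂⟩ := h₂
  exact ⟨s + t, Nat.add_le_add hs ht, h₁.trans h₂⟩

lemma RR.mono {P : List Instr} {a b : Conf} {S T : ℕ} (h : RR P a b S) (hST : S ≤ T) :
    RR P a b T := by
  obtain ⟨s, hs, h⟩ := h
  exact ⟨s, hs.trans hST, h⟩

section

variable {N : ℕ} {fl : Pt → FI Pt} {e : Pt ≃ Fin N}

/-- A state at a control point. -/
def At (e : Pt ≃ Fin N) (p : Pt) (r : ℕ → ℕ) (m : ℕ → ℕ → ℕ) : Conf := ⟨2 * (e p).val, r, m⟩

lemma flow_c1 (p : Pt) :
    (flowP fl e)[2 * (e p).val]? = some ((fl p).c1 (fun p => (e p).val)) := by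
  have h := getElem?_flatMap_const (fun i => [(fl (e.symm i)).c1 (fun p => (e p).val),
    (fl (e.symm i)).c2 (fun p => (e p).val)]) (d := 2) (fun _ => rfl) (List.finRange N) (e p).val 0
    (by norm_num)
  rw [getElem?_finRange (e p).isLt] at h
  simp only [Fin.eta, Equiv.symm_apply_apply, Option.bind_some] at h
  rw [Nat.mul_comm 2]
  exact h

lemma flow_c2 (p : Pt) :
    (flowP fl e)[2 * (e p).val + 1]? = some ((fl p).c2 (fun p => (e p).val)) := by
  have h := getElem?_flatMap_const (fun i => [(fl (e.symm i)).c1 (fun p => (e p).val),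
    (fl (e.symm i)).c2 (fun p => (e p).val)]) (d := 2) (fun _ => rfl) (List.finRange N) (e p).val 1
    (by norm_num)
  rw [getElem?_finRange (e p).isLt] at h
  simp only [Fin.eta, Equiv.symm_apply_apply, Option.bind_some] at h
  rw [Nat.mul_comm 2]
  exact h

variable {p nx z nz : Pt} {r : ℕ → ℕ} {m : ℕ → ℕ → ℕ}

lemma jz_exec_pos {c : Conf} {k t : ℕ} (h : c.reg k = 0) : (Instr.jz k t).exec c = ⟨t, c.reg, c.mem⟩ := by
  simp [Instr.exec, h]

lemma jz_exec_neg {c : Conf} {k t : ℕ} (h : c.reg k ≠ 0) :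
    (Instr.jz k t).exec c = ⟨c.pc + 1, c.reg, c.mem⟩ := by
  simp [Instr.exec, h]

lemma two_steps {I : Instr} {r' : ℕ → ℕ} {m' : ℕ → ℕ → ℕ}
    (hp1 : (fl p).c1 (fun p => (e p).val) = I)
    (hp2 : (fl p).c2 (fun p => (e p).val) = .jz 1 (2 * (e nx).val))
    (hI : I.exec (At e p r m) = ⟨2 * (e p).val + 1, r', m'⟩) (hz : r' 1 = 0) :
    RR (flowP fl e) (At e p r m) (At e nx r' m') 2 := by
  have h1 := flow_c1 (fl := fl) (e := e) p
  have h2 := flow_c2 (fl := fl) (e := e) p
  rw [hp1] at h1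
  rw [hp2] at h2
  refine ⟨2, le_rfl, ?_⟩
  refine reach_at (I := I) rfl h1 ?_
  rw [hI]
  refine reach_at (I := .jz 1 (2 * (e nx).val)) rfl h2 ?_
  rw [jz_exec_pos (by simpa using hz)]
  exact Reach.refl _ _

lemma fr_inc {k : ℕ} (hp : fl p = .inc k nx) (hz : update r k (r k + 1) 1 = 0) :
    RR (flowP fl e) (At e p r m) (At e nx (update r k (r k + 1)) m) 2 :=
  two_steps (I := .inc k) (by rw [hp]; rfl) (by rw [hp]; rfl) rfl hz

lemma fr_dec {k : ℕ} (hp : fl p = .dec k nx) (hz : update r k (r k - 1) 1 = 0) :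
    RR (flowP fl e) (At e p r m) (At e nx (update r k (r k - 1)) m) 2 :=
  two_steps (I := .dec k) (by rw [hp]; rfl) (by rw [hp]; rfl) rfl hz

lemma fr_mov {k s : ℕ} (hp : fl p = .mov k s nx) (hz : update r k (r s) 1 = 0) :
    RR (flowP fl e) (At e p r m) (At e nx (update r k (r s)) m) 2 :=
  two_steps (I := .mov k s) (by rw [hp]; rfl) (by rw [hp]; rfl) rfl hz

lemma fr_load {k j s : ℕ} (hp : fl p = .load k j s nx) (hz : update r k (m j (r s)) 1 = 0) :
    RR (flowP fl e) (At e p r m) (At e nx (update r k (m j (r s))) m) 2 :=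
  two_steps (I := .load k j s) (by rw [hp]; rfl) (by rw [hp]; rfl) rfl hz

lemma fr_store {k j s : ℕ} (hp : fl p = .store j s k nx) (hz : r 1 = 0) :
    RR (flowP fl e) (At e p r m) (At e nx r (update m j (update (m j) (r s) (r k)))) 2 :=
  two_steps (I := .store j s k) (by rw [hp]; rfl) (by rw [hp]; rfl) rfl hz

lemma fr_br_z {k : ℕ} (hp : fl p = .br k z nz) (h : r k = 0) :
    RR (flowP fl e) (At e p r m) (At e z r m) 1 := by
  have h1 := flow_c1 (fl := fl) (e := e) p
  rw [hp] at h1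
  refine ⟨1, le_rfl, reach_at (I := .jz k (2 * (e z).val)) rfl h1 ?_⟩
  rw [jz_exec_pos (c := At e p r m) h]
  exact Reach.refl _ _

lemma fr_br_nz {k : ℕ} (hp : fl p = .br k z nz) (h : r k ≠ 0) (hz : r 1 = 0) :
    RR (flowP fl e) (At e p r m) (At e nz r m) 2 := by
  have h1 := flow_c1 (fl := fl) (e := e) p
  have h2 := flow_c2 (fl := fl) (e := e) p
  rw [hp] at h1 h2
  refine ⟨2, le_rfl, reach_at (I := .jz k (2 * (e z).val)) rfl h1 ?_⟩
  rw [jz_exec_neg (c := At e p r m) h]
  refine reach_at (I := .jz 1 (2 * (e nz).val)) rfl h2 ?_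
  rw [jz_exec_pos (c := ⟨(At e p r m).pc + 1, (At e p r m).reg, (At e p r m).mem⟩) hz]
  exact Reach.refl _ _

lemma fr_halt {b : Bool} (hp : fl p = .halt b) :
    outcome (flowP fl e) (At e p r m) = some b := by
  have h1 := flow_c1 (fl := fl) (e := e) p
  rw [hp] at h1
  unfold outcome
  show (match (flowP fl e)[2 * (e p).val]? with
    | some (.halt b) => some b
    | _ => none) = some b
  rw [h1]
  rfl

end

end Vale.Agent.Lib.P310.Full
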