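import Vale.Agent.Lib.P310.Full.OracleSpec2

/-!
# The layout of the input of the reduction
-/

namespace Vale.Agent.Lib.P310.Full

open FC Function

/-- The numbers that determine the layout. -/
structure NP where
  ρ : ℕ
  e : ℕ
  w : ℕ
  nQ : ℕ
  nT : ℕ
  m : ℕ
  aNum : ℕ

namespace NP

variable (p : NP) (Q : ℕ)

/-- The number of rules. -/
def nR : ℕ := p.m + p.nT
/-- The number of gates. -/
def nG : ℕ := 3 * (p.m + p.nT) + 2
/-- The length of a row of the table of gates. -/
def rowLen : ℕ := 2 + p.ρ + 4 * p.e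
/-- The length of a base vector. -/
def mS : ℕ := p.ρ + p.ρ * p.w
/-- The length of a chain. -/
def lam : ℕ := 2 * p.ρ * p.mS
/-- The number of constraints. -/
def nP : ℕ :=
  p.nG * (p.ρ * Q) * p.lam + p.nG * (p.ρ * Q) + (p.nQ + (p.m + p.nT)) * (p.ρ * Q)
/-- The number of choices for the leaf part of a vertex. -/
def lp : ℕ := 2 * p.nP Q * (4 * p.nP Q + 1) + 1
/-- The number of vertices. -/
def n₀ : ℕ := 4 * p.nP Q * p.lp Q
/-- The start of the table of gates. -/
def bGate (_p : NP) (Q : ℕ) : ℕ := 23 + Q * Q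
/-- The start of the table of coefficients. -/
def bPsi : ℕ := p.bGate Q + (3 * p.nT + 2) * p.rowLen
/-- The start of the table of bits. -/
def bBit : ℕ := p.bPsi Q + (p.ρ * p.w * p.ρ) * Q
/-- The start of the table of powers. -/
def bPow : ℕ := p.bBit Q + p.w * Q

/-- The header. -/
def hdr : ℕ → ℕ
  | 0 => p.n₀ Q
  | 1 => p.lp Q
  | 2 => p.ρ * Q
  | 3 => p.lam
  | 4 => p.mS
  | 5 => Q
  | 6 => p.ρ
  | 7 => p.nG
  | 8 => p.w
  | 9 => p.nP Q
  | 10 => 3 * (p.m + p.nT) + 1
  | 11 => p.m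
  | 12 => p.nQ
  | 13 => p.aNum
  | 14 => p.e
  | 15 => p.ρ - 4 * p.e
  | 17 => p.bGate Q
  | 18 => p.rowLen
  | 19 => 23
  | 20 => p.bPsi Q
  | 21 => p.bBit Q
  | 22 => p.bPow Q
  | _ => 0

/-- The input, given the cells of the tables. -/
def xLay (addCell : ℕ → ℕ) (rowCell : ℕ → ℕ → ℕ) (psiCell bitCell : ℕ → ℕ) (a : ℕ) : ℕ :=
  if a < 23 then p.hdr Q a
  else if a < p.bGate Q then addCell (a - 23)
  else if a < p.bPsi Q then rowCell ((a - p.bGate Q) / p.rowLen) ((a - p.bGate Q) % p.rowLen)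
  else if a < p.bBit Q then psiCell (a - p.bPsi Q)
  else if a < p.bPow Q then bitCell (a - p.bBit Q)
  else if a < p.bPow Q + p.e then min (Q ^ (a - p.bPow Q)) (p.n₀ Q + 1) - 1
  else 0

variable {p Q} {addCell : ℕ → ℕ} {rowCell : ℕ → ℕ → ℕ} {psiCell bitCell : ℕ → ℕ}

lemma xLay_hdr {a : ℕ} (h : a < 23) : p.xLay Q addCell rowCell psiCell bitCell a = p.hdr Q a := by
  unfold xLay
  rw [if_pos h]

lemma xLay_add {k : ℕ} (h : k < Q * Q) :
    p.xLay Q addCell rowCell psiCell bitCell (23 + k) = addCell k := by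
  unfold xLay bGate
  rw [if_neg (by omega), if_pos (by omega)]
  simp

lemma xLay_row {k : ℕ} (h : k < (3 * p.nT + 2) * p.rowLen) :
    p.xLay Q addCell rowCell psiCell bitCell (p.bGate Q + k) =
      rowCell (k / p.rowLen) (k % p.rowLen) := by
  unfold xLay bPsi
  rw [if_neg (by unfold bGate; omega), if_neg (by omega), if_pos (by omega)]
  simp

lemma xLay_psi {k : ℕ} (h : k < (p.ρ * p.w * p.ρ) * Q) :
    p.xLay Q addCell rowCell psiCell bitCell (p.bPsi Q + k) = psiCell k := by
  unfold xLay bBit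
  rw [if_neg (by unfold bPsi bGate; omega), if_neg (by unfold bPsi; omega), if_neg (by omega),
    if_pos (by omega)]
  simp

lemma xLay_bit {k : ℕ} (h : k < p.w * Q) :
    p.xLay Q addCell rowCell psiCell bitCell (p.bBit Q + k) = bitCell k := by
  unfold xLay bPow
  rw [if_neg (by unfold bBit bPsi bGate; omega), if_neg (by unfold bBit bPsi; omega),
    if_neg (by unfold bBit; omega), if_neg (by omega), if_pos (by omega)]
  simp

lemma xLay_pow {k : ℕ} (h : k < p.e) :
    p.xLay Q addCell rowCell psiCell bitCell (p.bPow Q + k) = min (Q ^ k) (p.n₀ Q + 1) - 1 := by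
  unfold xLay
  rw [if_neg (by unfold bPow bBit bPsi bGate; omega), if_neg (by unfold bPow bBit bPsi; omega),
    if_neg (by unfold bPow bBit; omega), if_neg (by unfold bPow; omega), if_neg (by omega),
    if_pos (by omega)]
  simp

lemma xLay_out {a : ℕ} (h : p.bPow Q + p.e ≤ a) :
    p.xLay Q addCell rowCell psiCell bitCell a = 0 := by
  unfold xLay
  rw [if_neg (by unfold bPow bBit bPsi bGate at h; omega),
    if_neg (by unfold bPow bBit bPsi at h; omega), if_neg (by unfold bPow bBit at h; omega),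
    if_neg (by unfold bPow at h; omega), if_neg (by omega), if_neg (by omega)]

/-- A bound for all cells of the input. -/
lemma xLay_le {addB : ℕ} (hadd : ∀ k, addCell k ≤ addB) (hrow : ∀ i c, rowCell i c ≤ addB)
    (hpsi : ∀ k, psiCell k ≤ addB) (hbit : ∀ k, bitCell k ≤ addB) (hB : addB ≤ p.n₀ Q)
    (hhdr : ∀ a, p.hdr Q a ≤ p.n₀ Q) (a : ℕ) :
    p.xLay Q addCell rowCell psiCell bitCell a ≤ p.n₀ Q := by
  unfold xLay
  split
  · exact hhdr a
  split
  · exact (hadd _).trans hB
  split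
  · exact (hrow _ _).trans hB
  split
  · exact (hpsi _).trans hB
  split
  · exact (hbit _).trans hB
  split
  · have := min_le_right (Q ^ (a - p.bPow Q)) (p.n₀ Q + 1)
    omega
  · omega

end NP

end Vale.Agent.Lib.P310.Full
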