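import Vale.Agent.Lib.P310.Full.Layout1

/-!
# The cells of the tables of the input
-/

namespace Vale.Agent.Lib.P310.Full

open FC Function

section Bounds

namespace NP

variable (p : NP) (Q : ℕ)

/-- The basic bounds on the numbers of the layout. -/
lemma nP_bounds (hρ : 0 < p.ρ) (hQ : 0 < Q) :
    p.nG ≤ p.nP Q ∧ p.lam ≤ p.nP Q ∧ p.mS ≤ p.lam ∧ p.nQ + (p.m + p.nT) + Q + 3 ≤ p.nP Q ∧
      p.ρ * Q ≤ p.nP Q ∧ p.nP Q ≤ p.n₀ Q ∧ p.lp Q ≤ p.n₀ Q ∧ 3 * p.nP Q ≤ p.n₀ Q := by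
  have hA : 0 < p.ρ * Q := Nat.mul_pos hρ hQ
  have hQA : Q ≤ p.ρ * Q := Nat.le_mul_of_pos_left _ hρ
  have hmS : p.ρ ≤ p.mS := by
    unfold mS
    omega
  have hlamS : p.mS ≤ p.lam := by
    unfold lam
    refine Nat.le_mul_of_pos_left _ (by omega)
  have hlam : 0 < p.lam := by omega
  have hnG : 2 ≤ p.nG := by
    unfold nG
    omega
  have h1 : p.nG * (p.ρ * Q) * p.lam = p.nG * (p.ρ * Q) * p.lam := rfl
  have h2 : p.lam ≤ p.nG * (p.ρ * Q) * p.lam := by
    refine Nat.le_mul_of_pos_left _ (Nat.mul_pos (by omega) hA)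
  have h3 : p.nG ≤ p.nG * (p.ρ * Q) := Nat.le_mul_of_pos_right _ hA
  have h4 : p.nG * (p.ρ * Q) ≤ p.nG * (p.ρ * Q) * p.lam := Nat.le_mul_of_pos_right _ hlam
  have h5 : 2 * (p.ρ * Q) ≤ p.nG * (p.ρ * Q) := Nat.mul_le_mul_right _ hnG
  have h6 : p.nQ + (p.m + p.nT) ≤ (p.nQ + (p.m + p.nT)) * (p.ρ * Q) := Nat.le_mul_of_pos_right _ hA
  have hN : p.nP Q = p.nG * (p.ρ * Q) * p.lam + p.nG * (p.ρ * Q) +
      (p.nQ + (p.m + p.nT)) * (p.ρ * Q) := rfl
  have hNpos : 1 ≤ p.nP Q := by omega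
  have hlp : p.nP Q ≤ p.lp Q := by
    unfold lp
    have : p.nP Q ≤ 2 * p.nP Q * (4 * p.nP Q + 1) := by nlinarith
    omega
  have hlp1 : 1 ≤ p.lp Q := by
    unfold lp
    omega
  have hn : 4 * p.nP Q ≤ p.n₀ Q := by
    unfold n₀
    exact Nat.le_mul_of_pos_right _ hlp1
  have hn2 : p.lp Q ≤ p.n₀ Q := by
    unfold n₀
    exact Nat.le_mul_of_pos_left _ (by omega)
  refine ⟨by omega, by omega, hlamS, by omega, by omega, by omega, hn2, by omega⟩

/-- The header is bounded. -/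
lemma hdr_le (hρ : 0 < p.ρ) (hQ : 0 < Q) (he : 4 * p.e ≤ p.ρ) (hfit : p.bPow Q + p.e ≤ p.m)
    (haNum : p.aNum < p.nQ) (a : ℕ) : p.hdr Q a ≤ p.n₀ Q := by
  obtain ⟨b1, b2, b3, b4, b5, b6, b7, b8⟩ := p.nP_bounds Q hρ hQ
  have hnG : p.nG = 3 * (p.m + p.nT) + 2 := rfl
  have hρA : p.ρ ≤ p.ρ * Q := Nat.le_mul_of_pos_right _ hQ
  have hw : p.w ≤ p.w * Q := Nat.le_mul_of_pos_right _ hQ
  have hrow : p.rowLen ≤ (3 * p.nT + 2) * p.rowLen := Nat.le_mul_of_pos_left _ (by omega)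
  have hB1 : p.bPow Q = p.bBit Q + p.w * Q := rfl
  have hB2 : p.bBit Q = p.bPsi Q + (p.ρ * p.w * p.ρ) * Q := rfl
  have hB3 : p.bPsi Q = p.bGate Q + (3 * p.nT + 2) * p.rowLen := rfl
  have hB4 : p.bGate Q = 23 + Q * Q := rfl
  match a with
  | 0 => exact le_rfl
  | 1 => exact b7
  | 2 => exact b5.trans b6
  | 3 => exact b2.trans b6
  | 4 => exact b3.trans (b2.trans b6)
  | 5 =>
    show Q ≤ _
    omega
  | 6 =>
    show p.ρ ≤ _
    omega
  | 7 => exact b1.trans b6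
  | 8 =>
    show p.w ≤ _
    omega
  | 9 => exact b6
  | 10 =>
    show 3 * (p.m + p.nT) + 1 ≤ _
    omega
  | 11 =>
    show p.m ≤ _
    omega
  | 12 =>
    show p.nQ ≤ _
    omega
  | 13 =>
    show p.aNum ≤ _
    omega
  | 14 =>
    show p.e ≤ _
    omega
  | 15 =>
    show p.ρ - 4 * p.e ≤ _
    omega
  | 16 => exact Nat.zero_le _
  | 17 =>
    show p.bGate Q ≤ _
    omega
  | 18 =>
    show p.rowLen ≤ _
    omega
  | 19 =>
    show 23 ≤ _
    omega
  | 20 =>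
    show p.bPsi Q ≤ _
    omega
  | 21 =>
    show p.bBit Q ≤ _
    omega
  | 22 =>
    show p.bPow Q ≤ _
    omega
  | (a + 23) => exact Nat.zero_le _

end NP

end Bounds

section Cells

variable {F V : Type} [Field F] [CharP F 2] [AddCommGroup V] [Module F V] [Fintype V]
  [DecidableEq V] [HasVn V] {ρ e w : ℕ}

/-- The table of additions. -/
noncomputable def addCell (V : Type) [AddCommGroup V] [Fintype V] [DecidableEq V] [HasVn V]
    (k : ℕ) : ℕ :=
  if h : k / Fintype.card V < Fintype.card V then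
    (HasVn.vn ((HasVn.vn.symm ⟨k / Fintype.card V, h⟩ : V) +
      HasVn.vn.symm ⟨k % Fintype.card V, Nat.mod_lt _ Fintype.card_pos⟩) : Fin _).val
  else 0

lemma addCell_eq (a b : V) :
    addCell V ((HasVn.vn a : Fin _).val * Fintype.card V + (HasVn.vn b : Fin _).val) =
      (HasVn.vn (a + b) : Fin _).val := by
  unfold addCell
  rw [dm_div (Fin.isLt _), dif_pos (Fin.isLt _)]
  simp only [dm_mod (Fin.isLt _)]
  simp

lemma addCell_le (k : ℕ) : addCell V k ≤ Fintype.card V := by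
  unfold addCell
  split
  · exact (Fin.isLt _).le
  · omega

variable (hρ : 0 < ρ) (hℓ : 4 * e ≤ ρ) {α : Fin ρ → F} (hα : Injective α)
  (bit : Fin w → V →+ ZMod 2) (hbit : ∀ v : V, (∀ t, bit t v = 0) → v = 0)

/-- The table of gates. -/
noncomputable def rowCell (P₀ : Prog V (4 * e)) (q₀ : Fin P₀.nQ) (m i c : ℕ) : ℕ :=
  if h : 3 * m + i < 3 * P₀.nR + 2 then
    if c = 0 then botCode ((sysOf hρ hℓ hα bit hbit P₀ q₀).bot ⟨3 * m + i, h⟩)
    else if c = 1 then topCode ((sysOf hρ hℓ hα bit hbit P₀ q₀).top ⟨3 * m + i, h⟩)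
    else if hc : c - 2 < ρ then
      (HasVn.vn ((sysOf hρ hℓ hα bit hbit P₀ q₀).lam ⟨3 * m + i, h⟩ ⟨c - 2, hc⟩) : Fin _).val
    else if hj : c - 2 - ρ < 4 * e then
      gvCode (gateGuard P₀ (fun _ => 0) ((gateEquiv P₀.nR).symm ⟨3 * m + i, h⟩) ⟨c - 2 - ρ, hj⟩)
    else 0
  else 0

lemma botCode_le {nF : ℕ} (o : Option (Fin (nF + 1) × Option Bool)) : botCode o ≤ 3 * nF + 3 := by
  cases o with
  | none => exact Nat.zero_le _
  | some p =>
    have := p.1.isLt
    have := muN_lt p.2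
    simp only [botCode]
    omega

lemma topCode_le {nF : ℕ} (o : Fin (nF + 1) × Bool) : topCode o ≤ 3 * nF + 3 := by
  have := o.1.isLt
  have := Bool.toNat_lt o.2
  simp only [topCode]
  omega

lemma gvCode_le (o : Option V) : gvCode o ≤ Fintype.card V := by
  cases o with
  | none => exact Nat.zero_le _
  | some a =>
    have := (HasVn.vn a : Fin _).isLt
    simp only [gvCode]
    omega

lemma rowCell_le (P₀ : Prog V (4 * e)) (q₀ : Fin P₀.nQ) (m i c : ℕ) :
    rowCell hρ hℓ hα bit hbit P₀ q₀ m i c ≤ 3 * (P₀.nQ + P₀.nR) + 3 + Fintype.card V := by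
  unfold rowCell
  split
  · split
    · have : botCode ((sysOf hρ hℓ hα bit hbit P₀ q₀).bot ⟨3 * m + i, by assumption⟩) ≤
          3 * (P₀.nQ + P₀.nR) + 3 := botCode_le _
      omega
    · split
      · have : topCode ((sysOf hρ hℓ hα bit hbit P₀ q₀).top ⟨3 * m + i, by assumption⟩) ≤
            3 * (P₀.nQ + P₀.nR) + 3 := topCode_le _
        omega
      · split
        · have := (HasVn.vn ((sysOf hρ hℓ hα bit hbit P₀ q₀).lam ⟨3 * m + i, by assumption⟩
            ⟨c - 2, by assumption⟩) : Fin _).isLt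
          omega
        · split
          · have := gvCode_le (gateGuard P₀ (fun _ => 0) ((gateEquiv P₀.nR).symm ⟨3 * m + i, by assumption⟩)
              ⟨c - 2 - ρ, by assumption⟩)
            omega
          · omega
  · omega

/-- The table of coefficients. -/
noncomputable def psiCell (k : ℕ) : ℕ :=
  if h : (k / Fintype.card V) / ρ < ρ * w ∧ (k / Fintype.card V) % ρ < ρ then
    (bit (bitOf ⟨(k / Fintype.card V) / ρ, h.1⟩)
      (coef hℓ α (eqOf ⟨(k / Fintype.card V) / ρ, h.1⟩) ⟨(k / Fintype.card V) % ρ, h.2⟩ •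
        (HasVn.vn.symm ⟨k % Fintype.card V, Nat.mod_lt _ Fintype.card_pos⟩ : V))).val
  else 0

/-- The table of bits. -/
noncomputable def bitCell (k : ℕ) : ℕ :=
  if h : k / Fintype.card V < w then
    (bit ⟨k / Fintype.card V, h⟩
      (HasVn.vn.symm ⟨k % Fintype.card V, Nat.mod_lt _ Fintype.card_pos⟩ : V)).val
  else 0

lemma psiCell_le (k : ℕ) : psiCell (α := α) hℓ bit k ≤ 1 := by
  unfold psiCell
  split
  · exact Nat.le_of_lt_succ (ZMod.val_lt _)
  · omega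

lemma bitCell_le (k : ℕ) : bitCell bit k ≤ 1 := by
  unfold bitCell
  split
  · exact Nat.le_of_lt_succ (ZMod.val_lt _)
  · omega

lemma psiCell_eq (t : Fin (ρ * w)) (i : Fin ρ) (r : V) :
    psiCell (α := α) hℓ bit ((t.val * ρ + i.val) * Fintype.card V + (HasVn.vn r : Fin _).val) =
      (bit (bitOf t) (coef hℓ α (eqOf t) i • r)).val := by
  have h1 : ((t.val * ρ + i.val) * Fintype.card V + (HasVn.vn r : Fin _).val) / Fintype.card V =
      t.val * ρ + i.val := dm_div (Fin.isLt _)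
  have h2 : (t.val * ρ + i.val) / ρ = t.val := dm_div i.isLt
  have h3 : (t.val * ρ + i.val) % ρ = i.val := dm_mod i.isLt
  have h4 : ((t.val * ρ + i.val) * Fintype.card V + (HasVn.vn r : Fin _).val) % Fintype.card V =
      (HasVn.vn r : Fin _).val := dm_mod (Fin.isLt _)
  unfold psiCell
  simp only [h1, h2, h3, h4, t.isLt, i.isLt, and_self, dif_pos, Fin.eta, Equiv.symm_apply_apply]

lemma bitCell_eq (t : Fin w) (a : V) :
    bitCell bit (t.val * Fintype.card V + (HasVn.vn a : Fin _).val) = (bit t a).val := by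
  unfold bitCell
  rw [dm_div (Fin.isLt _), dif_pos t.isLt]
  simp only [dm_mod (Fin.isLt _)]
  simp

end Cells

end Vale.Agent.Lib.P310.Full
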