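import Vale.Agent.Lib.P310.Full.Layout2

/-!
# The input has the required layout
-/

namespace Vale.Agent.Lib.P310.Full

open FC Function

variable {F V : Type} [Field F] [CharP F 2] [AddCommGroup V] [Module F V] [Fintype V]
  [DecidableEq V] [HasVn V] (p : NP)

section Rules

variable {ℓ : ℕ} (inR : ℕ → ℕ → Rule V ℓ p.nQ) (tR : Fin p.nT → Rule V ℓ p.nQ)

/-- The rules of the program of an input. -/
def ruleX (xi : ℕ → ℕ) : Fin (p.m + p.nT) → Rule V ℓ p.nQ :=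
  Fin.addCases (fun a => inR a.val (xi a.val)) tR

/-- The program of an input. -/
abbrev progX (xi : ℕ → ℕ) : Prog V ℓ := ⟨p.nQ, p.m + p.nT, ruleX p inR tR xi⟩

lemma ruleX_lo (xi : ℕ → ℕ) (r : Fin (p.m + p.nT)) (h : r.val < p.m) :
    ruleX p inR tR xi r = inR r.val (xi r.val) := by
  have h1 : r = Fin.castAdd p.nT ⟨r.val, h⟩ := Fin.ext rfl
  rw [h1]
  simp only [ruleX, Fin.addCases_left, Fin.val_castAdd]

lemma ruleX_hi (xi : ℕ → ℕ) (r : Fin (p.m + p.nT)) (h : p.m ≤ r.val) :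
    ruleX p inR tR xi r = tR ⟨r.val - p.m, by have := r.isLt; omega⟩ := by
  have h1 : r = Fin.natAdd p.m ⟨r.val - p.m, by have := r.isLt; omega⟩ :=
    Fin.ext (by simp only [Fin.val_natAdd]; omega)
  conv_lhs => rw [h1]
  simp only [ruleX, Fin.addCases_right]

lemma ruleX_agree (xi xi' : ℕ → ℕ) (r : Fin (p.m + p.nT)) (h : p.m ≤ r.val) :
    ruleX p inR tR xi r = ruleX p inR tR xi' r := by
  rw [ruleX_hi p inR tR xi r h, ruleX_hi p inR tR xi' r h]

lemma gate_agree (q₀ : Fin p.nQ) (x₀ : Fin ℓ → V) (xi xi' : ℕ → ℕ) (t : GateTag (p.m + p.nT))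
    (ht : 3 * p.m ≤ gateNum t) :
    gateBot (progX p inR tR xi) q₀ t = gateBot (progX p inR tR xi') q₀ t ∧
      gateTop (progX p inR tR xi) t = gateTop (progX p inR tR xi') t ∧
      gateAdd (progX p inR tR xi) t = gateAdd (progX p inR tR xi') t ∧
      gateGuard (progX p inR tR xi) x₀ t = gateGuard (progX p inR tR xi') x₀ t := by
  rcases t with r | r | r | b
  · have h := ruleX_agree p inR tR xi xi' r (by simp only [gateNum] at ht; omega)
    refine ⟨?_, ?_, ?_, ?_⟩ <;> simp only [gateBot, gateTop, gateAdd, gateGuard, h] <;> rfl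
  · have h := ruleX_agree p inR tR xi xi' r (by simp only [gateNum] at ht; omega)
    refine ⟨?_, ?_, ?_, ?_⟩ <;> simp only [gateBot, gateTop, gateAdd, gateGuard, h] <;> rfl
  · have h := ruleX_agree p inR tR xi xi' r (by simp only [gateNum] at ht; omega)
    refine ⟨?_, ?_, ?_, ?_⟩ <;> simp only [gateBot, gateTop, gateAdd, gateGuard, h] <;> rfl
  · cases b <;> exact ⟨rfl, rfl, rfl, rfl⟩

end Rules

variable (hρ : 0 < p.ρ) (hℓ : 4 * p.e ≤ p.ρ) {α : Fin p.ρ → F} (hα : Injective α)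
  (bit : Fin p.w → V →+ ZMod 2) (hbit : ∀ v : V, (∀ t, bit t v = 0) → v = 0)
  (inR : ℕ → ℕ → Rule V (4 * p.e) p.nQ) (tR : Fin p.nT → Rule V (4 * p.e) p.nQ) (q₀ : Fin p.nQ)

lemma rowCell_val (hρ : 0 < p.ρ) (hℓ : 4 * p.e ≤ p.ρ) {α : Fin p.ρ → F} (hα : Injective α)
    (bit : Fin p.w → V →+ ZMod 2) (hbit : ∀ v : V, (∀ t, bit t v = 0) → v = 0)
    (P₀ : Prog V (4 * p.e)) (q₀ : Fin P₀.nQ) (m i c : ℕ) (g : Fin (3 * P₀.nR + 2))
    (hg : g.val = 3 * m + i) :
    rowCell hρ hℓ hα bit hbit P₀ q₀ m i c =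
      if c = 0 then botCode ((sysOf hρ hℓ hα bit hbit P₀ q₀).bot g)
      else if c = 1 then topCode ((sysOf hρ hℓ hα bit hbit P₀ q₀).top g)
      else if hc : c - 2 < p.ρ then
        (HasVn.vn ((sysOf hρ hℓ hα bit hbit P₀ q₀).lam g ⟨c - 2, hc⟩) : Fin _).val
      else if hj : c - 2 - p.ρ < 4 * p.e then
        gvCode (gateGuard P₀ (fun _ => 0) ((gateEquiv P₀.nR).symm g) ⟨c - 2 - p.ρ, hj⟩)
      else 0 := by
  obtain ⟨g, hgv⟩ := g
  simp only at hg
  subst hg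
  unfold rowCell
  rw [dif_pos hgv]
  rfl

/-- The input. -/
noncomputable def theX : ℕ → ℕ :=
  p.xLay (Fintype.card V) (addCell V)
    (rowCell hρ hℓ hα bit hbit (progX p inR tR (fun _ => 0)) q₀ p.m) (psiCell (α := α) hℓ bit) (bitCell bit)

/-- The system of the input. -/
noncomputable abbrev theS : Sys p.ρ V :=
  sysOf hρ hℓ hα bit hbit (progX p inR tR (theX p hρ hℓ hα bit hbit inR tR q₀)) q₀

lemma theX_bot (g : Fin (3 * (p.m + p.nT) + 2)) (hg : 3 * p.m ≤ g.val) :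
    botCode ((theS p hρ hℓ hα bit hbit inR tR q₀).bot g) =
      botCode ((sysOf hρ hℓ hα bit hbit (progX p inR tR (fun _ => 0)) q₀).bot g) := by
  obtain ⟨t, rfl⟩ : ∃ t, g = gateEquiv _ t := ⟨_, ((gateEquiv _).apply_symm_apply g).symm⟩
  rw [gateEquiv_val] at hg
  have h := gate_agree p inR tR q₀ (fun _ => 0) (theX p hρ hℓ hα bit hbit inR tR q₀) (fun _ => 0) t hg
  have h1 : (theS p hρ hℓ hα bit hbit inR tR q₀).bot (gateEquiv _ t) =
      gateBot (progX p inR tR (theX p hρ hℓ hα bit hbit inR tR q₀)) q₀ t :=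
    progSys_bot hρ _ (progX p inR tR (theX p hρ hℓ hα bit hbit inR tR q₀)) q₀ _ _ _ t
  have h2 : (sysOf hρ hℓ hα bit hbit (progX p inR tR (fun _ => 0)) q₀).bot (gateEquiv _ t) =
      gateBot (progX p inR tR (fun _ => 0)) q₀ t :=
    progSys_bot hρ _ (progX p inR tR (fun _ => 0)) q₀ _ _ _ t
  rw [h1, h2, h.1]
  rfl

lemma theX_top (g : Fin (3 * (p.m + p.nT) + 2)) (hg : 3 * p.m ≤ g.val) :
    topCode ((theS p hρ hℓ hα bit hbit inR tR q₀).top g) =
      topCode ((sysOf hρ hℓ hα bit hbit (progX p inR tR (fun _ => 0)) q₀).top g) := by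
  obtain ⟨t, rfl⟩ : ∃ t, g = gateEquiv _ t := ⟨_, ((gateEquiv _).apply_symm_apply g).symm⟩
  rw [gateEquiv_val] at hg
  have h := gate_agree p inR tR q₀ (fun _ => 0) (theX p hρ hℓ hα bit hbit inR tR q₀) (fun _ => 0) t hg
  have h1 : (theS p hρ hℓ hα bit hbit inR tR q₀).top (gateEquiv _ t) =
      gateTop (progX p inR tR (theX p hρ hℓ hα bit hbit inR tR q₀)) t :=
    progSys_top hρ _ (progX p inR tR (theX p hρ hℓ hα bit hbit inR tR q₀)) q₀ _ _ _ t
  have h2 : (sysOf hρ hℓ hα bit hbit (progX p inR tR (fun _ => 0)) q₀).top (gateEquiv _ t) =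
      gateTop (progX p inR tR (fun _ => 0)) t :=
    progSys_top hρ _ (progX p inR tR (fun _ => 0)) q₀ _ _ _ t
  rw [h1, h2, h.2.1]
  rfl

lemma theX_lam (g : Fin (3 * (p.m + p.nT) + 2)) (i : Fin p.ρ) (hg : 3 * p.m ≤ g.val) :
    (theS p hρ hℓ hα bit hbit inR tR q₀).lam g i =
      (sysOf hρ hℓ hα bit hbit (progX p inR tR (fun _ => 0)) q₀).lam g i := by
  obtain ⟨t, rfl⟩ : ∃ t, g = gateEquiv _ t := ⟨_, ((gateEquiv _).apply_symm_apply g).symm⟩
  rw [gateEquiv_val] at hg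
  have h := gate_agree p inR tR q₀ (fun _ => 0) (theX p hρ hℓ hα bit hbit inR tR q₀) (fun _ => 0) t hg
  have h1 : (theS p hρ hℓ hα bit hbit inR tR q₀).lam (gateEquiv _ t) =
      encode α (gateAdd (progX p inR tR (theX p hρ hℓ hα bit hbit inR tR q₀)) t) :=
    progSys_lam hρ _ (progX p inR tR (theX p hρ hℓ hα bit hbit inR tR q₀)) q₀ _ _ _ t
  have h2 : (sysOf hρ hℓ hα bit hbit (progX p inR tR (fun _ => 0)) q₀).lam (gateEquiv _ t) =
      encode α (gateAdd (progX p inR tR (fun _ => 0)) t) :=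
    progSys_lam hρ _ (progX p inR tR (fun _ => 0)) q₀ _ _ _ t
  rw [h1, h2, h.2.2.1]

lemma theX_guard (g : Fin (3 * (p.m + p.nT) + 2)) (hg : 3 * p.m ≤ g.val) :
    gateGuard (progX p inR tR (theX p hρ hℓ hα bit hbit inR tR q₀)) (fun _ => 0)
        ((gateEquiv _).symm g) =
      gateGuard (progX p inR tR (fun _ => 0)) (fun _ => 0) ((gateEquiv _).symm g) := by
  obtain ⟨t, rfl⟩ : ∃ t, g = gateEquiv _ t := ⟨_, ((gateEquiv _).apply_symm_apply g).symm⟩
  rw [gateEquiv_val] at hg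
  rw [Equiv.symm_apply_apply]
  exact (gate_agree p inR tR q₀ (fun _ => 0) (theX p hρ hℓ hα bit hbit inR tR q₀) (fun _ => 0) t hg).2.2.2

/-- The hypotheses on the rules of the input cells and on the sizes. -/
structure InputOK : Prop where
  i1 : ∀ a v, (inR a v).prem₁ = none
  i2 : ∀ a v, (inR a v).prem₂ = none
  i3 : ∀ a v, (inR a v).concl.val = p.aNum
  i4 : ∀ a v, (inR a v).add = fun _ => 0
  i5 : ∀ a v (j : Fin (4 * p.e)), gvCode ((inR a v).guard j) =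
    inCode (Fintype.card V) p.e (fun _ => v) a j.val
  fit : p.bPow (Fintype.card V) + p.e ≤ p.m
  aN : p.aNum < p.nQ

variable {p hρ hℓ hα bit hbit inR tR q₀}

lemma theX_hdr {a : ℕ} (h : a < 23) :
    theX p hρ hℓ hα bit hbit inR tR q₀ a = p.hdr (Fintype.card V) a := NP.xLay_hdr h

lemma theX_rowLen_pos (p : NP) : 0 < p.rowLen := by
  unfold NP.rowLen
  omega

/-- The rows of the table of gates. -/
lemma theX_row (g : Fin (3 * (p.m + p.nT) + 2)) (hg : 3 * p.m ≤ g.val) (c : ℕ) (hc : c < p.rowLen) :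
    theX p hρ hℓ hα bit hbit inR tR q₀ (p.bGate (Fintype.card V) + ((g.val - 3 * p.m) * p.rowLen + c)) =
      rowCell hρ hℓ hα bit hbit (progX p inR tR (fun _ => 0)) q₀ p.m (g.val - 3 * p.m) c := by
  have h1 : g.val - 3 * p.m < 3 * p.nT + 2 := by
    have := g.isLt
    omega
  have h2 := dm_lt h1 hc
  unfold theX
  rw [NP.xLay_row h2, dm_div hc, dm_mod hc]

end Vale.Agent.Lib.P310.Full
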