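import Vale.Agent.Lib.P310.Full.Layout3

/-!
# The input has the required layout: the requirements
-/

namespace Vale.Agent.Lib.P310.Full

open FC Function

variable {F V : Type} [Field F] [CharP F 2] [AddCommGroup V] [Module F V] [Fintype V]
  [DecidableEq V] [HasVn V] {p : NP}
  {hρ : 0 < p.ρ} {hℓ : 4 * p.e ≤ p.ρ} {α : Fin p.ρ → F} {hα : Injective α}
  {bit : Fin p.w → V →+ ZMod 2} {hbit : ∀ v : V, (∀ t, bit t v = 0) → v = 0}
  {inR : ℕ → ℕ → Rule V (4 * p.e) p.nQ} {tR : Fin p.nT → Rule V (4 * p.e) p.nQ} {q₀ : Fin p.nQ}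

/-- The bound for the cells of the input. -/
lemma theX_le (hI : InputOK p inR) (a : ℕ) :
    theX p hρ hℓ hα bit hbit inR tR q₀ a ≤ p.n₀ (Fintype.card V) := by
  have hQ : 0 < Fintype.card V := Fintype.card_pos
  obtain ⟨b1, b2, b3, b4, b5, b6, b7, b8⟩ := p.nP_bounds (Fintype.card V) hρ hQ
  refine NP.xLay_le (addB := 3 * (p.nQ + (p.m + p.nT)) + 3 + Fintype.card V) (fun k => ?_)
    (fun i c => rowCell_le _ _ _ _ _ _ _ _ _ _) (fun k => ?_) (fun k => ?_) (by omega)
    (p.hdr_le _ hρ hQ hℓ hI.fit hI.aN) a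
  · have := addCell_le (V := V) k
    omega
  · have := psiCell_le (α := α) hℓ bit k
    omega
  · have := bitCell_le bit k
    omega

/-- The input is laid out as required. -/
theorem theX_layout (hvn : (HasVn.vn (0 : V) : Fin _).val = 0) (hI : InputOK p inR) :
    LayoutOK hρ hℓ hα bit hbit (progX p inR tR (theX p hρ hℓ hα bit hbit inR tR q₀)) q₀ p.m
      (theX p hρ hℓ hα bit hbit inR tR q₀) := by
  have hQ : 0 < Fintype.card V := Fintype.card_pos
  obtain ⟨b1, b2, b3, b4, b5, b6, b7, b8⟩ := p.nP_bounds (Fintype.card V) hρ hQ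
  set x := theX p hρ hℓ hα bit hbit inR tR q₀ with hx
  have hd : ∀ a, a < 23 → x a = p.hdr (Fintype.card V) a := fun a h => NP.xLay_hdr h
  have h17 : x 17 = p.bGate (Fintype.card V) := hd 17 (by norm_num)
  have h18 : x 18 = p.rowLen := hd 18 (by norm_num)
  have hrow : ∀ (g : Fin (3 * (p.m + p.nT) + 2)) (_ : 3 * p.m ≤ g.val) (c : ℕ) (_ : c < p.rowLen),
      x (p.bGate (Fintype.card V) + ((g.val - 3 * p.m) * p.rowLen + c)) =
        rowCell hρ hℓ hα bit hbit (progX p inR tR (fun _ => 0)) q₀ p.m (g.val - 3 * p.m) c :=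
    fun g hg c hc => theX_row (p := p) (hρ := hρ) (hℓ := hℓ) (hα := hα) (bit := bit)
      (hbit := hbit) (inR := inR) (tR := tR) (q₀ := q₀) g hg c hc
  have hrc : ∀ (g : Fin (3 * (p.m + p.nT) + 2)) (_ : 3 * p.m ≤ g.val) (c : ℕ),
      rowCell hρ hℓ hα bit hbit (progX p inR tR (fun _ => 0)) q₀ p.m (g.val - 3 * p.m) c =
        if c = 0 then botCode ((sysOf hρ hℓ hα bit hbit (progX p inR tR (fun _ => 0)) q₀).bot g)
        else if c = 1 then topCode ((sysOf hρ hℓ hα bit hbit (progX p inR tR (fun _ => 0)) q₀).top g)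
        else if hc : c - 2 < p.ρ then
          (HasVn.vn ((sysOf hρ hℓ hα bit hbit (progX p inR tR (fun _ => 0)) q₀).lam g ⟨c - 2, hc⟩) : Fin _).val
        else if hj : c - 2 - p.ρ < 4 * p.e then
          gvCode (gateGuard (progX p inR tR (fun _ => 0)) (fun _ => 0) ((gateEquiv _).symm g) ⟨c - 2 - p.ρ, hj⟩)
        else 0 := by
    intro g hg c
    exact rowCell_val p hρ hℓ hα bit hbit (progX p inR tR (fun _ => 0)) q₀ p.m _ c g (by omega)
  refine
    { hvn := hvn
      h5 := hd 5 (by norm_num)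
      h6 := hd 6 (by norm_num)
      h8 := hd 8 (by norm_num)
      h11 := hd 11 (by norm_num)
      h12 := hd 12 (by norm_num)
      h14 := hd 14 (by norm_num)
      h15 := hd 15 (by norm_num)
      hm := Nat.le_add_right _ _
      p1 := fun r hr => ?_
      p2 := fun r hr => ?_
      cc := fun r hr => ?_
      ad := fun r hr => ?_
      gd := fun r j hr => ?_
      tb := fun g hg => ?_
      tt := fun g hg => ?_
      tl := fun g i hg => ?_
      tg := fun g j hg => ?_
      psi := fun t i r => ?_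
      bt := fun t a => ?_
      dg := fun i hi v hv => ?_
      cells := fun a => ?_
      mle := ?_ }
  · show (ruleX p inR tR x r).prem₁ = none
    rw [ruleX_lo p inR tR x r hr]
    exact hI.i1 _ _
  · show (ruleX p inR tR x r).prem₂ = none
    rw [ruleX_lo p inR tR x r hr]
    exact hI.i2 _ _
  · show (ruleX p inR tR x r).concl.val = _
    rw [ruleX_lo p inR tR x r hr, hI.i3, hd 13 (by norm_num)]
    rfl
  · show (ruleX p inR tR x r).add = _
    rw [ruleX_lo p inR tR x r hr]
    exact hI.i4 _ _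
  · show gvCode ((ruleX p inR tR x r).guard j) = _
    rw [ruleX_lo p inR tR x r hr]
    exact hI.i5 _ _ _
  · rw [h17, h18, theX_bot p hρ hℓ hα bit hbit inR tR q₀ g hg]
    have h1 := hrow g hg 0 (theX_rowLen_pos p)
    rw [Nat.add_zero] at h1
    rw [h1, hrc g hg 0, if_pos rfl]
  · rw [h17, h18, theX_top p hρ hℓ hα bit hbit inR tR q₀ g hg]
    have h1 := hrow g hg 1 (by have := theX_rowLen_pos p; unfold NP.rowLen at *; omega)
    rw [← Nat.add_assoc] at h1
    rw [h1, hrc g hg 1, if_neg (by omega), if_pos rfl]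
  · rw [h17, h18, theX_lam p hρ hℓ hα bit hbit inR tR q₀ g i hg]
    have h1 := hrow g hg (2 + i.val) (by have := i.isLt; unfold NP.rowLen; omega)
    rw [← Nat.add_assoc, ← Nat.add_assoc] at h1
    rw [h1, hrc g hg (2 + i.val), if_neg (by omega), if_neg (by omega),
      dif_pos (by have := i.isLt; omega)]
    have h2 : (⟨2 + i.val - 2, by have := i.isLt; omega⟩ : Fin p.ρ) = i := Fin.ext (by simp)
    rw [h2]
  · rw [h17, h18, theX_guard p hρ hℓ hα bit hbit inR tR q₀ g hg]
    have h1 := hrow g hg (2 + p.ρ + j.val) (by have := j.isLt; unfold NP.rowLen; omega)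
    rw [← Nat.add_assoc, ← Nat.add_assoc, ← Nat.add_assoc] at h1
    rw [h1, hrc g hg (2 + p.ρ + j.val), if_neg (by omega), if_neg (by omega),
      dif_neg (by omega), dif_pos (by have := j.isLt; omega)]
    have h2 : (⟨2 + p.ρ + j.val - 2 - p.ρ, by have := j.isLt; omega⟩ : Fin (4 * p.e)) = j :=
      Fin.ext (by simp; omega)
    rw [h2]
  · have h20 : x 20 = p.bPsi (Fintype.card V) := hd 20 (by norm_num)
    rw [h20]
    have h1 : t.val * p.ρ + i.val < p.ρ * p.w * p.ρ := dm_lt t.isLt i.isLt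
    have h2 := dm_lt h1 (HasVn.vn r : Fin _).isLt
    have h3 := NP.xLay_psi (p := p) (Q := Fintype.card V) (addCell := addCell V)
      (rowCell := rowCell hρ hℓ hα bit hbit (progX p inR tR (fun _ => 0)) q₀ p.m)
      (psiCell := psiCell (α := α) hℓ bit) (bitCell := bitCell bit) h2
    exact h3.trans (psiCell_eq hℓ bit t i r)
  · have h21 : x 21 = p.bBit (Fintype.card V) := hd 21 (by norm_num)
    rw [h21]
    have h2 := dm_lt t.isLt (HasVn.vn a : Fin _).isLt
    have h3 := NP.xLay_bit (p := p) (Q := Fintype.card V) (addCell := addCell V)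
      (rowCell := rowCell hρ hℓ hα bit hbit (progX p inR tR (fun _ => 0)) q₀ p.m)
      (psiCell := psiCell (α := α) hℓ bit) (bitCell := bitCell bit) h2
    exact h3.trans (bitCell_eq bit t a)
  · have h22 : x 22 = p.bPow (Fintype.card V) := hd 22 (by norm_num)
    rw [h22]
    have h3 := NP.xLay_pow (p := p) (Q := Fintype.card V) (addCell := addCell V)
      (rowCell := rowCell hρ hℓ hα bit hbit (progX p inR tR (fun _ => 0)) q₀ p.m)
      (psiCell := psiCell (α := α) hℓ bit) (bitCell := bitCell bit) hi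
    have h4 : x (p.bPow (Fintype.card V) + i) =
        min (Fintype.card V ^ i) (p.n₀ (Fintype.card V) + 1) - 1 := h3
    rw [h4]
    have h0 : x 0 = p.n₀ (Fintype.card V) := hd 0 (by norm_num)
    rw [h0] at hv
    have hpos : 0 < Fintype.card V ^ i := Nat.pow_pos hQ
    by_cases h5 : Fintype.card V ^ i ≤ p.n₀ (Fintype.card V) + 1
    · rw [min_eq_left h5]
      congr 1
      omega
    · rw [min_eq_right (by omega)]
      have h6 : 1 + (p.n₀ (Fintype.card V) + 1 - 1) = p.n₀ (Fintype.card V) + 1 := by omega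
      rw [h6, Nat.div_eq_of_lt (by omega), Nat.div_eq_of_lt (by omega)]
  · have h0 : x 0 = p.n₀ (Fintype.card V) := hd 0 (by norm_num)
    rw [h0]
    exact theX_le hI a
  · have h0 : x 0 = p.n₀ (Fintype.card V) := hd 0 (by norm_num)
    rw [h0]
    have hn : p.nG = 3 * (p.m + p.nT) + 2 := rfl
    omega

lemma theS_numPieces :
    numPieces (theS p hρ hℓ hα bit hbit inR tR q₀) = p.nP (Fintype.card V) := by
  rw [numPieces_eq]
  rfl

/-- The header of the input. -/
theorem theX_header : HeaderOK (theS p hρ hℓ hα bit hbit inR tR q₀)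
    (theX p hρ hℓ hα bit hbit inR tR q₀) := by
  have hd : ∀ a, a < 23 → theX p hρ hℓ hα bit hbit inR tR q₀ a = p.hdr (Fintype.card V) a :=
    fun a h => NP.xLay_hdr h
  have hN := theS_numPieces (p := p) (hρ := hρ) (hℓ := hℓ) (hα := hα) (bit := bit)
      (hbit := hbit) (inR := inR) (tR := tR) (q₀ := q₀)
  have hL : leafP (theS p hρ hℓ hα bit hbit inR tR q₀) = p.lp (Fintype.card V) := by
    unfold leafP NP.lp
    rw [hN]
  refine ⟨?_, ?_, hd 2 (by norm_num), hd 3 (by norm_num), hd 4 (by norm_num), hd 5 (by norm_num),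
    hd 7 (by norm_num), ?_, hd 10 (by norm_num), fun a b => ?_⟩
  · rw [hd 0 (by norm_num), hN, hL]
    rfl
  · rw [hd 1 (by norm_num), hL]
    rfl
  · rw [hd 9 (by norm_num), hN]
    rfl
  · rw [hd 19 (by norm_num)]
    have h19 : p.hdr (Fintype.card V) 19 = 23 := rfl
    rw [h19, Nat.add_assoc]
    have h2 := dm_lt (HasVn.vn a : Fin _).isLt (HasVn.vn b : Fin _).isLt
    have h3 := NP.xLay_add (p := p) (Q := Fintype.card V) (addCell := addCell V)
      (rowCell := rowCell hρ hℓ hα bit hbit (progX p inR tR (fun _ => 0)) q₀ p.m)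
      (psiCell := psiCell (α := α) hℓ bit) (bitCell := bitCell bit) h2
    exact h3.trans (addCell_eq a b)

end Vale.Agent.Lib.P310.Full
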