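import Vale.Agent.Lib.P310.WL

/-!
# A random access machine, and what it means to decide `k`-WL equivalence

A program is a list of instructions. A machine state has a program counter, registers and
arrays of memory cells, all holding natural numbers. Every instruction takes one time step. The
registers and the arrays named by a program are given by constants; an array is addressed by the
content of a register (indirect addressing).
-/

namespace Vale.Agent.Lib.P310.Full

/-- The instructions: increment a register, decrement it (truncated at zero), copy a register, jump
to `target` if a register is zero, load `r := mem j (reg s)`, store `mem j (reg s) := reg r`, halt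
with an answer. -/
inductive Instr : Type
  | inc (r : ℕ)
  | dec (r : ℕ)
  | mov (r s : ℕ)
  | jz (r target : ℕ)
  | load (r j s : ℕ)
  | store (j s r : ℕ)
  | halt (accept : Bool)

/-- A state of the machine. -/
structure Conf : Type where
  pc : ℕ
  reg : ℕ → ℕ
  mem : ℕ → ℕ → ℕ

/-- The effect of an instruction. -/
def Instr.exec : Instr → Conf → Conf
  | .inc r, c => ⟨c.pc + 1, Function.update c.reg r (c.reg r + 1), c.mem⟩
  | .dec r, c => ⟨c.pc + 1, Function.update c.reg r (c.reg r - 1), c.mem⟩
  | .mov r s, c => ⟨c.pc + 1, Function.update c.reg r (c.reg s), c.mem⟩
  | .jz r target, c => ⟨if c.reg r = 0 then target else c.pc + 1, c.reg, c.mem⟩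
  | .load r j s, c => ⟨c.pc + 1, Function.update c.reg r (c.mem j (c.reg s)), c.mem⟩
  | .store j s r, c =>
      ⟨c.pc + 1, c.reg, Function.update c.mem j (Function.update (c.mem j) (c.reg s) (c.reg r))⟩
  | .halt _, c => c

/-- One step of a program: a state whose counter is outside the program does not change. -/
def step (P : List Instr) (c : Conf) : Conf :=
  match P[c.pc]? with
  | some i => i.exec c
  | none => c

/-- The answer of a state: `some b` if its counter is at an instruction `halt b`. -/
def outcome (P : List Instr) (c : Conf) : Option Bool :=
  match P[c.pc]? with
  | some (.halt b) => some b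
  | _ => none

open Classical in
/-- The cell `a` of the adjacency matrix of a graph with vertices `0, ..., n - 1`, in row major
order: the cell `i * n + j` is `1` if `i` and `j` are adjacent; all other cells are `0`. -/
noncomputable def adjCell {n : ℕ} (G : SimpleGraph (Fin n)) (a : ℕ) : ℕ :=
  if ∃ i j : Fin n, (i : ℕ) * n + j = a ∧ G.Adj i j then 1 else 0

/-- The initial state on a pair of graphs: register `0` holds `n`, the array `0` holds the adjacency
matrix of `G` followed by that of `H`; everything else is zero. -/
noncomputable def graphConf (n : ℕ) (G H : SimpleGraph (Fin n)) : Conf where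
  pc := 0
  reg := fun r => if r = 0 then n else 0
  mem := fun j a =>
    if j = 0 then (if a < n * n then adjCell G a else adjCell H (a - n * n)) else 0

/-- The program `P` decides `k`-WL equivalence in time `T`: on any two graphs with `n` vertices it
reaches, within `T n` steps, a `halt b` where `b` is true iff the graphs are `k`-WL equivalent. -/
def DecidesWL (P : List Instr) (k : ℕ) (T : ℕ → ℕ) : Prop :=
  ∀ (n : ℕ) (G H : SimpleGraph (Fin n)), ∃ t, t ≤ T n ∧ ∃ b : Bool,
    outcome P (Nat.iterate (step P) t (graphConf n G H)) = some b ∧ (b = true ↔ WLEquiv k G H)

end Vale.Agent.Lib.P310.Full
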