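import Vale.Agent.Lib.P310.Full.AdjSpec3
import Vale.Agent.Lib.P310.Full.ChecksE

/-!
# The oracles of the gates as expressions over the input
-/

namespace Vale.Agent.Lib.P310.Full

/-- The gate is one of those of an input cell. -/
def inGE (g : Exp) : Exp := ltE g (.mul (.const 3) (hd 11))
/-- The rule of a gate. -/
def rGE (g : Exp) : Exp := .div g (.const 3)
/-- The kind of a gate. -/
def tGE (g : Exp) : Exp := .mod g (.const 3)
/-- The position of the row of a gate. -/
def rowPE (g : Exp) : Exp := .add (hd 17) (.mul (.sub g (.mul (.const 3) (hd 11))) (hd 18))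

/-- The number of the bottom cut of a gate. -/
def oBot (g : Exp) : Exp :=
  .ite (inGE g)
    (.ite (.sub (tGE g) (.const 1))
      (.add (.add (.const 1) (.mul (.const 3) (.add (hd 12) (rGE g)))) (.const 2))
      (.const 0))
    (.read (rowPE g))

/-- The number of the top cut of a gate. -/
def oTop (g : Exp) : Exp :=
  .ite (inGE g)
    (.ite (.sub (tGE g) (.const 1))
      (.mul (.const 2) (hd 13))
      (.add (.mul (.const 2) (.add (hd 12) (rGE g))) (tGE g)))
    (.read (.add (rowPE g) (.const 1)))

/-- The number of the translation of a gate at a class. -/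
def oLam (g i : Exp) : Exp :=
  .ite (inGE g) (.const 0) (.read (.add (.add (rowPE g) (.const 2)) i))

/-- A digit of a number. -/
def digE (v i : Exp) : Exp :=
  .mod (.div v (.add (.const 1) (.read (.add (hd 22) i)))) (hd 5)

/-- The code of the guard of a gate at a register. -/
def oGc (g j : Exp) : Exp :=
  .ite (inGE g)
    (.ite (.sub (tGE g) (.const 1))
      (.ite (.div j (hd 14))
        (.ite (.sub (.div j (hd 14)) (.const 1))
          (.ite (.sub (.div j (hd 14)) (.const 2))
            (.const 0)
            (.add (.const 1) (digE (.read (rGE g)) (.mod j (hd 14)))))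
          (.add (.const 1) (digE (rGE g) (.mod j (hd 14)))))
        (.const 1))
      (.const 0))
    (.read (.add (.add (.add (rowPE g) (.const 2)) (hd 6)) j))

/-- The code of the value of an equation of a gate. -/
def oGv (g e : Exp) : Exp := .ite (ltE e (hd 15)) (.const 1) (oGc g (.sub e (hd 15)))

/-- The coefficient of a base vector. -/
def oU (g i r q : Exp) : Exp :=
  .ite (ltE q (hd 6))
    (.mod (.add (eqE i q) (eqE i (.const 0))) (.const 2))
    (.ite (oGv g (.div (.sub q (hd 6)) (hd 8)))
      (.mod (.add
          (.read (.add (hd 20) (.add (.mul (.add (.mul (.sub q (hd 6)) (hd 6)) i) (hd 5)) r)))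
          (.mul (eqE i (.const 0))
            (.read (.add (hd 21) (.add (.mul (.mod (.sub q (hd 6)) (hd 8)) (hd 5))
              (.sub (oGv g (.div (.sub q (hd 6)) (hd 8))) (.const 1)))))))
        (.const 2))
      (.const 0))

/-- The oracles. -/
def theO : Oracles where
  bot := oBot
  top := oTop
  lam := oLam
  u := oU

/-- The expression of the reduction. -/
def theE : Exp := cellE theO

end Vale.Agent.Lib.P310.Full
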