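import Vale.Agent.Lib.P310.Full.OracleDefs

/-!
# The oracles compute the data of the system of a program, if the input is laid out as required
-/

namespace Vale.Agent.Lib.P310.FC

/-- The number of a gate. -/
def gateNum {nR : ℕ} : GateTag nR → ℕ
  | .inl r => 3 * r.val
  | .inr (.inl r) => 3 * r.val + 1
  | .inr (.inr (.inl r)) => 3 * r.val + 2
  | .inr (.inr (.inr false)) => 3 * nR
  | .inr (.inr (.inr true)) => 3 * nR + 1

lemma gateNum_lt {nR : ℕ} (t : GateTag nR) : gateNum t < 3 * nR + 2 := by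
  rcases t with r | r | r | b
  · have := r.isLt
    simp only [gateNum]
    omega
  · have := r.isLt
    simp only [gateNum]
    omega
  · have := r.isLt
    simp only [gateNum]
    omega
  · cases b <;> simp only [gateNum] <;> omega

lemma gateNum_inj {nR : ℕ} {t t' : GateTag nR} (h : gateNum t = gateNum t') : t = t' := by
  rcases t with r | r | r | b <;> rcases t' with r' | r' | r' | b' <;> try (cases b)
  all_goals try (cases b')
  all_goals first
    | (simp only [gateNum] at h
       first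
         | (exfalso; have := r.isLt; have := r'.isLt; omega)
         | (exfalso; have := r.isLt; omega)
         | (exfalso; have := r'.isLt; omega)
         | (have : r = r' := Fin.ext (by omega)
            rw [this])
         | rfl
         | omega)

/-- The numbering of the gates. -/
noncomputable def gateEquiv (nR : ℕ) : GateTag nR ≃ Fin (3 * nR + 2) :=
  Equiv.ofBijective (fun t => ⟨gateNum t, gateNum_lt t⟩) <| by
    rw [Fintype.bijective_iff_injective_and_card]
    refine ⟨fun t t' h => gateNum_inj (Fin.ext_iff.mp h), ?_⟩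
    simp only [GateTag, Fintype.card_sum, Fintype.card_fin, Fintype.card_bool]
    omega

lemma gateEquiv_val {nR : ℕ} (t : GateTag nR) : (gateEquiv nR t).val = gateNum t := rfl

end Vale.Agent.Lib.P310.FC

namespace Vale.Agent.Lib.P310.Full

open FC Function

variable {F V : Type} [Field F] [CharP F 2] [AddCommGroup V] [Module F V] [Fintype V]
  [DecidableEq V] [HasVn V] {ρ e w : ℕ}

/-- The code of an optional value. -/
def gvCode (o : Option V) : ℕ :=
  match o with
  | none => 0
  | some a => 1 + (HasVn.vn a : Fin _).val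

/-- The code of the guard of an input rule. -/
def inCode (Q e : ℕ) (x : ℕ → ℕ) (r j : ℕ) : ℕ :=
  if j / e = 0 then 1
  else if j / e = 1 then 1 + r / Q ^ (j % e) % Q
  else if j / e = 2 then 1 + x r / Q ^ (j % e) % Q
  else 0

variable (hρ : 0 < ρ) (hℓ : 4 * e ≤ ρ) {α : Fin ρ → F} (hα : Injective α)
  (bit : Fin w → V →+ ZMod 2) (hbit : ∀ v : V, (∀ t, bit t v = 0) → v = 0)
  (P : Prog V (4 * e)) (q₀ : Fin P.nQ)

/-- The system of a program. -/
noncomputable abbrev sysOf : Sys ρ V :=
  progSys hρ (checksE hℓ α bit hα hbit) P q₀ (fun _ => 0) (3 * P.nR + 2) (gateEquiv P.nR)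

/-- The requirements on the layout of the input. -/
structure LayoutOK (m : ℕ) (x : ℕ → ℕ) : Prop where
  hvn : (HasVn.vn (0 : V) : Fin _).val = 0
  h5 : x 5 = Fintype.card V
  h6 : x 6 = ρ
  h8 : x 8 = w
  h11 : x 11 = m
  h12 : x 12 = P.nQ
  h14 : x 14 = e
  h15 : x 15 = ρ - 4 * e
  hm : m ≤ P.nR
  p1 : ∀ r : Fin P.nR, r.val < m → (P.rule r).prem₁ = none
  p2 : ∀ r : Fin P.nR, r.val < m → (P.rule r).prem₂ = none
  cc : ∀ r : Fin P.nR, r.val < m → (P.rule r).concl.val = x 13
  ad : ∀ r : Fin P.nR, r.val < m → (P.rule r).add = fun _ => 0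
  gd : ∀ (r : Fin P.nR) (j : Fin (4 * e)), r.val < m →
    gvCode ((P.rule r).guard j) = inCode (Fintype.card V) e x r.val j.val
  tb : ∀ g : Fin (3 * P.nR + 2), 3 * m ≤ g.val →
    x (x 17 + (g.val - 3 * m) * x 18) = botCode ((sysOf hρ hℓ hα bit hbit P q₀).bot g)
  tt : ∀ g : Fin (3 * P.nR + 2), 3 * m ≤ g.val →
    x (x 17 + (g.val - 3 * m) * x 18 + 1) = topCode ((sysOf hρ hℓ hα bit hbit P q₀).top g)
  tl : ∀ (g : Fin (3 * P.nR + 2)) (i : Fin ρ), 3 * m ≤ g.val →
    x (x 17 + (g.val - 3 * m) * x 18 + 2 + i.val) =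
      (HasVn.vn ((sysOf hρ hℓ hα bit hbit P q₀).lam g i) : Fin _).val
  tg : ∀ (g : Fin (3 * P.nR + 2)) (j : Fin (4 * e)), 3 * m ≤ g.val →
    x (x 17 + (g.val - 3 * m) * x 18 + 2 + ρ + j.val) =
      gvCode (gateGuard P (fun _ => 0) ((gateEquiv P.nR).symm g) j)
  psi : ∀ (t : Fin (ρ * w)) (i : Fin ρ) (r : V),
    x (x 20 + ((t.val * ρ + i.val) * Fintype.card V + (HasVn.vn r : Fin _).val)) =
      (bit (bitOf t) (coef hℓ α (eqOf t) i • r)).val
  bt : ∀ (t : Fin w) (a : V),
    x (x 21 + (t.val * Fintype.card V + (HasVn.vn a : Fin _).val)) = (bit t a).val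
  dg : ∀ i, i < e → ∀ v, v ≤ x 0 → v / (1 + x (x 22 + i)) = v / Fintype.card V ^ i
  cells : ∀ a, x a ≤ x 0
  mle : m ≤ x 0

variable {hρ hℓ hα bit hbit P q₀} {m : ℕ} {x env : ℕ → ℕ}
  (hL : LayoutOK hρ hℓ hα bit hbit P q₀ m x)

include hL

lemma ev_inGE {a : Exp} {g : ℕ} (ha : a.eval x env = g) :
    (inGE a).eval x env = if g < 3 * m then 1 else 0 := by
  unfold inGE
  rw [ev_lt, ha]
  simp only [Exp.eval, ev_hd, hL.h11]

lemma ev_rowPE {a : Exp} {g : ℕ} (ha : a.eval x env = g) :
    (rowPE a).eval x env = x 17 + (g - 3 * m) * x 18 := by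
  simp only [rowPE, Exp.eval, ev_hd, ha, hL.h11]

omit hL in
lemma ev_rGE {a : Exp} {g : ℕ} (ha : a.eval x env = g) : (rGE a).eval x env = g / 3 := by
  simp only [rGE, Exp.eval, ha]

omit hL in
lemma ev_tGE {a : Exp} {g : ℕ} (ha : a.eval x env = g) : (tGE a).eval x env = g % 3 := by
  simp only [tGE, Exp.eval, ha]

lemma ev_oBot {a : Exp} {g : Fin (3 * P.nR + 2)} (ha : a.eval x env = g.val) :
    (oBot a).eval x env = botCode ((sysOf hρ hℓ hα bit hbit P q₀).bot g) := by
  have h1 := ev_inGE hL ha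
  have h2 := ev_rowPE hL ha
  have h3 := ev_rGE (x := x) ha
  have h4 := ev_tGE (x := x) ha
  show (if (inGE a).eval x env = 0 then x ((rowPE a).eval x env) else
    (if (tGE a).eval x env - 1 = 0 then 0 else
      1 + 3 * (x 12 + (rGE a).eval x env) + 2)) = _
  rw [h1, h2, h3, h4, hL.h12]
  by_cases hg : g.val < 3 * m
  · rw [if_pos hg, if_neg (by omega)]
    obtain ⟨t, rfl⟩ : ∃ t, g = gateEquiv P.nR t := ⟨_, ((gateEquiv P.nR).apply_symm_apply g).symm⟩
    rw [gateEquiv_val] at hg ⊢
    have h5 : (sysOf hρ hℓ hα bit hbit P q₀).bot (gateEquiv P.nR t) = gateBot P q₀ t :=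
      progSys_bot _ _ _ _ _ _ _ t
    rw [h5]
    rcases t with r | r | r | b
    · have hv : gateNum (Sum.inl r : GateTag P.nR) = 3 * r.val := rfl
      rw [hv] at hg ⊢
      have hr : r.val < m := by omega
      rw [if_pos (by omega)]
      simp only [gateBot, hL.p1 r hr, Option.map_none, botCode]
    · have hv : gateNum (Sum.inr (Sum.inl r) : GateTag P.nR) = 3 * r.val + 1 := rfl
      rw [hv] at hg ⊢
      have hr : r.val < m := by omega
      rw [if_pos (by omega)]
      simp only [gateBot, hL.p2 r hr, Option.map_none, botCode]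
    · have hv : gateNum (Sum.inr (Sum.inr (Sum.inl r)) : GateTag P.nR) = 3 * r.val + 2 := rfl
      rw [hv] at hg ⊢
      rw [if_neg (by omega)]
      simp only [gateBot, botCode, muN, ruF, Fin.val_castSucc, Fin.val_natAdd]
      omega
    · exfalso
      have := hL.hm
      cases b <;> simp only [gateNum] at hg <;> omega
  · rw [if_neg hg, if_pos rfl]
    exact hL.tb g (by omega)

lemma ev_oTop {a : Exp} {g : Fin (3 * P.nR + 2)} (ha : a.eval x env = g.val) :
    (oTop a).eval x env = topCode ((sysOf hρ hℓ hα bit hbit P q₀).top g) := by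
  have h1 := ev_inGE hL ha
  have h2 := ev_rowPE hL ha
  have h3 := ev_rGE (x := x) ha
  have h4 := ev_tGE (x := x) ha
  show (if (inGE a).eval x env = 0 then x ((rowPE a).eval x env + 1) else
    (if (tGE a).eval x env - 1 = 0 then 2 * (x 12 + (rGE a).eval x env) + (tGE a).eval x env else
      2 * x 13)) = _
  rw [h1, h2, h3, h4, hL.h12]
  by_cases hg : g.val < 3 * m
  · rw [if_pos hg, if_neg (by omega)]
    obtain ⟨t, rfl⟩ : ∃ t, g = gateEquiv P.nR t := ⟨_, ((gateEquiv P.nR).apply_symm_apply g).symm⟩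
    rw [gateEquiv_val] at hg ⊢
    have h5 : (sysOf hρ hℓ hα bit hbit P q₀).top (gateEquiv P.nR t) = gateTop P t :=
      progSys_top _ _ _ _ _ _ _ t
    rw [h5]
    rcases t with r | r | r | b
    · have hv : gateNum (Sum.inl r : GateTag P.nR) = 3 * r.val := rfl
      rw [hv] at hg ⊢
      rw [if_pos (by omega)]
      simp only [gateTop, topCode, ruF, Fin.val_castSucc, Fin.val_natAdd, Bool.toNat_false]
      omega
    · have hv : gateNum (Sum.inr (Sum.inl r) : GateTag P.nR) = 3 * r.val + 1 := rfl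
      rw [hv] at hg ⊢
      rw [if_pos (by omega)]
      simp only [gateTop, topCode, ruF, Fin.val_castSucc, Fin.val_natAdd, Bool.toNat_true]
      omega
    · have hv : gateNum (Sum.inr (Sum.inr (Sum.inl r)) : GateTag P.nR) = 3 * r.val + 2 := rfl
      rw [hv] at hg ⊢
      have hr : r.val < m := by omega
      rw [if_neg (by omega)]
      simp only [gateTop, topCode, stF, Fin.val_castSucc, Fin.val_castAdd, Bool.toNat_false]
      rw [hL.cc r hr]
      omega
    · exfalso
      have := hL.hm
      cases b <;> simp only [gateNum] at hg <;> omega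
  · rw [if_neg hg, if_pos rfl]
    exact hL.tt g (by omega)

lemma ev_oLam {a b : Exp} {g : Fin (3 * P.nR + 2)} {i : Fin ρ} (ha : a.eval x env = g.val)
    (hb : b.eval x env = i.val) :
    (oLam a b).eval x env = (HasVn.vn ((sysOf hρ hℓ hα bit hbit P q₀).lam g i) : Fin _).val := by
  have h1 := ev_inGE hL ha
  have h2 := ev_rowPE hL ha
  show (if (inGE a).eval x env = 0 then x ((rowPE a).eval x env + 2 + b.eval x env) else 0) = _
  rw [h1, h2, hb]
  by_cases hg : g.val < 3 * m
  · rw [if_pos hg, if_neg (by omega)]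
    obtain ⟨t, rfl⟩ : ∃ t, g = gateEquiv P.nR t := ⟨_, ((gateEquiv P.nR).apply_symm_apply g).symm⟩
    rw [gateEquiv_val] at hg
    have h5 : (sysOf hρ hℓ hα bit hbit P q₀).lam (gateEquiv P.nR t) = encode α (gateAdd P t) :=
      progSys_lam _ _ _ _ _ _ _ t
    rw [h5]
    have h6 : gateAdd P t = fun _ => 0 := by
      rcases t with r | r | r | b
      · rfl
      · rfl
      · have hr : r.val < m := by
          simp only [gateNum] at hg
          omega
        exact hL.ad r hr
      · rfl
    rw [h6, encode_zero]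
    exact hL.hvn.symm
  · rw [if_neg hg, if_pos rfl]
    exact hL.tl g i (by omega)

end Vale.Agent.Lib.P310.Full
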