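import Vale.Agent.Lib.P310.Full.OracleSpec1

/-!
# The oracles compute the base vectors of the system of a program
-/

namespace Vale.Agent.Lib.P310.Full

open FC Function

lemma zmod_ite_val {ρ : ℕ} (i j : Fin ρ) : (((if i = j then 1 else 0) + (if i.val = 0 then 1 else 0) : ZMod 2)).val =
    ((if i.val = j.val then 1 else 0) + (if i.val = 0 then 1 else 0)) % 2 := by
  by_cases h1 : i = j
  · have h3 : i.val = j.val := congrArg Fin.val h1
    rw [if_pos h1, if_pos h3]
    by_cases h2 : i.val = 0
    · rw [if_pos h2, if_pos h2]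
      rfl
    · rw [if_neg h2, if_neg h2]
      rfl
  · have h3 : i.val ≠ j.val := fun h => h1 (Fin.ext h)
    rw [if_neg h1, if_neg h3]
    by_cases h2 : i.val = 0
    · rw [if_pos h2, if_pos h2]
      rfl
    · rw [if_neg h2, if_neg h2]
      rfl

variable {F V : Type} [Field F] [CharP F 2] [AddCommGroup V] [Module F V] [Fintype V]
  [DecidableEq V] [HasVn V] {ρ e w : ℕ}

variable {hρ : 0 < ρ} {hℓ : 4 * e ≤ ρ} {α : Fin ρ → F} {hα : Injective α}
  {bit : Fin w → V →+ ZMod 2} {hbit : ∀ v : V, (∀ t, bit t v = 0) → v = 0}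
  {P : Prog V (4 * e)} {q₀ : Fin P.nQ} {m : ℕ} {x env : ℕ → ℕ}
  (hL : LayoutOK hρ hℓ hα bit hbit P q₀ m x)

include hL

lemma ev_digE {v i : Exp} (hv : v.eval x env ≤ x 0) (hi : i.eval x env < e) :
    (digE v i).eval x env = v.eval x env / Fintype.card V ^ (i.eval x env) % Fintype.card V := by
  simp only [digE, Exp.eval, ev_hd, hL.h5]
  rw [hL.dg _ hi _ hv]

lemma ev_oGc {a b : Exp} {g : Fin (3 * P.nR + 2)} {j : Fin (4 * e)} (ha : a.eval x env = g.val)
    (hb : b.eval x env = j.val) :
    (oGc a b).eval x env = gvCode (gateGuard P (fun _ => 0) ((gateEquiv P.nR).symm g) j) := by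
  have h1 := ev_inGE hL ha
  have h2 := ev_rowPE hL ha
  have h3 := ev_rGE (x := x) ha
  have h4 := ev_tGE (x := x) ha
  by_cases hg : g.val < 3 * m
  · have he : 0 < e := by
      have := j.isLt
      omega
    have hq : (Exp.div b (hd 14)).eval x env = j.val / e := by
      simp only [Exp.eval, ev_hd, hL.h14, hb]
    have hi : (Exp.mod b (hd 14)).eval x env = j.val % e := by
      simp only [Exp.eval, ev_hd, hL.h14, hb]
    have hi' : j.val % e < e := Nat.mod_lt _ he
    have hr0 : g.val / 3 ≤ x 0 := by
      have := hL.mle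
      omega
    have hd₁ : (digE (rGE a) (.mod b (hd 14))).eval x env = g.val / 3 / Fintype.card V ^ (j.val % e) %
        Fintype.card V := by
      rw [ev_digE hL (by rw [h3]; exact hr0) (by rw [hi]; exact hi'), h3, hi]
    have hd₂ : (digE (.read (rGE a)) (.mod b (hd 14))).eval x env =
        x (g.val / 3) / Fintype.card V ^ (j.val % e) % Fintype.card V := by
      rw [ev_digE hL (by simp only [Exp.eval]; exact hL.cells _) (by rw [hi]; exact hi')]
      simp only [Exp.eval, h3, hi, ev_hd, hL.h14, hb]
    show (if (inGE a).eval x env = 0 then _ else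
      (if (tGE a).eval x env - 1 = 0 then 0 else
        (if (Exp.div b (hd 14)).eval x env = 0 then 1 else
          (if (Exp.div b (hd 14)).eval x env - 1 = 0 then
            1 + (digE (rGE a) (.mod b (hd 14))).eval x env else
            (if (Exp.div b (hd 14)).eval x env - 2 = 0 then
              1 + (digE (.read (rGE a)) (.mod b (hd 14))).eval x env else 0))))) = _
    rw [h1, if_pos hg, if_neg (by omega), h4, hq, hd₁, hd₂]
    obtain ⟨t, rfl⟩ : ∃ t, g = gateEquiv P.nR t := ⟨_, ((gateEquiv P.nR).apply_symm_apply g).symm⟩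
    rw [Equiv.symm_apply_apply]
    rw [gateEquiv_val] at hg ⊢
    rcases t with r | r | r | b'
    · have hv : gateNum (Sum.inl r : GateTag P.nR) = 3 * r.val := rfl
      rw [hv] at hg ⊢
      rw [if_pos (by omega)]
      rfl
    · have hv : gateNum (Sum.inr (Sum.inl r) : GateTag P.nR) = 3 * r.val + 1 := rfl
      rw [hv] at hg ⊢
      rw [if_pos (by omega)]
      rfl
    · have hv : gateNum (Sum.inr (Sum.inr (Sum.inl r)) : GateTag P.nR) = 3 * r.val + 2 := rfl
      rw [hv] at hg ⊢
      have hr : r.val < m := by omega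
      rw [if_neg (by omega)]
      have h5 : gateGuard P (fun _ => 0) (Sum.inr (Sum.inr (Sum.inl r))) = (P.rule r).guard := rfl
      rw [h5, hL.gd r j hr]
      have h6 : (3 * r.val + 2) / 3 = r.val := by omega
      rw [h6]
      unfold inCode
      by_cases h7 : j.val / e = 0
      · rw [if_pos h7, if_pos h7]
      · rw [if_neg h7, if_neg h7]
        by_cases h8 : j.val / e = 1
        · rw [if_pos (by omega), if_pos h8]
        · rw [if_neg (by omega), if_neg h8]
          by_cases h9 : j.val / e = 2
          · rw [if_pos (by omega), if_pos h9]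
          · rw [if_neg (by omega), if_neg h9]
    · exfalso
      have := hL.hm
      cases b' <;> simp only [gateNum] at hg <;> omega
  · show (if (inGE a).eval x env = 0 then
      x ((rowPE a).eval x env + 2 + x 6 + b.eval x env) else _) = _
    rw [h1, if_neg hg, if_pos rfl, h2, hL.h6, hb]
    exact hL.tg g j (by omega)

lemma ev_oGv {a b : Exp} {g : Fin (3 * P.nR + 2)} {t : Fin ρ} (ha : a.eval x env = g.val)
    (hb : b.eval x env = t.val) :
    (oGv a b).eval x env =
      gvCode (gv (gateGuard P (fun _ => 0) ((gateEquiv P.nR).symm g)) t) := by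
  unfold oGv
  show (if (ltE b (hd 15)).eval x env = 0 then (oGc a (.sub b (hd 15))).eval x env else 1) = _
  rw [ev_lt, ev_hd, hL.h15, hb]
  unfold gv
  by_cases h1 : t.val < ρ - 4 * e
  · rw [if_pos h1, if_neg (by omega), dif_pos h1]
    simp only [gvCode]
    rw [hL.hvn]
  · rw [if_neg h1, if_pos rfl, dif_neg h1]
    refine ev_oGc hL (j := ⟨t.val - (ρ - 4 * e), by have := t.isLt; omega⟩) ha ?_
    simp only [Exp.eval, ev_hd, hL.h15, hb]

lemma ev_oU {a b c d : Exp} {g : Fin (3 * P.nR + 2)} {i : Fin ρ} {r : V}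
    {q : Fin (ρ + ρ * w)} (ha : a.eval x env = g.val) (hb : b.eval x env = i.val)
    (hc : c.eval x env = (HasVn.vn r : Fin _).val) (hd' : d.eval x env = q.val) :
    (oU a b c d).eval x env = ((sysOf hρ hℓ hα bit hbit P q₀).u g i r q).val := by
  have hu : (sysOf hρ hℓ hα bit hbit P q₀).u g i r q =
      baseVec (checksE hℓ α bit hα hbit)
        (gateGuard P (fun _ => 0) ((gateEquiv P.nR).symm g)) i r q := rfl
  rw [hu]
  revert hd'
  refine Fin.addCases (fun j => ?_) (fun t => ?_) q
  · intro hd'
    simp only [Fin.val_castAdd] at hd'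
    simp only [baseVec, Fin.addCases_left]
    rw [zmod_ite_val]
    show (if (ltE d (hd 6)).eval x env = 0 then _ else
      ((eqE b d).eval x env + (eqE b (.const 0)).eval x env) % 2) = _
    rw [ev_lt, ev_eq, ev_eq, ev_hd, hL.h6, hd', hb, if_neg]
    · rfl
    · rw [if_pos j.isLt]
      omega
  · intro hd'
    simp only [Fin.val_natAdd] at hd'
    simp only [baseVec, Fin.addCases_right]
    have hs : (Exp.sub d (hd 6)).eval x env = t.val := by
      simp only [Exp.eval, ev_hd, hL.h6, hd']
      omega
    have h₁ : (Exp.div (.sub d (hd 6)) (hd 8)).eval x env = (eqOf t).val := by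
      rw [eqOf_val]
      simp only [Exp.eval, ev_hd, hL.h6, hd', hL.h8]
      congr 1
      omega
    have h₂ : (Exp.mod (.sub d (hd 6)) (hd 8)).eval x env = (bitOf t).val := by
      rw [bitOf_val]
      simp only [Exp.eval, ev_hd, hL.h6, hd', hL.h8]
      congr 1
      omega
    have hG := ev_oGv hL ha h₁
    show (if (ltE d (hd 6)).eval x env = 0 then
      (if (oGv a (.div (.sub d (hd 6)) (hd 8))).eval x env = 0 then 0 else
        (x (x 20 + ((((Exp.sub d (hd 6)).eval x env) * x 6 + b.eval x env) * x 5 + c.eval x env)) +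
          (eqE b (.const 0)).eval x env *
            x (x 21 + ((Exp.mod (.sub d (hd 6)) (hd 8)).eval x env * x 5 +
              ((oGv a (.div (.sub d (hd 6)) (hd 8))).eval x env - 1)))) % 2) else _) = _
    have hlt : (ltE d (hd 6)).eval x env = 0 := by
      rw [ev_lt, ev_hd, hL.h6, hd', if_neg (by omega)]
    rw [hlt, if_pos rfl, hG, hs, h₂, hb, hc, hL.h5, hL.h6, ev_eq]
    have hb0 : (Exp.const 0).eval x env = 0 := rfl
    rw [hb, hb0]
    show _ = ((rowE hℓ α bit _ t i r) + (if i.val = 0 then cstE bit _ t else 0)).val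
    cases hgv : gv (gateGuard P (fun _ => 0) ((gateEquiv P.nR).symm g)) (eqOf t) with
    | none =>
      have hrow : rowE hℓ α bit (gateGuard P (fun _ => 0) ((gateEquiv P.nR).symm g)) t i r = 0 := by
        simp only [rowE, hgv]
      have hcst : cstE bit (gateGuard P (fun _ => 0) ((gateEquiv P.nR).symm g)) t = 0 := by
        simp only [cstE, hgv]
      have hc1 : gvCode (none : Option V) = 0 := rfl
      rw [hrow, hcst, hc1, if_pos rfl]
      simp
    | some a' =>
      have hrow : rowE hℓ α bit (gateGuard P (fun _ => 0) ((gateEquiv P.nR).symm g)) t i r =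
          bit (bitOf t) (coef hℓ α (eqOf t) i • r) := by
        simp only [rowE, hgv]
      have hcst : cstE bit (gateGuard P (fun _ => 0) ((gateEquiv P.nR).symm g)) t =
          bit (bitOf t) a' := by
        simp only [cstE, hgv]
      have hc1 : gvCode (some a') = 1 + (HasVn.vn a' : Fin _).val := rfl
      rw [hrow, hcst, hc1, if_neg (by omega), hL.psi t i r]
      have h8 : 1 + (HasVn.vn a' : Fin _).val - 1 = (HasVn.vn a' : Fin _).val := by omega
      rw [h8, hL.bt (bitOf t) a', zmod2_val_add]
      by_cases h9 : i.val = 0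
      · rw [if_pos h9, if_pos h9, one_mul]
      · rw [if_neg h9, if_neg h9, zero_mul, ZMod.val_zero]

/-- The oracles are correct. -/
theorem theO_spec : OracleSpec (sysOf hρ hℓ hα bit hbit P q₀) theO x where
  bot := fun _ _ _ ha => ev_oBot hL ha
  top := fun _ _ _ ha => ev_oTop hL ha
  lam := fun _ _ _ _ _ ha hb => ev_oLam hL ha hb
  u := fun _ _ _ _ _ _ _ _ _ ha hb hc hd' => ev_oU hL ha hb hc hd'

end Vale.Agent.Lib.P310.Full
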