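import Vale.Agent.Lib.P310.Full.Compile

/-!
# Expressions run in polynomial time in a bound for their inputs
-/

namespace Vale.Agent.Lib.P310.Full

/-- A quantity that is polynomially bounded in a bound for the array and the registers. -/
def PolyB (F : (ℕ → ℕ) → (ℕ → ℕ) → ℕ) : Prop :=
  ∃ C D : ℕ, ∀ B, 2 ≤ B → ∀ x env : ℕ → ℕ, (∀ a, x a ≤ B) → (∀ i : Fin 5, env i ≤ B) →
    F x env ≤ C * B ^ D

namespace PolyB

variable {F G : (ℕ → ℕ) → (ℕ → ℕ) → ℕ}

lemma mono (h : ∀ x env, F x env ≤ G x env) (hG : PolyB G) : PolyB F := by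
  obtain ⟨C, D, hC⟩ := hG
  exact ⟨C, D, fun B hB x env hx henv => (h x env).trans (hC B hB x env hx henv)⟩

lemma const (n : ℕ) : PolyB (fun _ _ => n) :=
  ⟨n, 0, fun _ _ _ _ _ _ => by simp⟩

lemma add (hF : PolyB F) (hG : PolyB G) : PolyB (fun x env => F x env + G x env) := by
  obtain ⟨C₁, D₁, h₁⟩ := hF
  obtain ⟨C₂, D₂, h₂⟩ := hG
  refine ⟨C₁ + C₂, max D₁ D₂, fun B hB x env hx henv => ?_⟩
  have h3 : B ^ D₁ ≤ B ^ max D₁ D₂ := Nat.pow_le_pow_right (by omega) (le_max_left _ _)
  have h4 : B ^ D₂ ≤ B ^ max D₁ D₂ := Nat.pow_le_pow_right (by omega) (le_max_right _ _)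
  calc F x env + G x env ≤ C₁ * B ^ D₁ + C₂ * B ^ D₂ :=
        Nat.add_le_add (h₁ B hB x env hx henv) (h₂ B hB x env hx henv)
    _ ≤ C₁ * B ^ max D₁ D₂ + C₂ * B ^ max D₁ D₂ :=
        Nat.add_le_add (Nat.mul_le_mul_left _ h3) (Nat.mul_le_mul_left _ h4)
    _ = (C₁ + C₂) * B ^ max D₁ D₂ := by ring

lemma mul (hF : PolyB F) (hG : PolyB G) : PolyB (fun x env => F x env * G x env) := by
  obtain ⟨C₁, D₁, h₁⟩ := hF
  obtain ⟨C₂, D₂, h₂⟩ := hG
  refine ⟨C₁ * C₂, D₁ + D₂, fun B hB x env hx henv => ?_⟩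
  calc F x env * G x env ≤ (C₁ * B ^ D₁) * (C₂ * B ^ D₂) :=
        Nat.mul_le_mul (h₁ B hB x env hx henv) (h₂ B hB x env hx henv)
    _ = (C₁ * C₂) * B ^ (D₁ + D₂) := by ring

end PolyB

/-- Values of expressions are polynomially bounded. -/
theorem eval_poly (e : Exp) : PolyB (fun x env => e.eval x env) := by
  induction e with
  | const n => exact PolyB.const n
  | var i => exact ⟨1, 1, fun B _ _ env _ h => by simpa [Exp.eval] using h i⟩
  | add a b iha ihb => exact PolyB.add iha ihb
  | sub a b iha ihb => exact PolyB.mono (fun x env => by simp only [Exp.eval]; omega) iha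
  | mul a b iha ihb => exact PolyB.mul iha ihb
  | div a b iha ihb => exact PolyB.mono (fun x env => Nat.div_le_self _ _) iha
  | mod a b iha ihb => exact PolyB.mono (fun x env => Nat.mod_le _ _) iha
  | ite c a b ihc iha ihb =>
    refine PolyB.mono (fun x env => ?_) (PolyB.add iha ihb)
    simp only [Exp.eval]
    split <;> omega
  | read a iha => exact ⟨1, 1, fun B _ x env h _ => by simpa [Exp.eval] using h _⟩

/-- Running times of the code of expressions are polynomially bounded. -/
theorem cost_poly (e : Exp) : PolyB (fun x env => e.cost x env) := by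
  induction e with
  | const n => exact PolyB.const _
  | var i => exact PolyB.const _
  | add a b iha ihb =>
    exact PolyB.add (PolyB.add iha ihb)
      (PolyB.add (PolyB.mul (PolyB.const 4) (eval_poly b)) (PolyB.const 1))
  | sub a b iha ihb =>
    exact PolyB.add (PolyB.add iha ihb)
      (PolyB.add (PolyB.mul (PolyB.const 4) (eval_poly b)) (PolyB.const 1))
  | mul a b iha ihb =>
    exact PolyB.add (PolyB.add iha ihb) (PolyB.add (PolyB.mul (eval_poly b)
      (PolyB.add (PolyB.mul (PolyB.const 4) (eval_poly a)) (PolyB.const 4))) (PolyB.const 3))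
  | div a b iha ihb =>
    exact PolyB.add (PolyB.add iha ihb)
      (PolyB.add (PolyB.mul (PolyB.const 10) (eval_poly a)) (PolyB.const 10))
  | mod a b iha ihb =>
    exact PolyB.add (PolyB.add iha ihb)
      (PolyB.add (PolyB.mul (PolyB.const 10) (eval_poly a)) (PolyB.const 10))
  | ite c a b ihc iha ihb =>
    refine PolyB.mono (fun x env => ?_)
      (PolyB.add (PolyB.add ihc (PolyB.const 1)) (PolyB.add ihb (PolyB.add iha (PolyB.const 1))))
    simp only [Exp.cost]
    split <;> omega
  | read a iha => exact PolyB.add iha (PolyB.const 1)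

end Vale.Agent.Lib.P310.Full
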