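import Vale.Agent.Lib.P310.Full.TMSetup

/-!
# Random access machines run Turing machines, and the lower bound for Turing machines
-/

namespace Vale.Agent.Lib.P310.Full

open Function
open scoped Classical

section Words

lemma length_flatMap_const {α β : Type} (f : α → List β) {d : ℕ} (hd : ∀ a, (f a).length = d)
    (l : List α) : (l.flatMap f).length = l.length * d := by
  induction l with
  | nil => simp
  | cons a l ih =>
    rw [List.flatMap_cons, List.length_append, hd, ih, List.length_cons]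
    ring

lemma adjBits_length {n : ℕ} (G : SimpleGraph (Fin n)) : (adjBits G).length = n * n := by
  unfold adjBits
  rw [length_flatMap_const _ (d := n) (fun _ => by simp)]
  simp

lemma adjBits_get {n : ℕ} (G : SimpleGraph (Fin n)) {a : ℕ} (ha : a < n * n) :
    (adjBits G)[a]? = some (decide (adjCell G a ≠ 0)) := by
  have hn : 0 < n := by
    rcases Nat.eq_zero_or_pos n with h | h
    · subst h
      simp at ha
    · exact h
  have h1 : a / n < n := Nat.div_lt_of_lt_mul ha
  have h2 : a % n < n := Nat.mod_lt _ hn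
  have h3 := getElem?_flatMap_const (fun i => (List.finRange n).map fun j => decide (G.Adj i j))
    (d := n) (fun _ => by simp) (List.finRange n) (a / n) (a % n) h2
  rw [getElem?_finRange h1] at h3
  have h4 : a / n * n + a % n = a := by
    rw [Nat.mul_comm]
    exact Nat.div_add_mod a n
  rw [h4] at h3
  unfold adjBits
  rw [h3]
  simp only [Option.bind_some, List.getElem?_map, getElem?_finRange h2, Option.map_some]
  rw [adjCell_eq G h1 h2 ha]
  congr 1
  by_cases h : G.Adj ⟨a / n, h1⟩ ⟨a % n, h2⟩ <;> simp [h]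

/-- The word of a pair of graphs. -/
lemma encPair_get {n : ℕ} (G H : SimpleGraph (Fin n)) (a : ℕ) :
    (encPair G H)[a]? = if a < 2 * (n * n) then
      some (decide ((graphConf n G H).mem 0 a ≠ 0)) else none := by
  have hm : (graphConf n G H).mem 0 a =
      if a < n * n then adjCell G a else adjCell H (a - n * n) := rfl
  rw [hm]
  unfold encPair
  by_cases h1 : a < n * n
  · rw [List.getElem?_append_left (by rw [adjBits_length]; exact h1), adjBits_get G h1,
      if_pos (by omega), if_pos h1]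
  · rw [if_neg h1, List.getElem?_append_right (by rw [adjBits_length]; omega), adjBits_length]
    by_cases h2 : a < 2 * (n * n)
    · rw [adjBits_get H (by omega), if_pos h2]
    · rw [if_neg h2]
      apply List.getElem?_eq_none
      rw [adjBits_length]
      omega

end Words

lemma exists_num (X : Type) [Fintype X] (x : X) : ∃ e : X ≃ Fin (Fintype.card X), (e x).val = 0 := by
  have hpos : 0 < Fintype.card X := Fintype.card_pos_iff.mpr ⟨x⟩
  let σ : X ≃ Fin (Fintype.card X) := Fintype.equivFin X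
  refine ⟨σ.trans (Equiv.swap (σ x) ⟨0, hpos⟩), ?_⟩
  simp

variable {τ Q Γ : Type} {t b : ℕ} (M : MTM τ Q Γ) (en : τ ≃ Fin t) (eΓ : Γ ≃ Fin b)
variable {N : ℕ} (E : TPt Q (τ → Γ) t b ≃ Fin N)

/-- The start of the run. -/
lemma setup_run (hb : (eΓ M.blank).val = 0) (hE : (E (.cstA (ff b 0))).val = 0) {n : ℕ}
    (G H : SimpleGraph (Fin n)) :
    ∃ reg mem, RI en eΓ reg mem (M.init (encPair G H)).tape (M.init (encPair G H)).head ∧
      RR (flowP (tfl M en eΓ) E) (graphConf n G H)
        (At E (.read M.start (ff t 0) fun _ => M.blank) reg mem)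
        (4 * b + 2 * (n * (12 * n + 7) + 7) + 2) := by
  have hb0 : 0 < b := by
    have := (eΓ M.blank).isLt
    omega
  have hc : graphConf n G H = At E (.cstA (ff b 0)) (graphConf n G H).reg (graphConf n G H).mem := by
    unfold At
    rw [hE]
    rfl
  have hreg : ∀ r, (graphConf n G H).reg r = if r = 0 then n else 0 := fun _ => rfl
  have hmem : ∀ j a, j ≠ 0 → (graphConf n G H).mem j a = 0 := by
    intro j a hj
    show (if j = 0 then _ else 0) = 0
    rw [if_neg hj]
  obtain ⟨reg₁, h1, hK, hL, h3⟩ := loop_cst M en eΓ E (n := n) (mem := (graphConf n G H).mem)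
    (b - 1) 0 (graphConf n G H).reg (by omega)
    (fun s' hs' => by
      have : s' = 0 := by omega
      subst this
      rw [hreg, if_neg (by omega)])
    (fun r _ => hreg r)
  have hC : CI M en eΓ n ((graphConf n G H).mem 0) reg₁ (graphConf n G H).mem 0 := by
    refine ⟨?_, ?_, hK, fun i => ?_, ?_, rfl, fun a => ?_, fun i a _ => hmem _ _ (by omega)⟩
    · rw [hL 0 (by omega) (by omega)]
      rfl
    · rw [hL 1 (by omega) (by omega)]
      rfl
    · rw [hL _ (by have := (en i).isLt; omega) (by omega), if_neg (by omega)]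
    · rw [hL 6 (by omega) (by omega)]
      rfl
    · rw [hmem _ _ (by omega)]
      simp
  obtain ⟨reg₂, mem₂, hC₂, h2⟩ := loop_outer M en eΓ E 2 0 reg₁ _ hC h3
  have h4 := fr_br_z (e := E) (fl := tfl M en eΓ) (p := .done)
    (z := .read M.start (ff t 0) fun _ => M.blank) (nz := .read M.start (ff t 0) fun _ => M.blank)
    (k := 1) (r := reg₂) (m := mem₂) rfl hC₂.z
  refine ⟨reg₂, mem₂, ⟨hC₂.z, hC₂.K, fun i => hC₂.hd i, fun i a => ?_⟩, ?_⟩
  · show mem₂ _ a = (eΓ (if i = M.inp then ((encPair G H)[a]?).elim M.blank M.bit else M.blank)).val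
    by_cases hi : i = M.inp
    · subst hi
      rw [if_pos rfl, hC₂.tpI, encPair_get]
      have h0 : 0 + 2 * (n * n) = 2 * (n * n) := by omega
      rw [h0]
      by_cases ha : a < 2 * (n * n)
      · rw [if_pos ha, if_pos ha]
        rfl
      · rw [if_neg ha, if_neg ha]
        exact hb.symm
    · rw [if_neg hi, hC₂.tpO i a hi]
      exact hb.symm
  · rw [hc]
    have hb1 : b - 1 + 1 = b := by omega
    refine ((h1.trans h2).trans h4).mono ?_
    have : 4 * (b - 1) + 4 = 4 * b := by omega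
    omega

lemma step_halted {c : MCfg τ Q Γ} (h : c.q = M.acc ∨ c.q = M.rej) : M.step c = c := by
  unfold MTM.step
  rw [if_pos h]

lemma run_succ (w : List Bool) (m : ℕ) : M.run w (m + 1) = M.step (M.run w m) := by
  unfold MTM.run
  rw [iterate_succ_apply']

lemma run_stable {w : List Bool} {m : ℕ} (h : (M.run w m).q = M.acc ∨ (M.run w m).q = M.rej) (d : ℕ) :
    M.run w (m + d) = M.run w m := by
  induction d with
  | zero => rfl
  | succ d ih =>
    rw [← Nat.add_assoc, run_succ, ih, step_halted M h]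

lemma run_unique {w : List Bool} {m m' : ℕ} (h : (M.run w m).q = M.acc) (h' : (M.run w m').q = M.rej) :
    False := by
  rcases Nat.le_total m m' with hle | hle
  · obtain ⟨d, rfl⟩ := Nat.exists_eq_add_of_le hle
    rw [run_stable M (Or.inl h)] at h'
    exact M.acc_ne_rej (h.symm.trans h')
  · obtain ⟨d, rfl⟩ := Nat.exists_eq_add_of_le hle
    rw [run_stable M (Or.inr h')] at h
    exact M.acc_ne_rej (h.symm.trans h')

/-- The steps of the machine. -/
lemma sim_run {w : List Bool} {reg₀ : ℕ → ℕ} {mem₀ : ℕ → ℕ → ℕ}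
    (hR : RI en eΓ reg₀ mem₀ (M.init w).tape (M.init w).head) (m : ℕ) :
    ∃ reg mem, RI en eΓ reg mem (M.run w m).tape (M.run w m).head ∧
      RR (flowP (tfl M en eΓ) E) (At E (.read M.start (ff t 0) fun _ => M.blank) reg₀ mem₀)
        (At E (.read (M.run w m).q (ff t 0) fun _ => M.blank) reg mem) (m * tTime t b) := by
  induction m with
  | zero => exact ⟨reg₀, mem₀, hR, (RR.refl _ _).mono (by omega)⟩
  | succ m ih =>
    obtain ⟨reg, mem, hR₁, h1⟩ := ih
    by_cases hh : (M.run w m).q = M.acc ∨ (M.run w m).q = M.rej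
    · refine ⟨reg, mem, ?_, ?_⟩
      · rw [run_succ, step_halted M hh]
        exact hR₁
      · rw [run_succ, step_halted M hh]
        refine h1.mono ?_
        rw [Nat.add_mul]
        omega
    · obtain ⟨reg', mem', hR', h2⟩ := sim_step M en eΓ E (M.run w m)
        (fun h => hh (Or.inl h)) (fun h => hh (Or.inr h)) hR₁
      refine ⟨reg', mem', ?_, ?_⟩
      · rw [run_succ]
        exact hR'
      · rw [run_succ]
        refine (h1.trans h2).mono ?_
        rw [Nat.add_mul]
        omega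

/-- A random access machine runs a Turing machine with a constant factor of overhead. -/
theorem ram_of_mtm [Finite τ] [Finite Q] [Finite Γ] (M : MTM τ Q Γ) {k : ℕ} (hM : MDecidesWL k M) :
    ∃ (P : List Instr) (c₁ c₂ : ℕ), ∀ T : ℕ → ℕ,
      (∀ (n : ℕ) (G H : SimpleGraph (Fin n)), M.HaltsWithin (encPair G H) (T n)) →
      DecidesWL P k (fun n => c₁ * (n + 1) ^ 2 + c₂ * T n) := by
  letI := Fintype.ofFinite τ
  letI := Fintype.ofFinite Q
  letI := Fintype.ofFinite Γ
  obtain ⟨eΓ, hb⟩ := exists_num Γ M.blank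
  let en : τ ≃ Fin (Fintype.card τ) := Fintype.equivFin τ
  obtain ⟨E, hE⟩ := exists_num (TPt Q (τ → Γ) (Fintype.card τ) (Fintype.card Γ)) (.cstA (ff _ 0))
  refine ⟨flowP (tfl M en eΓ) E, 4 * Fintype.card Γ + 40, tTime (Fintype.card τ) (Fintype.card Γ),
    fun T hT n G H => ?_⟩
  obtain ⟨reg₀, mem₀, hR₀, ⟨t₁, ht₁, h1⟩⟩ := setup_run M en eΓ E hb hE G H
  obtain ⟨reg, mem, hR, ⟨t₂, ht₂, h2⟩⟩ := sim_run M en eΓ E hR₀ (T n)
  have hR' := h1.trans h2
  unfold Reach at hR'
  have htime : t₁ + t₂ ≤ (4 * Fintype.card Γ + 40) * (n + 1) ^ 2 +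
      tTime (Fintype.card τ) (Fintype.card Γ) * T n := by
    have h3 : 4 * Fintype.card Γ + 2 * (n * (12 * n + 7) + 7) + 2 ≤
        (4 * Fintype.card Γ + 40) * (n + 1) ^ 2 := by
      have h4 : 1 ≤ (n + 1) ^ 2 := Nat.one_le_pow _ _ (by omega)
      have h5 : (4 * Fintype.card Γ + 40) * (n + 1) ^ 2 =
          4 * Fintype.card Γ * (n + 1) ^ 2 + 40 * (n + 1) ^ 2 := by ring
      have h6 : 4 * Fintype.card Γ ≤ 4 * Fintype.card Γ * (n + 1) ^ 2 :=
        Nat.le_mul_of_pos_right _ (by omega)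
      have h7 : 2 * (n * (12 * n + 7) + 7) + 2 ≤ 40 * (n + 1) ^ 2 := by nlinarith
      omega
    have h8 : t₂ ≤ tTime (Fintype.card τ) (Fintype.card Γ) * T n := by
      rw [Nat.mul_comm]
      exact ht₂
    omega
  have hWL1 := (hM n G H).1
  have hWL2 := (hM n G H).2
  rcases hT n G H with hq | hq
  · refine ⟨_, htime, true, ?_, ?_⟩
    · rw [hR', hq]
      exact fr_halt (tfl_read_acc M en eΓ rfl _ _)
    · refine ⟨fun _ => ?_, fun _ => rfl⟩
      by_contra hnot
      obtain ⟨t', ht'⟩ := hWL2 hnot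
      exact run_unique M hq ht'
  · refine ⟨_, htime, false, ?_, ?_⟩
    · rw [hR', hq]
      exact fr_halt (tfl_read_rej M en eΓ rfl M.acc_ne_rej.symm _ _)
    · refine ⟨fun h => (by cases h), fun h => ?_⟩
      obtain ⟨t', ht'⟩ := hWL1 h
      exact (run_unique M ht' hq).elim

lemma halts_mono {w : List Bool} {m m' : ℕ} (h : M.HaltsWithin w m) (hle : m ≤ m') :
    M.HaltsWithin w m' := by
  obtain ⟨d, rfl⟩ := Nat.exists_eq_add_of_le hle
  unfold MTM.HaltsWithin at *
  rw [run_stable M h]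
  exact h

/-- A bound for all inputs below a size. -/
lemma exists_small_bound (hM : ∀ (n : ℕ) (G H : SimpleGraph (Fin n)),
    ∃ m, M.HaltsWithin (encPair G H) m) (n₀ : ℕ) :
    ∃ B, ∀ n, n < n₀ → ∀ G H : SimpleGraph (Fin n), M.HaltsWithin (encPair G H) B := by
  induction n₀ with
  | zero => exact ⟨0, fun n hn => absurd hn (by omega)⟩
  | succ n₀ ih =>
    obtain ⟨B, hB⟩ := ih
    choose f hf using hM n₀
    obtain ⟨B', hB'⟩ := Finite.exists_le (fun p : SimpleGraph (Fin n₀) × SimpleGraph (Fin n₀) => f p.1 p.2)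
    refine ⟨B + B', fun n hn G H => ?_⟩
    rcases Nat.lt_succ_iff_lt_or_eq.mp hn with h | rfl
    · exact halts_mono M (hB n h G H) (by omega)
    · exact halts_mono M (hf G H) ((hB' (G, H)).trans (by omega))

/-- The lower bound for Turing machines, given the lower bound for random access machines. -/
theorem mtm_of_ram {k e : ℕ} (he : 2 ≤ e)
    (hram : ∀ (A : List Instr) (C : ℕ), ¬ DecidesWL A k (fun n => C * (n + 1) ^ e))
    [Finite τ] [Finite Q] [Finite Γ] (M : MTM τ Q Γ) (hM : MDecidesWL k M) :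
    ¬ MTimeBigO M e := by
  rintro ⟨C, n₀, hC⟩
  obtain ⟨P, c₁, c₂, hP⟩ := ram_of_mtm M hM
  have hall : ∀ (n : ℕ) (G H : SimpleGraph (Fin n)), ∃ m, M.HaltsWithin (encPair G H) m := by
    intro n G H
    by_cases hWL : WLEquiv k G H
    · obtain ⟨m, hm⟩ := (hM n G H).1 hWL
      exact ⟨m, Or.inl hm⟩
    · obtain ⟨m, hm⟩ := (hM n G H).2 hWL
      exact ⟨m, Or.inr hm⟩
  obtain ⟨B, hB⟩ := exists_small_bound M hall n₀
  have hT : ∀ (n : ℕ) (G H : SimpleGraph (Fin n)),
      M.HaltsWithin (encPair G H) ((C + B) * (n + 1) ^ e) := by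
    intro n G H
    have h1 : 1 ≤ (n + 1) ^ e := Nat.one_le_pow _ _ (by omega)
    by_cases hn : n₀ ≤ n
    · refine halts_mono M (hC n hn G H) ?_
      calc C * n ^ e ≤ C * (n + 1) ^ e := Nat.mul_le_mul_left _ (Nat.pow_le_pow_left (by omega) _)
        _ ≤ (C + B) * (n + 1) ^ e := Nat.mul_le_mul_right _ (by omega)
    · refine halts_mono M (hB n (by omega) G H) ?_
      calc B ≤ B * (n + 1) ^ e := Nat.le_mul_of_pos_right _ (by omega)
        _ ≤ (C + B) * (n + 1) ^ e := Nat.mul_le_mul_right _ (by omega)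
  have hD := hP _ hT
  apply hram P (c₁ + c₂ * (C + B))
  intro n G H
  obtain ⟨m, hm, hrest⟩ := hD n G H
  refine ⟨m, hm.trans ?_, hrest⟩
  have h2 : (n + 1) ^ 2 ≤ (n + 1) ^ e := Nat.pow_le_pow_right (by omega) he
  calc c₁ * (n + 1) ^ 2 + c₂ * ((C + B) * (n + 1) ^ e)
      ≤ c₁ * (n + 1) ^ e + c₂ * ((C + B) * (n + 1) ^ e) :=
        Nat.add_le_add_right (Nat.mul_le_mul_left _ h2) _
    _ = _ := by ring

/-- The lower bound for random access machines and Turing machines. -/
theorem ram_and_tm_lower : ∃ k₀ : ℕ, ∀ k, k₀ ≤ k →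
    (∀ (P : List Instr) (C : ℕ), ¬ DecidesWL P k (fun n => C * (n + 1) ^ (k / 432))) ∧
    (∀ (τ Q Γ : Type) [Finite τ] [Finite Q] [Finite Γ] (M : MTM τ Q Γ), MDecidesWL k M →
      ¬ MTimeBigO M (k / 432)) := by
  obtain ⟨k₀, hk₀⟩ := ram_lower_432
  refine ⟨k₀ + 864, fun k hk => ⟨hk₀ k (by omega), fun τ Q Γ _ _ _ M hM => ?_⟩⟩
  exact mtm_of_ram (by omega) (hk₀ k (by omega)) M hM

end Vale.Agent.Lib.P310.Full
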