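import Vale.Agent.Lib.P310.Full.Flow

/-!
# The flowchart that runs a Turing machine with several tapes
-/

namespace Vale.Agent.Lib.P310.Full

open Function

/-- The control points of the flowchart. -/
inductive TPt (Q R : Type) (t b : ℕ) : Type
  | read (q : Q) (i : Fin (t + 1)) (rd : R)
  | disp (q : Q) (i : Fin (t + 1)) (rd : R) (s : Fin (b + 1))
  | dc (q : Q) (i : Fin (t + 1)) (rd : R) (s : Fin (b + 1))
  | store (q : Q) (j : Fin (t + 1)) (rd : R)
  | move (q : Q) (j : Fin (t + 1)) (rd : R)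
  | cstA (s : Fin (b + 1))
  | cstB (s : Fin (b + 1))
  | p2 | oT | oD | mI | mT | mD | iI | iT | iD | cL | cB | cF | cV | nx | done
  deriving Fintype

/-- A number below a bound as an element of `Fin`. -/
def ff (n a : ℕ) : Fin (n + 1) := Fin.ofNat (n + 1) a

lemma ff_val {n a : ℕ} (h : a ≤ n) : (ff n a).val = a := Nat.mod_eq_of_lt (by omega)

open scoped Classical

variable {τ Q Γ : Type} {t b : ℕ} (M : MTM τ Q Γ) (en : τ ≃ Fin t) (eΓ : Γ ≃ Fin b)

/-- The tape with a given number. -/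
def ten (i : ℕ) : τ := if h : i < t then en.symm ⟨i, h⟩ else M.inp

lemma en_ten {i : ℕ} (h : i < t) : (en (ten M en i)).val = i := by
  simp [ten, h]

lemma ten_en (j : τ) : ten M en (en j).val = j := by
  simp [ten]

/-- The symbol with a given number. -/
def sym (s : ℕ) : Γ := if h : s < b then eΓ.symm ⟨s, h⟩ else M.blank

lemma sym_code (g : Γ) : sym M eΓ (eΓ g).val = g := by
  simp [sym]

/-- The flowchart. -/
noncomputable def tfl : TPt Q (τ → Γ) t b → FI (TPt Q (τ → Γ) t b)
  | .read q i rd =>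
    if q = M.acc then .halt true else if q = M.rej then .halt false
    else if i.val < t then .load 2 (1 + i.val) (7 + i.val) (.disp q i rd (ff b 0))
    else .br 1 (.store q (ff t 0) rd) (.store q (ff t 0) rd)
  | .disp q i rd s =>
    .br 2 (.read q (ff t (i.val + 1)) (update rd (ten M en i.val) (sym M eΓ s.val))) (.dc q i rd s)
  | .dc q i rd s => .dec 2 (.disp q i rd (ff b (s.val + 1)))
  | .store q j rd =>
    if j.val < t then
      .store (1 + j.val) (7 + j.val) (7 + t + (eΓ ((M.δ q rd).2.1 (ten M en j.val))).val) (.move q j rd)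
    else .br 1 (.read (M.δ q rd).1 (ff t 0) fun _ => M.blank)
      (.read (M.δ q rd).1 (ff t 0) fun _ => M.blank)
  | .move q j rd =>
    match (M.δ q rd).2.2 (ten M en j.val) with
    | .left => .dec (7 + j.val) (.store q (ff t (j.val + 1)) rd)
    | .right => .inc (7 + j.val) (.store q (ff t (j.val + 1)) rd)
    | .stay => .br 1 (.store q (ff t (j.val + 1)) rd) (.store q (ff t (j.val + 1)) rd)
  | .cstA s =>
    if s.val + 1 < b then .mov (7 + t + (s.val + 1)) (7 + t + s.val) (.cstB s) else .inc 3 .p2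
  | .cstB s => .inc (7 + t + (s.val + 1)) (.cstA (ff b (s.val + 1)))
  | .p2 => .inc 3 .oT
  | .oT => .br 3 .done .oD
  | .oD => .dec 3 .mI
  | .mI => .mov 4 0 .mT
  | .mT => .br 4 .oT .mD
  | .mD => .dec 4 .iI
  | .iI => .mov 5 0 .iT
  | .iT => .br 5 .mT .iD
  | .iD => .dec 5 .cL
  | .cL => .load 2 0 6 .cB
  | .cB => .br 2 .cF .cV
  | .cF => .store (1 + (en M.inp).val) 6 (7 + t + (eΓ (M.bit false)).val) .nx
  | .cV => .store (1 + (en M.inp).val) 6 (7 + t + (eΓ (M.bit true)).val) .nx
  | .nx => .inc 6 .iT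
  | .done => .br 1 (.read M.start (ff t 0) fun _ => M.blank) (.read M.start (ff t 0) fun _ => M.blank)

section Run

variable {N : ℕ} (E : TPt Q (τ → Γ) t b ≃ Fin N)

/-- The registers and arrays that hold a tape configuration. -/
structure RI (reg : ℕ → ℕ) (mem : ℕ → ℕ → ℕ) (tape : τ → ℕ → Γ) (head : τ → ℕ) : Prop where
  z : reg 1 = 0
  K : ∀ s, s < b → reg (7 + t + s) = s
  hd : ∀ i, reg (7 + (en i).val) = head i
  tp : ∀ i a, mem (1 + (en i).val) a = (eΓ (tape i a)).val

variable {en eΓ}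

lemma RI.upd2 {reg : ℕ → ℕ} {mem : ℕ → ℕ → ℕ} {tape : τ → ℕ → Γ} {head : τ → ℕ}
    (h : RI en eΓ reg mem tape head) (v : ℕ) : RI en eΓ (update reg 2 v) mem tape head where
  z := by simpa [update_apply] using h.z
  K := fun s hs => by
    rw [update_of_ne (by omega)]
    exact h.K s hs
  hd := fun i => by
    rw [update_of_ne (by omega)]
    exact h.hd i
  tp := h.tp

variable (en eΓ)

lemma tfl_read_acc {q : Q} (hq : q = M.acc) (i : Fin (t + 1)) (rd : τ → Γ) :
    tfl M en eΓ (.read q i rd) = .halt true := by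
  simp [tfl, hq]

lemma tfl_read_rej {q : Q} (hq : q = M.rej) (hq' : q ≠ M.acc) (i : Fin (t + 1)) (rd : τ → Γ) :
    tfl M en eΓ (.read q i rd) = .halt false := by
  simp only [tfl]
  rw [if_neg hq', if_pos hq]

lemma tfl_read_lt {q : Q} (h₁ : q ≠ M.acc) (h₂ : q ≠ M.rej) {i : ℕ} (hi : i < t) (rd : τ → Γ) :
    tfl M en eΓ (.read q (ff t i) rd) =
      .load 2 (1 + i) (7 + i) (.disp q (ff t i) rd (ff b 0)) := by
  simp [tfl, h₁, h₂, ff_val hi.le, hi]

lemma tfl_read_end {q : Q} (h₁ : q ≠ M.acc) (h₂ : q ≠ M.rej) (rd : τ → Γ) :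
    tfl M en eΓ (.read q (ff t t) rd) = .br 1 (.store q (ff t 0) rd) (.store q (ff t 0) rd) := by
  simp [tfl, h₁, h₂, ff_val (le_refl t)]

lemma tfl_disp (q : Q) {i s : ℕ} (hi : i ≤ t) (hs : s ≤ b) (rd : τ → Γ) :
    tfl M en eΓ (.disp q (ff t i) rd (ff b s)) =
      .br 2 (.read q (ff t (i + 1)) (update rd (ten M en i) (sym M eΓ s)))
        (.dc q (ff t i) rd (ff b s)) := by
  simp only [tfl, ff_val hi, ff_val hs]

lemma tfl_dc (q : Q) (i : Fin (t + 1)) {s : ℕ} (hs : s ≤ b) (rd : τ → Γ) :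
    tfl M en eΓ (.dc q i rd (ff b s)) = .dec 2 (.disp q i rd (ff b (s + 1))) := by
  simp only [tfl, ff_val hs]

lemma tfl_store_lt (q : Q) {j : ℕ} (hj : j < t) (rd : τ → Γ) :
    tfl M en eΓ (.store q (ff t j) rd) =
      .store (1 + j) (7 + j) (7 + t + (eΓ ((M.δ q rd).2.1 (ten M en j))).val)
        (.move q (ff t j) rd) := by
  simp [tfl, ff_val hj.le, hj]

lemma tfl_store_end (q : Q) (rd : τ → Γ) :
    tfl M en eΓ (.store q (ff t t) rd) =
      .br 1 (.read (M.δ q rd).1 (ff t 0) fun _ => M.blank)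
        (.read (M.δ q rd).1 (ff t 0) fun _ => M.blank) := by
  simp [tfl, ff_val (le_refl t)]

lemma tfl_move_left (q : Q) {j : ℕ} (hj : j ≤ t) (rd : τ → Γ)
    (h : (M.δ q rd).2.2 (ten M en j) = .left) :
    tfl M en eΓ (.move q (ff t j) rd) = .dec (7 + j) (.store q (ff t (j + 1)) rd) := by
  simp only [tfl, ff_val hj, h]

lemma tfl_move_right (q : Q) {j : ℕ} (hj : j ≤ t) (rd : τ → Γ)
    (h : (M.δ q rd).2.2 (ten M en j) = .right) :
    tfl M en eΓ (.move q (ff t j) rd) = .inc (7 + j) (.store q (ff t (j + 1)) rd) := by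
  simp only [tfl, ff_val hj, h]

lemma tfl_move_stay (q : Q) {j : ℕ} (hj : j ≤ t) (rd : τ → Γ)
    (h : (M.δ q rd).2.2 (ten M en j) = .stay) :
    tfl M en eΓ (.move q (ff t j) rd) =
      .br 1 (.store q (ff t (j + 1)) rd) (.store q (ff t (j + 1)) rd) := by
  simp only [tfl, ff_val hj, h]

lemma tfl_cstA_lt {s : ℕ} (hs : s + 1 < b) :
    tfl (τ := τ) (Q := Q) M en eΓ (.cstA (ff b s)) =
      .mov (7 + t + (s + 1)) (7 + t + s) (.cstB (ff b s)) := by
  simp [tfl, ff_val (show s ≤ b by omega), hs]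

lemma tfl_cstA_end {s : ℕ} (hs : s + 1 = b) :
    tfl (τ := τ) (Q := Q) M en eΓ (.cstA (ff b s)) = .inc 3 .p2 := by
  simp [tfl, ff_val (show s ≤ b by omega), hs]

lemma tfl_cstB {s : ℕ} (hs : s ≤ b) :
    tfl (τ := τ) (Q := Q) M en eΓ (.cstB (ff b s)) =
      .inc (7 + t + (s + 1)) (.cstA (ff b (s + 1))) := by
  simp only [tfl, ff_val hs]

/-- The symbols read from the tapes with a number below `i`. -/
def rdU (tape : τ → ℕ → Γ) (head : τ → ℕ) (i : ℕ) : τ → Γ :=
  fun j => if (en j).val < i then tape j (head j) else M.blank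

lemma rdU_zero (tape : τ → ℕ → Γ) (head : τ → ℕ) : rdU M en tape head 0 = fun _ => M.blank := by
  funext j
  simp [rdU]

lemma rdU_all (tape : τ → ℕ → Γ) (head : τ → ℕ) : rdU M en tape head t = fun j => tape j (head j) := by
  funext j
  simp [rdU, (en j).isLt]

lemma rdU_succ (tape : τ → ℕ → Γ) (head : τ → ℕ) {i : ℕ} (hi : i < t) :
    update (rdU M en tape head i) (ten M en i)
      (sym M eΓ (eΓ (tape (ten M en i) (head (ten M en i)))).val) = rdU M en tape head (i + 1) := by
  funext j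
  rw [sym_code]
  by_cases hj : j = ten M en i
  · subst hj
    simp [rdU, en_ten M en hi]
  · rw [update_of_ne hj]
    have h1 : (en j).val ≠ i := by
      intro h
      apply hj
      rw [← h, ten_en]
    unfold rdU
    by_cases h2 : (en j).val < i
    · rw [if_pos h2, if_pos (by omega)]
    · rw [if_neg h2, if_neg (by omega)]

/-- The dispatch on the symbol that has been read. -/
lemma chain {q : Q} {i : ℕ} (hi : i < t) (rd : τ → Γ) {mem : ℕ → ℕ → ℕ} {tape : τ → ℕ → Γ}
    {head : τ → ℕ} (x : ℕ) : ∀ (s : ℕ) (reg : ℕ → ℕ), RI en eΓ reg mem tape head → reg 2 = x →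
      s + x = (eΓ (tape (ten M en i) (head (ten M en i)))).val →
      ∃ reg', RI en eΓ reg' mem tape head ∧
        RR (flowP (tfl M en eΓ) E) (At E (.disp q (ff t i) rd (ff b s)) reg mem)
          (At E (.read q (ff t (i + 1)) (update rd (ten M en i)
            (sym M eΓ (eΓ (tape (ten M en i) (head (ten M en i)))).val))) reg' mem) (4 * x + 1) := by
  have hb : ∀ s, s ≤ (eΓ (tape (ten M en i) (head (ten M en i)))).val → s ≤ b := fun s hs => by
    have := (eΓ (tape (ten M en i) (head (ten M en i)))).isLt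
    omega
  induction x with
  | zero =>
    intro s reg hR h2 hs
    refine ⟨reg, hR, ?_⟩
    have hs' : s = (eΓ (tape (ten M en i) (head (ten M en i)))).val := by omega
    have h := fr_br_z (e := E) (fl := tfl M en eΓ) (r := reg) (m := mem)
      (tfl_disp M en eΓ q hi.le (hb s (by omega)) rd) h2
    rw [← hs']
    exact h.mono (by omega)
  | succ x ih =>
    intro s reg hR h2 hs
    have h1 := fr_br_nz (e := E) (fl := tfl M en eΓ) (r := reg) (m := mem)
      (tfl_disp M en eΓ q hi.le (hb s (by omega)) rd) (by omega) hR.z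
    have h3 := fr_dec (e := E) (fl := tfl M en eΓ) (r := reg) (m := mem)
      (tfl_dc M en eΓ q (ff t i) (hb s (by omega)) rd) (hR.upd2 _).z
    obtain ⟨reg', hR', h4⟩ := ih (s + 1) _ (hR.upd2 (reg 2 - 1)) (by simp [h2]) (by omega)
    exact ⟨reg', hR', ((h1.trans h3).trans h4).mono (by omega)⟩

/-- Reading one tape. -/
lemma read_step {q : Q} (h₁ : q ≠ M.acc) (h₂ : q ≠ M.rej) {i : ℕ} (hi : i < t) {reg : ℕ → ℕ}
    {mem : ℕ → ℕ → ℕ} {tape : τ → ℕ → Γ} {head : τ → ℕ} (hR : RI en eΓ reg mem tape head) :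
    ∃ reg', RI en eΓ reg' mem tape head ∧
      RR (flowP (tfl M en eΓ) E) (At E (.read q (ff t i) (rdU M en tape head i)) reg mem)
        (At E (.read q (ff t (i + 1)) (rdU M en tape head (i + 1))) reg' mem) (4 * b + 3) := by
  have hj := en_ten M en hi
  have hhd := hR.hd (ten M en i)
  have htp := hR.tp (ten M en i)
  rw [hj] at hhd htp
  have h1 := fr_load (e := E) (fl := tfl M en eΓ) (r := reg) (m := mem)
    (tfl_read_lt M en eΓ h₁ h₂ hi (rdU M en tape head i)) (hR.upd2 _).z
  have hv : update reg 2 (mem (1 + i) (reg (7 + i))) 2 =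
      (eΓ (tape (ten M en i) (head (ten M en i)))).val := by
    rw [update_self, hhd, htp]
  obtain ⟨reg', hR', h4⟩ := chain M en eΓ E (q := q) hi (rdU M en tape head i) _ 0 _
    (hR.upd2 (mem (1 + i) (reg (7 + i)))) hv (by omega)
  rw [rdU_succ M en eΓ tape head hi] at h4
  refine ⟨reg', hR', (h1.trans h4).mono ?_⟩
  have := (eΓ (tape (ten M en i) (head (ten M en i)))).isLt
  omega

/-- Reading all tapes. -/
lemma read_all {q : Q} (h₁ : q ≠ M.acc) (h₂ : q ≠ M.rej) {mem : ℕ → ℕ → ℕ} {tape : τ → ℕ → Γ}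
    {head : τ → ℕ} (d : ℕ) : ∀ (i : ℕ) (reg : ℕ → ℕ), i + d = t → RI en eΓ reg mem tape head →
    ∃ reg', RI en eΓ reg' mem tape head ∧
      RR (flowP (tfl M en eΓ) E) (At E (.read q (ff t i) (rdU M en tape head i)) reg mem)
        (At E (.read q (ff t t) (rdU M en tape head t)) reg' mem) (d * (4 * b + 3)) := by
  induction d with
  | zero =>
    intro i reg hi hR
    have : i = t := by omega
    subst this
    exact ⟨reg, hR, (RR.refl _ _).mono (by omega)⟩
  | succ d ih =>
    intro i reg hi hR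
    obtain ⟨reg₁, hR₁, h1⟩ := read_step M en eΓ E h₁ h₂ (show i < t by omega) hR
    obtain ⟨reg₂, hR₂, h2⟩ := ih (i + 1) reg₁ (by omega) hR₁
    refine ⟨reg₂, hR₂, (h1.trans h2).mono ?_⟩
    rw [Nat.add_mul]
    omega

/-- The tapes after the writes on the tapes with a number below `i`. -/
def tpW (tape : τ → ℕ → Γ) (head : τ → ℕ) (w : τ → Γ) (i : ℕ) : τ → ℕ → Γ :=
  fun j => if (en j).val < i then update (tape j) (head j) (w j) else tape j

/-- The heads after the moves on the tapes with a number below `i`. -/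
def hdW (head : τ → ℕ) (mv : τ → Dir) (i : ℕ) : τ → ℕ :=
  fun j => if (en j).val < i then (mv j).apply (head j) else head j

variable {M en eΓ}

/-- Writing on one tape keeps the relation, with the head moved. -/
lemma RI_write {tape : τ → ℕ → Γ} {head : τ → ℕ} {w : τ → Γ} {mv : τ → Dir} {i : ℕ} (hi : i < t)
    {reg reg' : ℕ → ℕ} {mem : ℕ → ℕ → ℕ}
    (hR : RI en eΓ reg mem (tpW en tape head w i) (hdW en head mv i))
    (hz : reg' 1 = 0) (hK : ∀ s, s < b → reg' (7 + t + s) = reg (7 + t + s))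
    (hh : reg' (7 + i) = (mv (ten M en i)).apply (head (ten M en i)))
    (hl : ∀ l, l ≠ i → l < t → reg' (7 + l) = reg (7 + l)) :
    RI en eΓ reg' (update mem (1 + i) (update (mem (1 + i)) (reg (7 + i))
        (eΓ (w (ten M en i))).val))
      (tpW en tape head w (i + 1)) (hdW en head mv (i + 1)) := by
  have hj := en_ten M en hi
  have hhd := hR.hd (ten M en i)
  rw [hj] at hhd
  have hhd' : reg (7 + i) = head (ten M en i) := by
    rw [hhd]
    simp [hdW, hj]
  refine ⟨hz, fun s hs => by rw [hK s hs, hR.K s hs], fun j => ?_, fun j a => ?_⟩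
  · by_cases hji : (en j).val = i
    · have hj' : j = ten M en i := by rw [← hji, ten_en]
      rw [hji, hh, hj']
      simp [hdW, hj]
    · rw [hl _ hji (en j).isLt, hR.hd j]
      unfold hdW
      by_cases h2 : (en j).val < i
      · rw [if_pos h2, if_pos (by omega)]
      · rw [if_neg h2, if_neg (by omega)]
  · by_cases hji : (en j).val = i
    · have hj' : j = ten M en i := by rw [← hji, ten_en]
      rw [hji, update_self, hhd', hj']
      have h3 := hR.tp (ten M en i) a
      rw [hj] at h3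
      have h4 : tpW en tape head w i (ten M en i) = tape (ten M en i) := by
        simp [tpW, hj]
      have h5 : tpW en tape head w (i + 1) (ten M en i) =
          update (tape (ten M en i)) (head (ten M en i)) (w (ten M en i)) := by
        simp [tpW, hj]
      rw [h4] at h3
      rw [h5]
      by_cases ha : a = head (ten M en i)
      · subst ha
        simp
      · rw [update_of_ne ha, update_of_ne ha, h3]
    · rw [update_of_ne (by omega), hR.tp j a]
      unfold tpW
      by_cases h2 : (en j).val < i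
      · rw [if_pos h2, if_pos (by omega)]
      · rw [if_neg h2, if_neg (by omega)]

variable (M en eΓ)

/-- Writing on one tape. -/
lemma write_step (q : Q) (rd : τ → Γ) {tape : τ → ℕ → Γ} {head : τ → ℕ} {i : ℕ} (hi : i < t)
    {reg : ℕ → ℕ} {mem : ℕ → ℕ → ℕ}
    (hR : RI en eΓ reg mem (tpW en tape head (M.δ q rd).2.1 i) (hdW en head (M.δ q rd).2.2 i)) :
    ∃ reg' mem', RI en eΓ reg' mem' (tpW en tape head (M.δ q rd).2.1 (i + 1))
        (hdW en head (M.δ q rd).2.2 (i + 1)) ∧
      RR (flowP (tfl M en eΓ) E) (At E (.store q (ff t i) rd) reg mem)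
        (At E (.store q (ff t (i + 1)) rd) reg' mem') 4 := by
  have hj := en_ten M en hi
  have hhd := hR.hd (ten M en i)
  rw [hj] at hhd
  have hhd' : reg (7 + i) = head (ten M en i) := by
    rw [hhd]
    simp [hdW, hj]
  have h1 := fr_store (e := E) (fl := tfl M en eΓ) (r := reg) (m := mem)
    (tfl_store_lt M en eΓ q hi rd) hR.z
  have hk := hR.K _ (eΓ ((M.δ q rd).2.1 (ten M en i))).isLt
  rw [hk] at h1
  cases hmv : (M.δ q rd).2.2 (ten M en i) with
  | left =>
    have h2 := fr_dec (e := E) (fl := tfl M en eΓ) (r := reg) (m := update mem (1 + i)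
      (update (mem (1 + i)) (reg (7 + i)) (eΓ ((M.δ q rd).2.1 (ten M en i))).val))
      (tfl_move_left M en eΓ q hi.le rd hmv) (by
        rw [update_of_ne (by omega)]
        exact hR.z)
    refine ⟨_, _, RI_write (M := M) hi hR ?_ ?_ ?_ ?_, h1.trans h2⟩
    · rw [update_of_ne (by omega)]
      exact hR.z
    · intro s hs
      rw [update_of_ne (by omega)]
    · rw [update_self, hmv, hhd']
      rfl
    · intro l hl _
      rw [update_of_ne (by omega)]
  | right =>
    have h2 := fr_inc (e := E) (fl := tfl M en eΓ) (r := reg) (m := update mem (1 + i)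
      (update (mem (1 + i)) (reg (7 + i)) (eΓ ((M.δ q rd).2.1 (ten M en i))).val))
      (tfl_move_right M en eΓ q hi.le rd hmv) (by
        rw [update_of_ne (by omega)]
        exact hR.z)
    refine ⟨_, _, RI_write (M := M) hi hR ?_ ?_ ?_ ?_, h1.trans h2⟩
    · rw [update_of_ne (by omega)]
      exact hR.z
    · intro s hs
      rw [update_of_ne (by omega)]
    · rw [update_self, hmv, hhd']
      rfl
    · intro l hl _
      rw [update_of_ne (by omega)]
  | stay =>
    have h2 := fr_br_z (e := E) (fl := tfl M en eΓ) (r := reg) (m := update mem (1 + i)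
      (update (mem (1 + i)) (reg (7 + i)) (eΓ ((M.δ q rd).2.1 (ten M en i))).val))
      (tfl_move_stay M en eΓ q hi.le rd hmv) hR.z
    refine ⟨_, _, RI_write (M := M) hi hR hR.z (fun _ _ => rfl) ?_ (fun _ _ _ => rfl),
      (h1.trans h2).mono (by omega)⟩
    rw [hmv, hhd']
    rfl

/-- Writing on all tapes. -/
lemma write_all (q : Q) (rd : τ → Γ) {tape : τ → ℕ → Γ} {head : τ → ℕ} (d : ℕ) :
    ∀ (i : ℕ) (reg : ℕ → ℕ) (mem : ℕ → ℕ → ℕ), i + d = t →
    RI en eΓ reg mem (tpW en tape head (M.δ q rd).2.1 i) (hdW en head (M.δ q rd).2.2 i) →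
    ∃ reg' mem', RI en eΓ reg' mem' (tpW en tape head (M.δ q rd).2.1 t)
        (hdW en head (M.δ q rd).2.2 t) ∧
      RR (flowP (tfl M en eΓ) E) (At E (.store q (ff t i) rd) reg mem)
        (At E (.store q (ff t t) rd) reg' mem') (4 * d) := by
  induction d with
  | zero =>
    intro i reg mem hi hR
    have : i = t := by omega
    subst this
    exact ⟨reg, mem, hR, (RR.refl _ _).mono (by omega)⟩
  | succ d ih =>
    intro i reg mem hi hR
    obtain ⟨reg₁, mem₁, hR₁, h1⟩ := write_step M en eΓ E q rd (show i < t by omega) hR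
    obtain ⟨reg₂, mem₂, hR₂, h2⟩ := ih (i + 1) reg₁ mem₁ (by omega) hR₁
    exact ⟨reg₂, mem₂, hR₂, (h1.trans h2).mono (by omega)⟩

lemma tpW_zero (tape : τ → ℕ → Γ) (head : τ → ℕ) (w : τ → Γ) : tpW en tape head w 0 = tape := by
  funext j
  simp [tpW]

lemma hdW_zero (head : τ → ℕ) (mv : τ → Dir) : hdW en head mv 0 = head := by
  funext j
  simp [hdW]

lemma tpW_all (tape : τ → ℕ → Γ) (head : τ → ℕ) (w : τ → Γ) :
    tpW en tape head w t = fun j => update (tape j) (head j) (w j) := by
  funext j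
  simp [tpW, (en j).isLt]

lemma hdW_all (head : τ → ℕ) (mv : τ → Dir) :
    hdW en head mv t = fun j => (mv j).apply (head j) := by
  funext j
  simp [hdW, (en j).isLt]

/-- The time of one step of the machine. -/
def tTime (t b : ℕ) : ℕ := t * (4 * b + 3) + 1 + 4 * t + 1

/-- One step of the machine. -/
lemma sim_step (c : MCfg τ Q Γ) (h₁ : c.q ≠ M.acc) (h₂ : c.q ≠ M.rej) {reg : ℕ → ℕ}
    {mem : ℕ → ℕ → ℕ} (hR : RI en eΓ reg mem c.tape c.head) :
    ∃ reg' mem', RI en eΓ reg' mem' (M.step c).tape (M.step c).head ∧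
      RR (flowP (tfl M en eΓ) E) (At E (.read c.q (ff t 0) fun _ => M.blank) reg mem)
        (At E (.read (M.step c).q (ff t 0) fun _ => M.blank) reg' mem') (tTime t b) := by
  have hnot : ¬ (c.q = M.acc ∨ c.q = M.rej) := by
    rintro (h | h)
    · exact h₁ h
    · exact h₂ h
  have hs : M.step c = ⟨(M.δ c.q fun i => c.tape i (c.head i)).1,
      fun i => update (c.tape i) (c.head i) ((M.δ c.q fun i => c.tape i (c.head i)).2.1 i),
      fun i => ((M.δ c.q fun i => c.tape i (c.head i)).2.2 i).apply (c.head i)⟩ := by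
    unfold MTM.step
    rw [if_neg hnot]
  obtain ⟨reg₁, hR₁, h1⟩ := read_all M en eΓ E h₁ h₂ t 0 reg (by omega) hR
  rw [rdU_zero, rdU_all] at h1
  have h2 := fr_br_z (e := E) (fl := tfl M en eΓ) (r := reg₁) (m := mem)
    (tfl_read_end M en eΓ h₁ h₂ fun j => c.tape j (c.head j)) hR₁.z
  have hW : RI en eΓ reg₁ mem
      (tpW en c.tape c.head (M.δ c.q fun j => c.tape j (c.head j)).2.1 0)
      (hdW en c.head (M.δ c.q fun j => c.tape j (c.head j)).2.2 0) := by
    rw [tpW_zero, hdW_zero]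
    exact hR₁
  obtain ⟨reg₂, mem₂, hR₂, h3⟩ := write_all M en eΓ E c.q (fun j => c.tape j (c.head j)) t 0 reg₁ mem
    (by omega) hW
  rw [tpW_all, hdW_all] at hR₂
  have h4 := fr_br_z (e := E) (fl := tfl M en eΓ) (r := reg₂) (m := mem₂)
    (tfl_store_end M en eΓ c.q fun j => c.tape j (c.head j)) hR₂.z
  refine ⟨reg₂, mem₂, ?_, ?_⟩
  · rw [hs]
    exact hR₂
  · rw [hs]
    exact (((h1.trans h2).trans h3).trans h4).mono (by unfold tTime; omega)

end Run

end Vale.Agent.Lib.P310.Full
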