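import Vale.Agent.Lib.P310.Full.TMFlow
import Vale.Agent.Lib.P310.Full.Final2

/-!
# The start of the flowchart, and the lower bound for Turing machines
-/

namespace Vale.Agent.Lib.P310.Full

open Function
open scoped Classical

variable {τ Q Γ : Type} {t b : ℕ} (M : MTM τ Q Γ) (en : τ ≃ Fin t) (eΓ : Γ ≃ Fin b)
variable {N : ℕ} (E : TPt Q (τ → Γ) t b ≃ Fin N)

/-- The number of the symbol of an entry of the adjacency matrices. -/
noncomputable def codeB (v : ℕ) : ℕ := (eΓ (M.bit (decide (v ≠ 0)))).val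

/-- The state of the registers and arrays while the input is copied. -/
structure CI (n : ℕ) (x : ℕ → ℕ) (reg : ℕ → ℕ) (mem : ℕ → ℕ → ℕ) (p : ℕ) : Prop where
  r0 : reg 0 = n
  z : reg 1 = 0
  K : ∀ s, s < b → reg (7 + t + s) = s
  hd : ∀ i : τ, reg (7 + (en i).val) = 0
  ptr : reg 6 = p
  m0 : mem 0 = x
  tpI : ∀ a, mem (1 + (en M.inp).val) a = if a < p then codeB M eΓ (x a) else 0
  tpO : ∀ i a, i ≠ M.inp → mem (1 + (en i).val) a = 0

variable {M en eΓ}

lemma CI.frame {n : ℕ} {x : ℕ → ℕ} {reg reg' : ℕ → ℕ} {mem : ℕ → ℕ → ℕ} {p : ℕ}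
    (h : CI M en eΓ n x reg mem p) (h' : ∀ r, r ≠ 2 → r ≠ 3 → r ≠ 4 → r ≠ 5 → reg' r = reg r) :
    CI M en eΓ n x reg' mem p where
  r0 := by rw [h' 0 (by omega) (by omega) (by omega) (by omega)]; exact h.r0
  z := by rw [h' 1 (by omega) (by omega) (by omega) (by omega)]; exact h.z
  K := fun s hs => by
    rw [h' _ (by omega) (by omega) (by omega) (by omega)]
    exact h.K s hs
  hd := fun i => by
    rw [h' _ (by omega) (by omega) (by omega) (by omega)]
    exact h.hd i
  ptr := by rw [h' 6 (by omega) (by omega) (by omega) (by omega)]; exact h.ptr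
  m0 := h.m0
  tpI := h.tpI
  tpO := h.tpO

lemma CI.copy {n : ℕ} {x : ℕ → ℕ} {reg : ℕ → ℕ} {mem : ℕ → ℕ → ℕ} {p : ℕ}
    (h : CI M en eΓ n x reg mem p) :
    CI M en eΓ n x (update reg 6 (p + 1))
      (update mem (1 + (en M.inp).val) (update (mem (1 + (en M.inp).val)) p (codeB M eΓ (x p))))
      (p + 1) where
  r0 := by rw [update_of_ne (by omega)]; exact h.r0
  z := by rw [update_of_ne (by omega)]; exact h.z
  K := fun s hs => by
    rw [update_of_ne (by omega)]
    exact h.K s hs
  hd := fun i => by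
    rw [update_of_ne (by omega)]
    exact h.hd i
  ptr := by rw [update_self]
  m0 := by rw [update_of_ne (by omega)]; exact h.m0
  tpI := fun a => by
    rw [update_self]
    by_cases ha : a = p
    · subst ha
      simp
    · rw [update_of_ne ha, h.tpI a]
      by_cases h2 : a < p
      · rw [if_pos h2, if_pos (by omega)]
      · rw [if_neg h2, if_neg (by omega)]
  tpO := fun i a hi => by
    rw [update_of_ne, h.tpO i a hi]
    intro h2
    apply hi
    exact en.injective (Fin.ext (by omega))

variable (M en eΓ)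

/-- The innermost loop of the copying. -/
lemma loop_inner {n : ℕ} {x : ℕ → ℕ} (s : ℕ) : ∀ (p : ℕ) (reg : ℕ → ℕ) (mem : ℕ → ℕ → ℕ),
    CI M en eΓ n x reg mem p → reg 5 = s →
    ∃ reg' mem', CI M en eΓ n x reg' mem' (p + s) ∧ reg' 4 = reg 4 ∧ reg' 3 = reg 3 ∧
      RR (flowP (tfl M en eΓ) E) (At E .iT reg mem) (At E .mT reg' mem') (12 * s + 1) := by
  induction s with
  | zero =>
    intro p reg mem h h5
    exact ⟨reg, mem, h, rfl, rfl, (fr_br_z (e := E) (fl := tfl M en eΓ) rfl h5).mono (by omega)⟩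
  | succ s ih =>
    intro p reg mem h h5
    have h1 := fr_br_nz (e := E) (fl := tfl M en eΓ) (p := .iT) (z := .mT) (nz := .iD) (k := 5)
      (r := reg) (m := mem) rfl (by omega) h.z
    have h2 := fr_dec (e := E) (fl := tfl M en eΓ) (p := .iD) (nx := .cL) (k := 5) (r := reg)
      (m := mem) rfl (by rw [update_of_ne (by omega)]; exact h.z)
    set reg₂ := update reg 5 (reg 5 - 1) with hreg₂
    have h₂6 : reg₂ 6 = p := by rw [hreg₂, update_of_ne (by omega)]; exact h.ptr
    have h₂1 : reg₂ 1 = 0 := by rw [hreg₂, update_of_ne (by omega)]; exact h.z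
    have h3 := fr_load (e := E) (fl := tfl M en eΓ) (p := .cL) (nx := .cB) (k := 2) (j := 0) (s := 6)
      (r := reg₂) (m := mem) rfl (by rw [update_of_ne (by omega)]; exact h₂1)
    rw [h.m0, h₂6] at h3
    set reg₃ := update reg₂ 2 (x p) with hreg₃
    have h₃1 : reg₃ 1 = 0 := by rw [hreg₃, update_of_ne (by omega)]; exact h₂1
    have h₃2 : reg₃ 2 = x p := by rw [hreg₃, update_self]
    have h₃6 : reg₃ 6 = p := by rw [hreg₃, update_of_ne (by omega)]; exact h₂6
    have h₃K : ∀ s, s < b → reg₃ (7 + t + s) = s := fun s hs => by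
      rw [hreg₃, update_of_ne (by omega), hreg₂, update_of_ne (by omega)]
      exact h.K s hs
    have hframe : ∀ r, r ≠ 2 → r ≠ 3 → r ≠ 4 → r ≠ 5 → reg₃ r = reg r := by
      intro r h2 _ _ h5
      rw [hreg₃, update_of_ne h2, hreg₂, update_of_ne h5]
    have hC : CI M en eΓ n x (update reg₃ 6 (reg₃ 6 + 1))
        (update mem (1 + (en M.inp).val) (update (mem (1 + (en M.inp).val)) p (codeB M eΓ (x p))))
        (p + 1) := by
      rw [h₃6]
      have h4 := (h.frame hframe).copy
      exact h4
    have hR4 : (update reg₃ 6 (reg₃ 6 + 1)) 5 = s := by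
      rw [update_of_ne (by omega), hreg₃, update_of_ne (by omega), hreg₂, update_self, h5]
      rfl
    have key : RR (flowP (tfl M en eΓ) E) (At E .cB reg₃ mem)
        (At E .nx reg₃ (update mem (1 + (en M.inp).val)
          (update (mem (1 + (en M.inp).val)) p (codeB M eΓ (x p))))) 4 := by
      by_cases hv : x p = 0
      · have h4 := fr_br_z (e := E) (fl := tfl M en eΓ) (p := .cB) (z := .cF) (nz := .cV) (k := 2)
          (r := reg₃) (m := mem) rfl (by rw [h₃2, hv])
        have h5 := fr_store (e := E) (fl := tfl M en eΓ) (p := .cF) (nx := .nx)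
          (r := reg₃) (m := mem) rfl h₃1
        rw [h₃6, h₃K _ (eΓ (M.bit false)).isLt] at h5
        have hc : codeB M eΓ (x p) = (eΓ (M.bit false)).val := by
          simp [codeB, hv]
        rw [hc]
        exact (h4.trans h5).mono (by omega)
      · have h4 := fr_br_nz (e := E) (fl := tfl M en eΓ) (p := .cB) (z := .cF) (nz := .cV) (k := 2)
          (r := reg₃) (m := mem) rfl (by rw [h₃2]; exact hv) h₃1
        have h5 := fr_store (e := E) (fl := tfl M en eΓ) (p := .cV) (nx := .nx)
          (r := reg₃) (m := mem) rfl h₃1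
        rw [h₃6, h₃K _ (eΓ (M.bit true)).isLt] at h5
        have hc : codeB M eΓ (x p) = (eΓ (M.bit true)).val := by
          simp [codeB, hv]
        rw [hc]
        exact (h4.trans h5).mono (by omega)
    have h6 := fr_inc (e := E) (fl := tfl M en eΓ) (p := .nx) (nx := .iT) (k := 6) (r := reg₃)
      (m := update mem (1 + (en M.inp).val) (update (mem (1 + (en M.inp).val)) p (codeB M eΓ (x p))))
      rfl (by rw [update_of_ne (by omega)]; exact h₃1)
    obtain ⟨reg', mem', hC', h4', h3', hR⟩ := ih (p + 1) _ _ hC hR4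
    refine ⟨reg', mem', ?_, ?_, ?_, ?_⟩
    · have : p + (s + 1) = p + 1 + s := by omega
      rw [this]
      exact hC'
    · rw [h4', update_of_ne (by omega), hreg₃, update_of_ne (by omega), hreg₂, update_of_ne (by omega)]
    · rw [h3', update_of_ne (by omega), hreg₃, update_of_ne (by omega), hreg₂, update_of_ne (by omega)]
    · exact ((((h1.trans h2).trans h3).trans key).trans (h6.trans hR)).mono (by omega)

/-- The middle loop of the copying. -/
lemma loop_mid {n : ℕ} {x : ℕ → ℕ} (r : ℕ) : ∀ (p : ℕ) (reg : ℕ → ℕ) (mem : ℕ → ℕ → ℕ),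
    CI M en eΓ n x reg mem p → reg 4 = r →
    ∃ reg' mem', CI M en eΓ n x reg' mem' (p + r * n) ∧ reg' 3 = reg 3 ∧
      RR (flowP (tfl M en eΓ) E) (At E .mT reg mem) (At E .oT reg' mem')
        (r * (12 * n + 7) + 1) := by
  induction r with
  | zero =>
    intro p reg mem h h4
    refine ⟨reg, mem, ?_, rfl, (fr_br_z (e := E) (fl := tfl M en eΓ) rfl h4).mono (by omega)⟩
    simpa using h
  | succ r ih =>
    intro p reg mem h h4
    have h1 := fr_br_nz (e := E) (fl := tfl M en eΓ) (p := .mT) (z := .oT) (nz := .mD) (k := 4)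
      (r := reg) (m := mem) rfl (by omega) h.z
    have h2 := fr_dec (e := E) (fl := tfl M en eΓ) (p := .mD) (nx := .iI) (k := 4) (r := reg)
      (m := mem) rfl (by rw [update_of_ne (by omega)]; exact h.z)
    set reg₂ := update reg 4 (reg 4 - 1) with hreg₂
    have h₂1 : reg₂ 1 = 0 := by rw [hreg₂, update_of_ne (by omega)]; exact h.z
    have h3 := fr_mov (e := E) (fl := tfl M en eΓ) (p := .iI) (nx := .iT) (k := 5) (s := 0)
      (r := reg₂) (m := mem) rfl (by rw [update_of_ne (by omega)]; exact h₂1)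
    have h₂0 : reg₂ 0 = n := by rw [hreg₂, update_of_ne (by omega)]; exact h.r0
    rw [h₂0] at h3
    have hC : CI M en eΓ n x (update reg₂ 5 n) mem p := by
      refine h.frame fun r' _ _ h4' h5' => ?_
      rw [update_of_ne h5', hreg₂, update_of_ne h4']
    obtain ⟨reg₃, mem₃, hC₃, h₃4, h₃3, hR₃⟩ := loop_inner M en eΓ E n p _ mem hC (by rw [update_self])
    have hr4 : reg₃ 4 = r := by
      rw [h₃4, update_of_ne (by omega), hreg₂, update_self, h4]
      rfl
    obtain ⟨reg', mem', hC', h', hR⟩ := ih (p + n) reg₃ mem₃ hC₃ hr4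
    refine ⟨reg', mem', ?_, ?_, ?_⟩
    · have : p + (r + 1) * n = p + n + r * n := by
        rw [Nat.add_mul, Nat.one_mul]
        omega
      rw [this]
      exact hC'
    · rw [h', h₃3, update_of_ne (by omega), hreg₂, update_of_ne (by omega)]
    · refine (((h1.trans h2).trans h3).trans (hR₃.trans hR)).mono ?_
      rw [Nat.add_mul]
      omega

/-- The outer loop of the copying. -/
lemma loop_outer {n : ℕ} {x : ℕ → ℕ} (u : ℕ) : ∀ (p : ℕ) (reg : ℕ → ℕ) (mem : ℕ → ℕ → ℕ),
    CI M en eΓ n x reg mem p → reg 3 = u →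
    ∃ reg' mem', CI M en eΓ n x reg' mem' (p + u * (n * n)) ∧
      RR (flowP (tfl M en eΓ) E) (At E .oT reg mem) (At E .done reg' mem')
        (u * (n * (12 * n + 7) + 7) + 1) := by
  induction u with
  | zero =>
    intro p reg mem h h3
    refine ⟨reg, mem, ?_, (fr_br_z (e := E) (fl := tfl M en eΓ) rfl h3).mono (by omega)⟩
    simpa using h
  | succ u ih =>
    intro p reg mem h h3
    have h1 := fr_br_nz (e := E) (fl := tfl M en eΓ) (p := .oT) (z := .done) (nz := .oD) (k := 3)
      (r := reg) (m := mem) rfl (by omega) h.z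
    have h2 := fr_dec (e := E) (fl := tfl M en eΓ) (p := .oD) (nx := .mI) (k := 3) (r := reg)
      (m := mem) rfl (by rw [update_of_ne (by omega)]; exact h.z)
    set reg₂ := update reg 3 (reg 3 - 1) with hreg₂
    have h₂1 : reg₂ 1 = 0 := by rw [hreg₂, update_of_ne (by omega)]; exact h.z
    have h4 := fr_mov (e := E) (fl := tfl M en eΓ) (p := .mI) (nx := .mT) (k := 4) (s := 0)
      (r := reg₂) (m := mem) rfl (by rw [update_of_ne (by omega)]; exact h₂1)
    have h₂0 : reg₂ 0 = n := by rw [hreg₂, update_of_ne (by omega)]; exact h.r0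
    rw [h₂0] at h4
    have hC : CI M en eΓ n x (update reg₂ 4 n) mem p := by
      refine h.frame fun r' _ h3' h4' _ => ?_
      rw [update_of_ne h4', hreg₂, update_of_ne h3']
    obtain ⟨reg₃, mem₃, hC₃, h₃3, hR₃⟩ := loop_mid M en eΓ E n p _ mem hC (by rw [update_self])
    have hr3 : reg₃ 3 = u := by
      rw [h₃3, update_of_ne (by omega), hreg₂, update_self, h3]
      rfl
    obtain ⟨reg', mem', hC', hR⟩ := ih (p + n * n) reg₃ mem₃ hC₃ hr3
    refine ⟨reg', mem', ?_, ?_⟩
    · have : p + (u + 1) * (n * n) = p + n * n + u * (n * n) := by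
        rw [Nat.add_mul, Nat.one_mul]
        omega
      rw [this]
      exact hC'
    · refine (((h1.trans h2).trans h4).trans (hR₃.trans hR)).mono ?_
      rw [Nat.add_mul, Nat.mul_add n, Nat.mul_comm n 7]
      have h7 : n * (12 * n + 7) = n * (12 * n) + n * 7 := by ring
      nlinarith

/-- The registers with constants. -/
lemma loop_cst {n : ℕ} {mem : ℕ → ℕ → ℕ} (d : ℕ) : ∀ (s : ℕ) (reg : ℕ → ℕ), s + d + 1 = b →
    (∀ s', s' ≤ s → reg (7 + t + s') = s') → (∀ r, r < 7 + t → reg r = if r = 0 then n else 0) →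
    ∃ reg', RR (flowP (tfl M en eΓ) E) (At E (.cstA (ff b s)) reg mem) (At E .oT reg' mem)
        (4 * d + 4) ∧ (∀ s', s' < b → reg' (7 + t + s') = s') ∧
      (∀ r, r < 7 + t → r ≠ 3 → reg' r = if r = 0 then n else 0) ∧ reg' 3 = 2 := by
  induction d with
  | zero =>
    intro s reg hs hK hL
    have h1 := fr_inc (e := E) (fl := tfl M en eΓ) (p := .cstA (ff b s)) (nx := .p2) (k := 3)
      (r := reg) (m := mem) (tfl_cstA_end M en eΓ (by omega))
      (by rw [update_of_ne (by omega), hL 1 (by omega)]; rfl)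
    have h2 := fr_inc (e := E) (fl := tfl M en eΓ) (p := .p2) (nx := .oT) (k := 3)
      (r := update reg 3 (reg 3 + 1)) (m := mem) rfl
      (by rw [update_of_ne (by omega), update_of_ne (by omega), hL 1 (by omega)]; rfl)
    refine ⟨_, (h1.trans h2).mono (by omega), fun s' hs' => ?_, fun r hr h3 => ?_, ?_⟩
    · rw [update_of_ne (by omega), update_of_ne (by omega)]
      exact hK s' (by omega)
    · rw [update_of_ne h3, update_of_ne h3]
      exact hL r hr
    · rw [update_self, update_self, hL 3 (by omega)]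
      rfl
  | succ d ih =>
    intro s reg hs hK hL
    have h1 := fr_mov (e := E) (fl := tfl M en eΓ) (p := .cstA (ff b s)) (nx := .cstB (ff b s))
      (r := reg) (m := mem) (tfl_cstA_lt M en eΓ (show s + 1 < b by omega))
      (by rw [update_of_ne (by omega), hL 1 (by omega)]; rfl)
    rw [hK s le_rfl] at h1
    set reg₁ := update reg (7 + t + (s + 1)) s with hreg₁
    have h2 := fr_inc (e := E) (fl := tfl M en eΓ) (p := .cstB (ff b s))
      (nx := .cstA (ff b (s + 1))) (r := reg₁) (m := mem) (tfl_cstB M en eΓ (show s ≤ b by omega))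
      (by rw [update_of_ne (by omega), hreg₁, update_of_ne (by omega), hL 1 (by omega)]; rfl)
    have hv : reg₁ (7 + t + (s + 1)) + 1 = s + 1 := by rw [hreg₁, update_self]
    rw [hv] at h2
    obtain ⟨reg', hR, hK', hL', h3⟩ := ih (s + 1) (update reg₁ (7 + t + (s + 1)) (s + 1)) (by omega)
      (fun s' hs' => by
        by_cases h : s' = s + 1
        · subst h
          rw [update_self]
        · rw [update_of_ne (by omega), hreg₁, update_of_ne (by omega)]
          exact hK s' (by omega))
      (fun r hr => by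
        rw [update_of_ne (by omega), hreg₁, update_of_ne (by omega)]
        exact hL r hr)
    exact ⟨reg', ((h1.trans h2).trans hR).mono (by omega), hK', hL', h3⟩

end Vale.Agent.Lib.P310.Full
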