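import Vale.Agent.Lib.P310.Full.TabDefs

/-!
# Basic facts on slots, guards and the rules that add one
-/

namespace Vale.Agent.Lib.P310.Full

variable {V : Type} [AddCommGroup V] [Fintype V] (vn : V ≃ Fin (Fintype.card V)) {e : ℕ}

/-- The number in a slot. -/
def sv (x : Fin 4 → Fin e → V) (s : Fin 4) : ℕ := dval vn (x s)

/-- A register vector meets a guard. -/
def GHolds (g : Fin 4 → Fin e → Option V) (x : Fin 4 → Fin e → V) : Prop :=
  ∀ s i a, g s i = some a → x s i = a

omit [AddCommGroup V] [Fintype V] in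
lemma gOr_left {g₁ g₂ : Fin 4 → Fin e → Option V} {x : Fin 4 → Fin e → V}
    (h : GHolds (fun s i => (g₁ s i).or (g₂ s i)) x) : GHolds g₁ x := by
  intro s i a ha
  exact h s i a (by simp [ha])

omit [AddCommGroup V] [Fintype V] in
lemma gOr_right {g₁ g₂ : Fin 4 → Fin e → Option V} {x : Fin 4 → Fin e → V}
    (hd : ∀ s i, g₁ s i = none ∨ g₂ s i = none)
    (h : GHolds (fun s i => (g₁ s i).or (g₂ s i)) x) : GHolds g₂ x := by
  intro s i a ha
  rcases hd s i with h1 | h1
  · exact h s i a (by simp [h1, ha])
  · simp [h1] at ha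

omit [AddCommGroup V] [Fintype V] in
lemma gOr_of {g₁ g₂ : Fin 4 → Fin e → Option V} {x : Fin 4 → Fin e → V}
    (h₁ : GHolds g₁ x) (h₂ : GHolds g₂ x) : GHolds (fun s i => (g₁ s i).or (g₂ s i)) x := by
  intro s i a ha
  cases h : g₁ s i with
  | none =>
    simp [h] at ha
    exact h₂ s i a ha
  | some b =>
    simp [h] at ha
    subst ha
    exact h₁ s i b h

lemma numG_disj {s s' : Fin 4} (h : s ≠ s') (n n' : ℕ) (t : Fin 4) (i : Fin e) :
    numG vn s n t i = (none : Option V) ∨ numG vn s' n' t i = (none : Option V) := by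
  by_cases h1 : t = s
  · right
    subst h1
    simp [numG, h]
  · left
    simp [numG, h1]

lemma numG_disj' (t : Fin 4) (i : Fin e) {n k k' : ℕ} :
    numG vn sT n t i = (none : Option V) ∨
      (gOr (numG vn sA k) (numG vn sW k')) t i = (none : Option V) := by
  by_cases h1 : t = sT
  · right
    subst h1
    simp [gOr, numG, show (sT : Fin 4) ≠ sA by decide, show (sT : Fin 4) ≠ sW by decide]
  · left
    simp [numG, h1]

lemma slot_of_numG {s : Fin 4} {n : ℕ} {x : Fin 4 → Fin e → V} (h : GHolds (numG vn s n) x) :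
    x s = dig vn n := by
  funext i
  exact h s i _ (by simp [numG])

lemma sv_of_numG {s : Fin 4} {n : ℕ} {x : Fin 4 → Fin e → V} (h : GHolds (numG vn s n) x)
    (hn : n < Fintype.card V ^ e) : sv vn x s = n := by
  unfold sv
  rw [slot_of_numG vn h, dval_dig vn hn]

lemma numG_of_sv {s : Fin 4} {x : Fin 4 → Fin e → V} : GHolds (numG vn s (sv vn x s)) x := by
  intro t i a ha
  by_cases h1 : t = s
  · subst h1
    simp only [numG, if_true, Option.some.injEq] at ha
    rw [← ha, sv, dig_dval]
  · simp [numG, h1] at ha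

lemma sv_lt (x : Fin 4 → Fin e → V) (s : Fin 4) : sv vn x s < Fintype.card V ^ e :=
  dval_lt vn _

/-- Changing one slot. -/
noncomputable def setv (x : Fin 4 → Fin e → V) (s : Fin 4) (n : ℕ) : Fin 4 → Fin e → V :=
  fun s' => if s' = s then dig vn n else x s'

lemma setv_same (x : Fin 4 → Fin e → V) (s : Fin 4) (n : ℕ) : setv vn x s n s = dig vn n := by
  simp [setv]

lemma setv_ne (x : Fin 4 → Fin e → V) {s s' : Fin 4} (h : s' ≠ s) (n : ℕ) :
    setv vn x s n s' = x s' := by
  simp [setv, h]

lemma sv_setv_same (x : Fin 4 → Fin e → V) (s : Fin 4) {n : ℕ} (hn : n < Fintype.card V ^ e) :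
    sv vn (setv vn x s n) s = n := by
  unfold sv
  rw [setv_same, dval_dig vn hn]

lemma sv_setv_ne (x : Fin 4 → Fin e → V) {s s' : Fin 4} (h : s' ≠ s) (n : ℕ) :
    sv vn (setv vn x s n) s' = sv vn x s' := by
  unfold sv
  rw [setv_ne vn x h]

lemma eq_setv {x x' : Fin 4 → Fin e → V} {s : Fin 4} (h : ∀ s', s' ≠ s → x' s' = x s') :
    x' = setv vn x s (sv vn x' s) := by
  funext s'
  by_cases h1 : s' = s
  · subst h1
    rw [setv_same, sv, dig_dval]
  · rw [setv_ne vn x h1, h s' h1]

lemma setv_sv (x : Fin 4 → Fin e → V) (s : Fin 4) : setv vn x s (sv vn x s) = x := by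
  funext s'
  by_cases h1 : s' = s
  · subst h1
    rw [setv_same, sv, dig_dval]
  · rw [setv_ne vn x h1]

lemma vn_maxV : ((vn (maxV vn) : Fin _) : ℕ) = Fintype.card V - 1 := by
  simp [maxV]

lemma vn_succV {d : V} (hd : ((vn d : Fin _) : ℕ) + 1 < Fintype.card V) :
    ((vn (succV vn d) : Fin _) : ℕ) = ((vn d : Fin _) : ℕ) + 1 := by
  simp [succV, hd]

variable (hvn : ((vn 0 : Fin _) : ℕ) = 0)

include hvn in
/-- The effect of the rule that adds one. -/
lemma carry_effect {x : Fin 4 → Fin e → V} {s : Fin 4} {i : Fin e} {d : V}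
    (hg : GHolds (carryG vn s i d) x) (hd : ((vn d : Fin _) : ℕ) + 1 < Fintype.card V) :
    sv vn (fun s' i' => x s' i' + carryA vn s i d s' i') s = sv vn x s + 1 ∧
      ∀ s', s' ≠ s → (fun s' i' => x s' i' + carryA vn s i d s' i') s' = x s' := by
  constructor
  · unfold sv dval
    refine carry_val card_pos_V _ _ i (fun j hj => ?_) ?_ (fun j hj => ?_)
    · have hne : j ≠ i := ne_of_lt hj
      have h1 : x s j = maxV vn := hg s j _ (by simp [carryG, hne, hj])
      constructor
      · show ((vn (x s j) : Fin _) : ℕ) = _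
        rw [h1, vn_maxV]
      · simp [carryA, hne, hj, h1, hvn]
    · have h1 : x s i = d := hg s i _ (by simp [carryG])
      simp [carryA, h1, vn_succV vn hd]
    · have hne : j ≠ i := ne_of_gt hj
      have hnlt : ¬ j < i := not_lt_of_gt hj
      simp [carryA, hne, hnlt]
  · intro s' hs'
    funext i'
    simp [carryA, hs']

/-- Where the carry stops. -/
lemma carry_guard (x : Fin 4 → Fin e → V) (s : Fin 4) (h : sv vn x s + 1 < Fintype.card V ^ e) :
    ∃ i d, ((vn d : Fin _) : ℕ) + 1 < Fintype.card V ∧ GHolds (carryG vn s i d) x := by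
  obtain ⟨i, hi, hi'⟩ := carry_exists card_pos_V (fun j => ((vn (x s j) : Fin _) : ℕ))
    (fun j => Fin.isLt _) h
  refine ⟨i, x s i, hi, ?_⟩
  intro s' i' a ha
  by_cases h1 : s' = s
  · subst h1
    by_cases h2 : i' = i
    · subst h2
      simpa [carryG] using ha
    · by_cases h3 : i' < i
      · simp only [carryG, if_true, h2, if_false, h3, Option.some.injEq] at ha
        rw [← ha]
        apply vn.injective
        apply Fin.ext
        rw [vn_maxV]
        exact hi' i' h3
      · simp [carryG, h2, h3] at ha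
  · simp [carryG, h1] at ha

include hvn in
/-- The rule that adds one reaches the slot with the next number. -/
lemma carry_eq_setv {x : Fin 4 → Fin e → V} {s : Fin 4} {i : Fin e} {d : V}
    (hg : GHolds (carryG vn s i d) x) (hd : ((vn d : Fin _) : ℕ) + 1 < Fintype.card V) :
    (fun s' i' => x s' i' + carryA vn s i d s' i') = setv vn x s (sv vn x s + 1) := by
  obtain ⟨h1, h2⟩ := carry_effect vn hvn hg hd
  rw [← h1]
  exact eq_setv vn h2

include hvn in
/-- The effect of the rule that subtracts one. -/
lemma back_effect {x : Fin 4 → Fin e → V} {s : Fin 4} {i : Fin e} {d : V}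
    (hg : GHolds (backG vn s i d) x) (hd : ((vn d : Fin _) : ℕ) + 1 < Fintype.card V) :
    sv vn x s = sv vn (fun s' i' => x s' i' + backA vn s i d s' i') s + 1 ∧
      ∀ s', s' ≠ s → (fun s' i' => x s' i' + backA vn s i d s' i') s' = x s' := by
  constructor
  · unfold sv dval
    refine carry_val card_pos_V _ _ i (fun j hj => ?_) ?_ (fun j hj => ?_)
    · have hne : j ≠ i := ne_of_lt hj
      have h1 : x s j = 0 := hg s j _ (by simp [backG, hne, hj])
      constructor
      · simp [backA, hne, hj, h1, vn_maxV]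
      · simp [h1, hvn]
    · have h1 : x s i = succV vn d := hg s i _ (by simp [backG])
      simp [backA, h1, vn_succV vn hd]
    · have hne : j ≠ i := ne_of_gt hj
      have hnlt : ¬ j < i := not_lt_of_gt hj
      simp [backA, hne, hnlt]
  · intro s' hs'
    funext i'
    simp [backA, hs']

include hvn in
/-- A back rule applies at the vector with the next number and reaches the vector. -/
lemma back_guard (x : Fin 4 → Fin e → V) (s : Fin 4) (h : sv vn x s + 1 < Fintype.card V ^ e) :
    ∃ i d, ((vn d : Fin _) : ℕ) + 1 < Fintype.card V ∧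
      GHolds (backG vn s i d) (setv vn x s (sv vn x s + 1)) ∧
      (fun s' i' => setv vn x s (sv vn x s + 1) s' i' + backA vn s i d s' i') = x := by
  obtain ⟨i, d, hd, hg⟩ := carry_guard vn x s h
  have h1 := carry_eq_setv vn hvn hg hd
  refine ⟨i, d, hd, ?_, ?_⟩
  · rw [← h1]
    intro s' i' a ha
    by_cases h2 : s' = s
    · subst h2
      by_cases h3 : i' = i
      · subst h3
        simp only [backG, if_true, Option.some.injEq] at ha
        have h4 : x s' i' = d := hg s' i' d (by simp [carryG])
        simp [carryA, h4, ← ha]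
      · by_cases h4 : i' < i
        · simp only [backG, if_true, h3, if_false, h4, Option.some.injEq] at ha
          have h5 : x s' i' = maxV vn := hg s' i' _ (by simp [carryG, h3, h4])
          simp [carryA, h3, h4, h5, ← ha]
        · simp [backG, h3, h4] at ha
    · simp [backG, h2] at ha
  · rw [← h1]
    funext s' i'
    by_cases h2 : s' = s
    · subst h2
      by_cases h3 : i' = i
      · subst h3
        simp [carryA, backA]
        abel
      · by_cases h4 : i' < i
        · simp [carryA, backA, h3, h4]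
        · simp [carryA, backA, h3, h4]
    · simp [carryA, backA, h2]

end Vale.Agent.Lib.P310.Full
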