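import Vale.Agent.Lib.P310.Full.TabDerived

/-!
# Every true fact about an accepting run up to its end is derivable
-/

namespace Vale.Agent.Lib.P310.Full

/-- The registers and arrays of an instruction are in the given ranges. -/
def InstrOK (τ J : ℕ) : Instr → Prop
  | .inc r => r < τ
  | .dec r => r < τ
  | .mov r s => r < τ ∧ s < τ
  | .jz r _ => r < τ
  | .load r j s => r < τ ∧ j < J ∧ s < τ
  | .store j s r => j < J ∧ s < τ ∧ r < τ
  | .halt _ => True

lemma setv_setv {V : Type} [AddCommGroup V] [Fintype V] (vn : V ≃ Fin (Fintype.card V)) {e : ℕ}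
    (x : Fin 4 → Fin e → V) (s : Fin 4) (n n' : ℕ) :
    setv vn (setv vn x s n) s n' = setv vn x s n' := by
  funext s'
  by_cases h : s' = s <;> simp [setv, h]

/-- A bound for all numbers in a run. -/
lemma bound_cf {Pg : List Instr} {c₀ : Conf} {m : ℕ} {xi : ℕ → ℕ} (hc₀ : InitOK c₀ m xi) {B₀ : ℕ}
    (hB : m ≤ B₀) (hxi : ∀ a, a < m → xi a ≤ B₀) (t : ℕ) :
    (∀ r, (cf Pg c₀ t).reg r ≤ B₀ + t) ∧ ∀ j a, (cf Pg c₀ t).mem j a ≤ B₀ + t := by
  induction t with
  | zero =>
    constructor
    · intro r
      show c₀.reg r ≤ _
      rw [hc₀.reg]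
      split <;> omega
    · intro j a
      show c₀.mem j a ≤ _
      by_cases hj : j = 0
      · subst hj
        rw [hc₀.mem0]
        split
        · rename_i h
          have := hxi a h
          omega
        · omega
      · rw [hc₀.mem j a hj]
        omega
  | succ t ih =>
    obtain ⟨h1, h2⟩ := ih
    rw [cf_succ]
    unfold step
    cases h : Pg[(cf Pg c₀ t).pc]? with
    | none =>
      exact ⟨fun r => by
        have := h1 r
        show (cf Pg c₀ t).reg r ≤ _
        omega, fun j a => by
        have := h2 j a
        show (cf Pg c₀ t).mem j a ≤ _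
        omega⟩
    | some I =>
      cases I with
      | inc r₀ =>
        refine ⟨fun r => ?_, fun j a => ?_⟩
        · simp only [Instr.exec, Function.update_apply]
          split
          · rename_i hr
            subst hr
            have := h1 r
            omega
          · have := h1 r
            omega
        · have := h2 j a
          simp only [Instr.exec]
          omega
      | dec r₀ =>
        refine ⟨fun r => ?_, fun j a => ?_⟩
        · simp only [Instr.exec, Function.update_apply]
          split
          · rename_i hr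
            subst hr
            have := h1 r
            omega
          · have := h1 r
            omega
        · have := h2 j a
          simp only [Instr.exec]
          omega
      | mov r₀ s =>
        refine ⟨fun r => ?_, fun j a => ?_⟩
        · simp only [Instr.exec, Function.update_apply]
          split
          · have := h1 s
            omega
          · have := h1 r
            omega
        · have := h2 j a
          simp only [Instr.exec]
          omega
      | jz r₀ L =>
        refine ⟨fun r => ?_, fun j a => ?_⟩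
        · have := h1 r
          simp only [Instr.exec]
          omega
        · have := h2 j a
          simp only [Instr.exec]
          omega
      | load r₀ j₀ s =>
        refine ⟨fun r => ?_, fun j a => ?_⟩
        · simp only [Instr.exec, Function.update_apply]
          split
          · have := h2 j₀ ((cf Pg c₀ t).reg s)
            omega
          · have := h1 r
            omega
        · have := h2 j a
          simp only [Instr.exec]
          omega
      | store j₀ s r₀ =>
        refine ⟨fun r => ?_, fun j a => ?_⟩
        · have := h1 r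
          simp only [Instr.exec]
          omega
        · simp only [Instr.exec, Function.update_apply]
          split
          · rename_i hj
            subst hj
            rw [Function.update_apply]
            split
            · have := h1 r₀
              omega
            · have := h2 j a
              omega
          · have := h2 j a
            omega
      | halt b =>
        exact ⟨fun r => by have := h1 r; simp only [Instr.exec]; omega,
          fun j a => by have := h2 j a; simp only [Instr.exec]; omega⟩

/-- A state with an accepting outcome was reached through the program. -/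
lemma pc_lt_of_outcome {Pg : List Instr} {c₀ : Conf} {t : ℕ} {b : Bool}
    (h : outcome Pg (cf Pg c₀ t) = some b) (s : ℕ) (hs : s ≤ t) :
    (cf Pg c₀ s).pc < Pg.length := by
  by_contra hcon
  have hnone : Pg[(cf Pg c₀ s).pc]? = none := List.getElem?_eq_none (by omega)
  have key : ∀ k, cf Pg c₀ (s + k) = cf Pg c₀ s := by
    intro k
    induction k with
    | zero => rfl
    | succ k ih =>
      rw [← Nat.add_assoc, cf_succ, ih]
      unfold step
      rw [hnone]
  obtain ⟨k, rfl⟩ := Nat.exists_eq_add_of_le hs
  rw [key] at h
  unfold outcome at h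
  rw [hnone] at h
  simp at h

variable {V : Type} [AddCommGroup V] [Fintype V] (vn : V ≃ Fin (Fintype.card V)) {e : ℕ}
  {τ J : ℕ} {Pg : List Instr} {c₀ : Conf} {m : ℕ} {xi : ℕ → ℕ} (j₀ : Fin J)

/-- All facts about time `t` are derivable. -/
structure Good (c₀ : Conf) (Pg : List Instr) (m : ℕ) (xi : ℕ → ℕ) (τ : ℕ) (e : ℕ) (t : ℕ) : Prop where
  pc : ∀ (c : Fin Pg.length), (cf Pg c₀ t).pc = c.val → ∀ x : Fin 4 → Fin e → V, sv vn x sT = t →
    Dv (m := m) (xi := xi) (τ := τ) vn j₀ (HState.pc c) x
  rg : ∀ (r : Fin τ) (x : Fin 4 → Fin e → V), sv vn x sT = t → sv vn x sW = (cf Pg c₀ t).reg r.val →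
    Dv (Pg := Pg) (m := m) (xi := xi) vn j₀ (HState.rg r) x
  ar : ∀ (j : Fin J) (x : Fin 4 → Fin e → V), sv vn x sT = t →
    sv vn x sW = (cf Pg c₀ t).mem j.val (sv vn x sA) →
    Dv (Pg := Pg) (m := m) (xi := xi) (τ := τ) vn j₀ (HState.ar j) x

variable {vn j₀}

/-- The register facts with the value in the address slot. -/
lemma Good.ra {t : ℕ} (hG : Good vn j₀ c₀ Pg m xi τ e t) (r : Fin τ) (x : Fin 4 → Fin e → V)
    (hT : sv vn x sT = t) (hA : sv vn x sA = (cf Pg c₀ t).reg r.val) :
    Dv (Pg := Pg) (m := m) (xi := xi) (τ := τ) vn j₀ (HState.ra r) x := by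
  have hlt : (cf Pg c₀ t).reg r.val < Fintype.card V ^ e := by
    rw [← hA]
    exact sv_lt vn x sA
  set y := setv vn x sW ((cf Pg c₀ t).reg r.val) with hy
  have h1 : sv vn y sW = (cf Pg c₀ t).reg r.val := sv_setv_same vn x sW hlt
  have h2 : sv vn y sT = t := by rw [hy, sv_setv_ne vn x (by decide), hT]
  have h3 : sv vn y sA = (cf Pg c₀ t).reg r.val := by
    rw [hy, sv_setv_ne vn x (by decide), hA]
  have hsame : y sA = y sW := dval_inj vn (h3.trans h1.symm)
  have h4 := hG.rg r y h2 h1
  have h5 := dv_cp (m := m) (xi := xi) vn j₀ false r h4 (by simpa using hsame)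
  have h6 := dv_move vn j₀ (MoveOK.cpA r) h5
  exact dv_free vn j₀ (FreeOK.ra r) h6 (fun s' hs' => (setv_ne vn x hs' _).symm)

/-- The register facts with the value in the second address slot. -/
lemma Good.ru {t : ℕ} (hG : Good vn j₀ c₀ Pg m xi τ e t) (r : Fin τ) (x : Fin 4 → Fin e → V)
    (hT : sv vn x sT = t) (hA : sv vn x sU = (cf Pg c₀ t).reg r.val) :
    Dv (Pg := Pg) (m := m) (xi := xi) (τ := τ) vn j₀ (HState.ru r) x := by
  have hlt : (cf Pg c₀ t).reg r.val < Fintype.card V ^ e := by
    rw [← hA]
    exact sv_lt vn x sU
  set y := setv vn x sW ((cf Pg c₀ t).reg r.val) with hy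
  have h1 : sv vn y sW = (cf Pg c₀ t).reg r.val := sv_setv_same vn x sW hlt
  have h2 : sv vn y sT = t := by rw [hy, sv_setv_ne vn x (by decide), hT]
  have h3 : sv vn y sU = (cf Pg c₀ t).reg r.val := by
    rw [hy, sv_setv_ne vn x (by decide), hA]
  have hsame : y sU = y sW := dval_inj vn (h3.trans h1.symm)
  have h4 := hG.rg r y h2 h1
  have h5 := dv_cp (m := m) (xi := xi) vn j₀ true r h4 (by simpa using hsame)
  have h6 := dv_move vn j₀ (MoveOK.cpU r) h5
  exact dv_free vn j₀ (FreeOK.ru r) h6 (fun s' hs' => (setv_ne vn x hs' _).symm)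

variable (hvn : ((vn 0 : Fin _) : ℕ) = 0)

include hvn in
/-- One step of time: a rule that adds one to the time slot. -/
lemma dv_next {t : ℕ} {A C : HState Pg.length τ J e} (hok : StepOK Pg sT A C)
    {x' : Fin 4 → Fin e → V} (hT : sv vn x' sT = t + 1)
    (hA : Dv (m := m) (xi := xi) vn j₀ A (setv vn x' sT t)) :
    Dv (m := m) (xi := xi) vn j₀ C x' := by
  have ht : t + 1 < Fintype.card V ^ e := by
    rw [← hT]
    exact sv_lt vn x' sT
  have h1 : sv vn (setv vn x' sT t) sT = t := sv_setv_same vn x' sT (by omega)
  have h2 := dv_carry vn j₀ hvn hok hA (by rw [h1]; exact ht)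
  rw [h1, setv_setv, ← hT, setv_sv] at h2
  exact h2

include hvn in
/-- The facts about the next time step are derivable. -/
theorem Good.succ {t : ℕ} (hG : Good vn j₀ c₀ Pg m xi τ e t)
    (hτ : ∀ I, I ∈ Pg → InstrOK τ J I) (hpc : (cf Pg c₀ t).pc < Pg.length)
    (hN : ∀ r, (cf Pg c₀ t).reg r + 1 < Fintype.card V ^ e) :
    Good vn j₀ c₀ Pg m xi τ e (t + 1) := by
  set C := cf Pg c₀ t with hC
  set c : Fin Pg.length := ⟨C.pc, hpc⟩ with hc
  have hcv : C.pc = c.val := rfl
  obtain ⟨I, hI⟩ : ∃ I, Pg[c.val]? = some I := ⟨Pg[c.val], List.getElem?_eq_getElem c.isLt⟩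
  have hIm : I ∈ Pg := List.mem_of_getElem? hI
  have hok := hτ I hIm
  have hstep : cf Pg c₀ (t + 1) = I.exec C := step_cf hcv hI
  have hpcz : ∀ y : Fin 4 → Fin e → V, sv vn y sT = t →
      Dv (Pg := Pg) (m := m) (xi := xi) (τ := τ) (J := J) vn j₀ (HState.pc c) y := hG.pc c hcv
  have hNlt : ∀ r, C.reg r < Fintype.card V ^ e := fun r => by
    have := hN r
    omega
  -- moving to the previous time step
  have hzT : ∀ x' : Fin 4 → Fin e → V, sv vn x' sT = t + 1 → sv vn (setv vn x' sT t) sT = t := by
    intro x' hx'
    have ht : t + 1 < Fintype.card V ^ e := by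
      rw [← hx']
      exact sv_lt vn x' sT
    exact sv_setv_same vn x' sT (by omega)
  have hzo : ∀ (x' : Fin 4 → Fin e → V) (s : Fin 4), s ≠ sT →
      sv vn (setv vn x' sT t) s = sv vn x' s := fun x' s hs => sv_setv_ne vn x' hs t
  refine ⟨?_, ?_, ?_⟩
  · -- the program counter
    intro c' hc' x' hx'
    rw [hstep] at hc'
    by_cases hs : isSeq I
    · rw [exec_pc_of_seq I C hs, hcv] at hc'
      exact dv_next hvn (StepOK.go c') hx'
        (dv_move vn j₀ (MoveOK.next c c' I hI hs hc'.symm) (hpcz _ (hzT x' hx')))
    · cases I with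
      | jz r L =>
        have hr : r < τ := hok
        set rr : Fin τ := ⟨r, hr⟩ with hrr
        by_cases h0 : C.reg r = 0
        · have hL : c'.val = L := by
            rw [← hc']
            simp [Instr.exec, h0]
          have hlt0 : 0 < Fintype.card V ^ e := by
            have := hN r
            omega
          set y := setv vn x' sW 0 with hy
          have y1 : sv vn y sT = t + 1 := by rw [hy, sv_setv_ne vn x' (by decide), hx']
          have y2 : sv vn y sW = 0 := sv_setv_same vn x' sW hlt0
          have z1 := hzT y y1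
          have z2 : sv vn (setv vn y sT t) sW = 0 := by rw [hzo y sW (by decide), y2]
          have s1 := dv_conj vn j₀ (ConjOK.s1 c rr (.jz r L) hI trivial rfl) (hpcz _ z1)
            (hG.rg rr _ z1 (by rw [z2]; exact h0.symm))
          have hI' : Pg[c.val]? = some (.jz r c'.val) := by rw [hL]; exact hI
          have g1 := dv_zero vn j₀ (ZeroOK.jz c c' r hI') s1 z2
          have g2 := dv_next hvn (StepOK.go c') y1 g1
          exact dv_free vn j₀ (FreeOK.pc c') g2 (fun s' hs' => (setv_ne vn x' hs' _).symm)
        · have hL : c'.val = c.val + 1 := by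
            rw [← hc']
            simp [Instr.exec, h0, hcv]
          set y := setv vn x' sW (C.reg r) with hy
          have y1 : sv vn y sT = t + 1 := by rw [hy, sv_setv_ne vn x' (by decide), hx']
          have y2 : sv vn y sW = C.reg r := sv_setv_same vn x' sW (hNlt r)
          have z1 := hzT y y1
          have z2 : sv vn (setv vn y sT t) sW = C.reg r := by rw [hzo y sW (by decide), y2]
          have s1 := dv_conj vn j₀ (ConjOK.s1 c rr (.jz r L) hI trivial rfl) (hpcz _ z1)
            (hG.rg rr _ z1 z2)
          have g1 := dv_nz vn j₀ hvn (NzOK.jz c c' r L hI hL) s1 (by rw [z2]; exact h0)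
          have g2 := dv_next hvn (StepOK.go c') y1 g1
          exact dv_free vn j₀ (FreeOK.pc c') g2 (fun s' hs' => (setv_ne vn x' hs' _).symm)
      | halt b =>
        have h1 : c' = c := Fin.ext hc'.symm
        subst h1
        exact dv_next hvn (StepOK.go c) hx'
          (dv_move vn j₀ (MoveOK.stay c b hI) (hpcz _ (hzT x' hx')))
      | inc r => exact absurd trivial hs
      | dec r => exact absurd trivial hs
      | mov r s => exact absurd trivial hs
      | load r j s => exact absurd trivial hs
      | store j s r => exact absurd trivial hs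
  · -- the registers
    intro rr x' hx' hW
    rw [hstep] at hW
    set z := setv vn x' sT t with hz
    have z1 : sv vn z sT = t := hzT x' hx'
    have z2 : sv vn z sW = sv vn x' sW := hzo x' sW (by decide)
    by_cases hw : writesReg I rr.val
    · cases I with
      | inc r₀ =>
        simp only [writesReg] at hw
        have hW' : sv vn x' sW = C.reg rr.val + 1 := by
          rw [hW]
          simp [Instr.exec, hw]
        set y := setv vn z sW (C.reg rr.val) with hy
        have y1 : sv vn y sT = t := by rw [hy, sv_setv_ne vn z (by decide), z1]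
        have y2 : sv vn y sW = C.reg rr.val := sv_setv_same vn z sW (hNlt _)
        have s1 := dv_conj vn j₀ (ConjOK.s1 c rr (.inc r₀) hI trivial hw) (hpcz _ y1)
          (hG.rg rr _ y1 y2)
        have hlt : sv vn y sW + 1 < Fintype.card V ^ e := by
          rw [y2]
          exact hN _
        have w1 := dv_carry vn j₀ hvn (StepOK.inc c r₀ hI) s1 hlt
        have hyz : setv vn y sW (sv vn y sW + 1) = z := by
          rw [y2, hy, setv_setv, ← hW', ← z2, setv_sv]
        rw [hyz] at w1
        exact dv_next hvn (StepOK.wrR c rr (.inc r₀) hI hw) hx' w1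
      | dec r₀ =>
        simp only [writesReg] at hw
        have hW' : sv vn x' sW = C.reg rr.val - 1 := by
          rw [hW]
          simp [Instr.exec, hw]
        by_cases h0 : C.reg rr.val = 0
        · have zw : sv vn z sW = C.reg rr.val := by rw [z2, hW', h0]
          have s1 := dv_conj vn j₀ (ConjOK.s1 c rr (.dec r₀) hI trivial hw) (hpcz _ z1)
            (hG.rg rr _ z1 zw)
          have w1 := dv_zero vn j₀ (ZeroOK.dec c r₀ hI) s1 (by rw [zw, h0])
          exact dv_next hvn (StepOK.wrR c rr (.dec r₀) hI hw) hx' w1
        · have hv : sv vn z sW + 1 = C.reg rr.val := by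
            rw [z2, hW']
            omega
          have hlt : sv vn z sW + 1 < Fintype.card V ^ e := by
            rw [hv]
            exact hNlt _
          set y := setv vn z sW (sv vn z sW + 1) with hy
          have y1 : sv vn y sT = t := by rw [hy, sv_setv_ne vn z (by decide), z1]
          have y2 : sv vn y sW = C.reg rr.val := by
            rw [hy, sv_setv_same vn z sW hlt, hv]
          have s1 := dv_conj vn j₀ (ConjOK.s1 c rr (.dec r₀) hI trivial hw) (hpcz _ y1)
            (hG.rg rr _ y1 y2)
          have w1 := dv_back vn j₀ hvn (BackOK.dec c r₀ hI) hlt s1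
          exact dv_next hvn (StepOK.wrR c rr (.dec r₀) hI hw) hx' w1
      | mov r₀ s =>
        simp only [writesReg] at hw
        have hW' : sv vn x' sW = C.reg s := by
          rw [hW]
          simp [Instr.exec, hw]
        have hs : s < τ := hok.2
        have s1 := dv_conj vn j₀ (ConjOK.s1 c ⟨s, hs⟩ (.mov r₀ s) hI trivial rfl) (hpcz _ z1)
          (hG.rg ⟨s, hs⟩ _ z1 (by rw [z2, hW']))
        have w1 := dv_move vn j₀ (MoveOK.mov c r₀ s hI) s1
        exact dv_next hvn (StepOK.wrR c rr (.mov r₀ s) hI hw) hx' w1
      | load r₀ j s =>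
        simp only [writesReg] at hw
        have hW' : sv vn x' sW = C.mem j (C.reg s) := by
          rw [hW]
          simp [Instr.exec, hw]
        have hj : j < J := hok.2.1
        have hs : s < τ := hok.2.2
        set y := setv vn x' sA (C.reg s) with hy
        have y1 : sv vn y sT = t + 1 := by rw [hy, sv_setv_ne vn x' (by decide), hx']
        have y2 : sv vn y sA = C.reg s := sv_setv_same vn x' sA (hNlt _)
        have y3 : sv vn y sW = sv vn x' sW := sv_setv_ne vn x' (by decide) _
        have u1 := hzT y y1
        have u2 : sv vn (setv vn y sT t) sA = C.reg s := by rw [hzo y sA (by decide), y2]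
        have u3 : sv vn (setv vn y sT t) sW = sv vn x' sW := by rw [hzo y sW (by decide), y3]
        have l1 := dv_conj vn j₀ (ConjOK.l1 c ⟨s, hs⟩ (.load r₀ j s) hI trivial rfl) (hpcz _ u1)
          (hG.ra ⟨s, hs⟩ _ u1 u2)
        have a1 := hG.ar ⟨j, hj⟩ _ u1 (by rw [u3, u2, hW'])
        have w1 := dv_conj vn j₀ (ConjOK.wrL c r₀ s ⟨j, hj⟩ hI) l1 a1
        have r1 := dv_next hvn (StepOK.wrR c rr (.load r₀ j s) hI hw) y1 w1
        exact dv_free vn j₀ (FreeOK.rg rr) r1 (fun s' hs' => (setv_ne vn x' hs' _).symm)
      | jz r L => simp only [writesReg] at hw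
      | store j s r => simp only [writesReg] at hw
      | halt b => simp only [writesReg] at hw
    · have hW' : sv vn x' sW = C.reg rr.val := by
        rw [hW, exec_reg_of_not_writes I C hw]
      have k1 := dv_conj vn j₀ (ConjOK.kr c rr I hI hw) (hpcz _ z1)
        (hG.rg rr _ z1 (by rw [z2, hW']))
      exact dv_next hvn (StepOK.kr c rr) hx' k1
  · -- the arrays
    intro jj x' hx' hW
    rw [hstep] at hW
    set z := setv vn x' sT t with hz
    have z1 : sv vn z sT = t := hzT x' hx'
    have z2 : sv vn z sW = sv vn x' sW := hzo x' sW (by decide)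
    have z3 : sv vn z sA = sv vn x' sA := hzo x' sA (by decide)
    by_cases hw : writesArr I jj.val
    · cases I with
      | store j₀' s r₀ =>
        simp only [writesArr] at hw
        have hs : s < τ := hok.2.1
        have hr : r₀ < τ := hok.2.2
        by_cases hA : sv vn x' sA = C.reg s
        · have hW' : sv vn x' sW = C.reg r₀ := by
            rw [hW]
            simp [Instr.exec, hw, hA]
          have l1 := dv_conj vn j₀ (ConjOK.l1 c ⟨s, hs⟩ (.store j₀' s r₀) hI trivial rfl)
            (hpcz _ z1) (hG.ra ⟨s, hs⟩ _ z1 (by rw [z3, hA]))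
          have r1 := hG.rg ⟨r₀, hr⟩ _ z1 (by rw [z2, hW'])
          have w1 := dv_conj vn j₀ (ConjOK.wrS c j₀' s ⟨r₀, hr⟩ hI) l1 r1
          exact dv_next hvn (StepOK.wrA c jj (.store j₀' s r₀) hI hw) hx' w1
        · have hW' : sv vn x' sW = C.mem jj.val (sv vn x' sA) := by
            rw [hW]
            simp [Instr.exec, hw, Function.update_apply, hA]
          set y := setv vn z sU (C.reg s) with hy
          have y1 : sv vn y sT = t := by rw [hy, sv_setv_ne vn z (by decide), z1]
          have y2 : sv vn y sU = C.reg s := sv_setv_same vn z sU (hNlt _)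
          have y3 : sv vn y sA = sv vn x' sA := by rw [hy, sv_setv_ne vn z (by decide), z3]
          have n1 := dv_conj vn j₀ (ConjOK.n1 c ⟨s, hs⟩ (.store j₀' s r₀) hI trivial rfl)
            (hpcz _ y1) (hG.ru ⟨s, hs⟩ _ y1 y2)
          have n2 := dv_neq vn j₀ n1 (by rw [y3, y2]; exact hA)
          have n3 := dv_free vn j₀ (FreeOK.n2 c) n2 (x' := z)
            (fun s' hs' => (setv_ne vn z hs' _).symm)
          have a1 := hG.ar jj _ z1 (by rw [z2, z3, hW'])
          have k1 := dv_conj vn j₀ (ConjOK.kn c jj (.store j₀' s r₀) hI hw) n3 a1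
          exact dv_next hvn (StepOK.ka c jj) hx' k1
      | inc r => simp only [writesArr] at hw
      | dec r => simp only [writesArr] at hw
      | mov r s => simp only [writesArr] at hw
      | jz r L => simp only [writesArr] at hw
      | load r j s => simp only [writesArr] at hw
      | halt b => simp only [writesArr] at hw
    · have hW' : sv vn x' sW = C.mem jj.val (sv vn x' sA) := by
        rw [hW, exec_mem_of_not_writes I C hw]
      have a1 := hG.ar jj _ z1 (by rw [z2, z3, hW'])
      have k1 := dv_conj vn j₀ (ConjOK.ka c jj I hI hw) (hpcz _ z1) a1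
      exact dv_next hvn (StepOK.ka c jj) hx' k1

end Vale.Agent.Lib.P310.Full
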