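import Vale.Agent.Lib.P310.Full.Digits

/-!
# The tableau of a machine program as derivation rules over digit registers

The registers form four slots of `e` digits each: the time, an address, a value and a second
address. The control states say which fact about the run of the machine the slots describe.
-/

namespace Vale.Agent.Lib.P310.Full

/-- The time slot. -/
abbrev sT : Fin 4 := 0
/-- The address slot. -/
abbrev sA : Fin 4 := 1
/-- The value slot. -/
abbrev sW : Fin 4 := 2
/-- The second address slot. -/
abbrev sU : Fin 4 := 3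

/-- The control states. -/
inductive HState (L τ J e : ℕ) : Type
  | pc (c : Fin L)
  | rg (r : Fin τ)
  | ra (r : Fin τ)
  | ru (r : Fin τ)
  | ar (j : Fin J)
  | kr (c : Fin L) (r : Fin τ)
  | ka (c : Fin L) (j : Fin J)
  | s1 (c : Fin L)
  | wr (c : Fin L)
  | go (c : Fin L)
  | l1 (c : Fin L)
  | n1 (c : Fin L)
  | n2 (c : Fin L)
  | cp (b : Bool) (r : Fin τ) (i : Fin (e + 1))
  | ge
  | acc
  | dead
  deriving DecidableEq, Fintype

/-- A rule over slots. -/
structure TRule (V : Type) (e : ℕ) (H : Type) where
  prem₁ : Option H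
  prem₂ : Option H
  guard : Fin 4 → Fin e → Option V
  add : Fin 4 → Fin e → V
  concl : H

/-- The derivable facts of a set of rules. -/
inductive TDer {V : Type} {e : ℕ} {H : Type} [Add V] (R : TRule V e H → Prop) :
    H → (Fin 4 → Fin e → V) → Prop
  | step (r : TRule V e H) (hr : R r) (x : Fin 4 → Fin e → V)
      (hg : ∀ s i a, r.guard s i = some a → x s i = a)
      (h₁ : ∀ q, r.prem₁ = some q → TDer R q x)
      (h₂ : ∀ q, r.prem₂ = some q → TDer R q x) :
      TDer R r.concl (fun s i => x s i + r.add s i)

/-- The register read by an instruction that changes or tests a register. -/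
def srcOf : Instr → ℕ
  | .inc r => r
  | .dec r => r
  | .mov _ s => s
  | .jz r _ => r
  | _ => 0

/-- The instructions that read a register through `srcOf`. -/
def usesSrc : Instr → Prop
  | .inc _ => True
  | .dec _ => True
  | .mov _ _ => True
  | .jz _ _ => True
  | _ => False

/-- The address register of a memory instruction. -/
def addrOf : Instr → ℕ
  | .load _ _ s => s
  | .store _ s _ => s
  | _ => 0

/-- The memory instructions. -/
def isMem : Instr → Prop
  | .load _ _ _ => True
  | .store _ _ _ => True
  | _ => False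

/-- The store instructions. -/
def isStore : Instr → Prop
  | .store _ _ _ => True
  | _ => False

/-- An instruction writes a register. -/
def writesReg : Instr → ℕ → Prop
  | .inc r, r' => r' = r
  | .dec r, r' => r' = r
  | .mov r _, r' => r' = r
  | .load r _ _, r' => r' = r
  | _, _ => False

/-- An instruction writes an array. -/
def writesArr : Instr → ℕ → Prop
  | .store j _ _, j' => j' = j
  | _, _ => False

/-- The instructions after which the next instruction follows. -/
def isSeq : Instr → Prop
  | .jz _ _ => False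
  | .halt _ => False
  | _ => True

section Valid

variable {τ J e : ℕ} (Pg : List Instr)

/-- The rules with two premises. -/
inductive ConjOK : HState Pg.length τ J e → HState Pg.length τ J e → HState Pg.length τ J e → Prop
  | s1 (c : Fin Pg.length) (r : Fin τ) (I : Instr) (hI : Pg[c.val]? = some I) (hu : usesSrc I)
      (h : r.val = srcOf I) : ConjOK (.pc c) (.rg r) (.s1 c)
  | kr (c : Fin Pg.length) (r : Fin τ) (I : Instr) (hI : Pg[c.val]? = some I)
      (h : ¬ writesReg I r.val) : ConjOK (.pc c) (.rg r) (.kr c r)
  | ka (c : Fin Pg.length) (j : Fin J) (I : Instr) (hI : Pg[c.val]? = some I)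
      (h : ¬ writesArr I j.val) : ConjOK (.pc c) (.ar j) (.ka c j)
  | kn (c : Fin Pg.length) (j : Fin J) (I : Instr) (hI : Pg[c.val]? = some I)
      (h : writesArr I j.val) : ConjOK (.n2 c) (.ar j) (.ka c j)
  | l1 (c : Fin Pg.length) (s : Fin τ) (I : Instr) (hI : Pg[c.val]? = some I) (hm : isMem I)
      (h : s.val = addrOf I) : ConjOK (.pc c) (.ra s) (.l1 c)
  | n1 (c : Fin Pg.length) (s : Fin τ) (I : Instr) (hI : Pg[c.val]? = some I) (hm : isStore I)
      (h : s.val = addrOf I) : ConjOK (.pc c) (.ru s) (.n1 c)
  | wrL (c : Fin Pg.length) (r s : ℕ) (j : Fin J) (hI : Pg[c.val]? = some (.load r j.val s)) :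
      ConjOK (.l1 c) (.ar j) (.wr c)
  | wrS (c : Fin Pg.length) (j s : ℕ) (r : Fin τ) (hI : Pg[c.val]? = some (.store j s r.val)) :
      ConjOK (.l1 c) (.rg r) (.wr c)

/-- The rules that add one to a slot. -/
inductive StepOK : Fin 4 → HState Pg.length τ J e → HState Pg.length τ J e → Prop
  | kr (c : Fin Pg.length) (r : Fin τ) : StepOK sT (.kr c r) (.rg r)
  | ka (c : Fin Pg.length) (j : Fin J) : StepOK sT (.ka c j) (.ar j)
  | go (c : Fin Pg.length) : StepOK sT (.go c) (.pc c)
  | wrR (c : Fin Pg.length) (r : Fin τ) (I : Instr) (hI : Pg[c.val]? = some I)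
      (h : writesReg I r.val) : StepOK sT (.wr c) (.rg r)
  | wrA (c : Fin Pg.length) (j : Fin J) (I : Instr) (hI : Pg[c.val]? = some I)
      (h : writesArr I j.val) : StepOK sT (.wr c) (.ar j)
  | inc (c : Fin Pg.length) (r : ℕ) (hI : Pg[c.val]? = some (.inc r)) : StepOK sW (.s1 c) (.wr c)
  | ge : StepOK sA .ge .ge

/-- The rules that subtract one from the value slot. -/
inductive BackOK : HState Pg.length τ J e → HState Pg.length τ J e → Prop
  | dec (c : Fin Pg.length) (r : ℕ) (hI : Pg[c.val]? = some (.dec r)) : BackOK (.s1 c) (.wr c)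

/-- The rules with one premise and no guard. -/
inductive MoveOK : HState Pg.length τ J e → HState Pg.length τ J e → Prop
  | mov (c : Fin Pg.length) (r s : ℕ) (hI : Pg[c.val]? = some (.mov r s)) : MoveOK (.s1 c) (.wr c)
  | next (c c' : Fin Pg.length) (I : Instr) (hI : Pg[c.val]? = some I) (hs : isSeq I)
      (h : c'.val = c.val + 1) : MoveOK (.pc c) (.go c')
  | stay (c : Fin Pg.length) (b : Bool) (hI : Pg[c.val]? = some (.halt b)) : MoveOK (.pc c) (.go c)
  | acc (c : Fin Pg.length) (hI : Pg[c.val]? = some (.halt true)) : MoveOK (.pc c) .acc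
  | cp0 (b : Bool) (r : Fin τ) : MoveOK (.rg r) (.cp b r 0)
  | cpA (r : Fin τ) : MoveOK (.cp false r (Fin.last e)) (.ra r)
  | cpU (r : Fin τ) : MoveOK (.cp true r (Fin.last e)) (.ru r)

/-- The rules with one premise and the guard that the value slot is zero. -/
inductive ZeroOK : HState Pg.length τ J e → HState Pg.length τ J e → Prop
  | dec (c : Fin Pg.length) (r : ℕ) (hI : Pg[c.val]? = some (.dec r)) : ZeroOK (.s1 c) (.wr c)
  | jz (c c' : Fin Pg.length) (r : ℕ) (hI : Pg[c.val]? = some (.jz r c'.val)) :
      ZeroOK (.s1 c) (.go c')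
  | ge (j : Fin J) (hj : j.val = 0) : ZeroOK .ge (.ar j)

/-- The rules with one premise and the guard that a digit of the value slot is not zero. -/
inductive NzOK : HState Pg.length τ J e → HState Pg.length τ J e → Prop
  | jz (c c' : Fin Pg.length) (r L : ℕ) (hI : Pg[c.val]? = some (.jz r L))
      (h : c'.val = c.val + 1) : NzOK (.s1 c) (.go c')

/-- The slots that are free for a control state. -/
inductive FreeOK : HState Pg.length τ J e → Fin 4 → Prop
  | pc (c : Fin Pg.length) : FreeOK (.pc c) sW
  | rg (r : Fin τ) : FreeOK (.rg r) sA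
  | ra (r : Fin τ) : FreeOK (.ra r) sW
  | ru (r : Fin τ) : FreeOK (.ru r) sW
  | n2 (c : Fin Pg.length) : FreeOK (.n2 c) sU
  | acc : FreeOK .acc sT

end Valid

/-- The indices of the rules. -/
inductive RuleIdx (L τ J e : ℕ) (V : Type) : Type
  | init (h : HState L τ J e)
  | conj (A B C : HState L τ J e)
  | move (A C : HState L τ J e)
  | carry (s : Fin 4) (A C : HState L τ J e) (i : Fin e) (d : V)
  | back (A C : HState L τ J e) (i : Fin e) (d : V)
  | free (A : HState L τ J e) (s : Fin 4) (i : Fin e) (d : V)
  | zero (A C : HState L τ J e)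
  | nz (A C : HState L τ J e) (i : Fin e) (d : V)
  | copy (b : Bool) (r : Fin τ) (i : Fin e) (d : V)
  | neq (c : Fin L) (i : Fin e) (d d' : V)

/-- The equivalence of the indices with a sum type. -/
def ruleIdxEquiv (L τ J e : ℕ) (V : Type) :
    (HState L τ J e ⊕ (HState L τ J e × HState L τ J e × HState L τ J e) ⊕
      (HState L τ J e × HState L τ J e) ⊕
      (Fin 4 × HState L τ J e × HState L τ J e × Fin e × V) ⊕
      (HState L τ J e × HState L τ J e × Fin e × V) ⊕
      (HState L τ J e × Fin 4 × Fin e × V) ⊕
      (HState L τ J e × HState L τ J e) ⊕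
      (HState L τ J e × HState L τ J e × Fin e × V) ⊕
      (Bool × Fin τ × Fin e × V) ⊕
      (Fin L × Fin e × V × V)) ≃ RuleIdx L τ J e V where
  toFun
    | .inl h => .init h
    | .inr (.inl (A, B, C)) => .conj A B C
    | .inr (.inr (.inl (A, C))) => .move A C
    | .inr (.inr (.inr (.inl (s, A, C, i, d)))) => .carry s A C i d
    | .inr (.inr (.inr (.inr (.inl (A, C, i, d))))) => .back A C i d
    | .inr (.inr (.inr (.inr (.inr (.inl (A, s, i, d)))))) => .free A s i d
    | .inr (.inr (.inr (.inr (.inr (.inr (.inl (A, C))))))) => .zero A C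
    | .inr (.inr (.inr (.inr (.inr (.inr (.inr (.inl (A, C, i, d)))))))) => .nz A C i d
    | .inr (.inr (.inr (.inr (.inr (.inr (.inr (.inr (.inl (b, r, i, d))))))))) => .copy b r i d
    | .inr (.inr (.inr (.inr (.inr (.inr (.inr (.inr (.inr (c, i, d, d'))))))))) => .neq c i d d'
  invFun
    | .init h => .inl h
    | .conj A B C => .inr (.inl (A, B, C))
    | .move A C => .inr (.inr (.inl (A, C)))
    | .carry s A C i d => .inr (.inr (.inr (.inl (s, A, C, i, d))))
    | .back A C i d => .inr (.inr (.inr (.inr (.inl (A, C, i, d)))))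
    | .free A s i d => .inr (.inr (.inr (.inr (.inr (.inl (A, s, i, d))))))
    | .zero A C => .inr (.inr (.inr (.inr (.inr (.inr (.inl (A, C)))))))
    | .nz A C i d => .inr (.inr (.inr (.inr (.inr (.inr (.inr (.inl (A, C, i, d))))))))
    | .copy b r i d => .inr (.inr (.inr (.inr (.inr (.inr (.inr (.inr (.inl (b, r, i, d)))))))))
    | .neq c i d d' => .inr (.inr (.inr (.inr (.inr (.inr (.inr (.inr (.inr (c, i, d, d')))))))))
  left_inv := by
    rintro (_ | ⟨_, _, _⟩ | ⟨_, _⟩ | ⟨_, _, _, _, _⟩ | ⟨_, _, _, _⟩ | ⟨_, _, _, _⟩ | ⟨_, _⟩ |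
      ⟨_, _, _, _⟩ | ⟨_, _, _, _⟩ | ⟨_, _, _, _⟩) <;> rfl
  right_inv := by
    rintro (_ | _ | _ | _ | _ | _ | _ | _ | _ | _) <;> rfl

section Rules

variable {V : Type} [AddCommGroup V] [Fintype V] (vn : V ≃ Fin (Fintype.card V)) {e : ℕ}

/-- The digit with the largest value. -/
noncomputable def maxV : V :=
  vn.symm ⟨Fintype.card V - 1, Nat.sub_lt card_pos_V (by omega)⟩

/-- The next digit. -/
noncomputable def succV (d : V) : V :=
  if h : ((vn d : Fin _) : ℕ) + 1 < Fintype.card V then vn.symm ⟨_, h⟩ else d

/-- The guard of the rule that adds one to slot `s`: digit `i` is `d`, lower digits are maximal. -/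
noncomputable def carryG (s : Fin 4) (i : Fin e) (d : V) : Fin 4 → Fin e → Option V :=
  fun s' i' => if s' = s then (if i' = i then some d else if i' < i then some (maxV vn) else none)
    else none

/-- The translation of the rule that adds one to slot `s`. -/
noncomputable def carryA (s : Fin 4) (i : Fin e) (d : V) : Fin 4 → Fin e → V :=
  fun s' i' => if s' = s then (if i' = i then succV vn d - d else if i' < i then 0 - maxV vn else 0)
    else 0

/-- The guard of the rule that subtracts one from slot `s`. -/
noncomputable def backG (s : Fin 4) (i : Fin e) (d : V) : Fin 4 → Fin e → Option V :=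
  fun s' i' => if s' = s then (if i' = i then some (succV vn d) else if i' < i then some 0 else none)
    else none

/-- The translation of the rule that subtracts one from slot `s`. -/
noncomputable def backA (s : Fin 4) (i : Fin e) (d : V) : Fin 4 → Fin e → V :=
  fun s' i' => if s' = s then (if i' = i then d - succV vn d else if i' < i then maxV vn - 0 else 0)
    else 0

/-- The guard that a slot holds a number. -/
noncomputable def numG (s : Fin 4) (n : ℕ) : Fin 4 → Fin e → Option V :=
  fun s' i => if s' = s then some (dig vn n i) else none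

/-- The guards of two rules together. -/
def gOr (g₁ g₂ : Fin 4 → Fin e → Option V) : Fin 4 → Fin e → Option V :=
  fun s i => (g₁ s i).or (g₂ s i)

/-- The guard that one digit has a given value. -/
noncomputable def gDig (s : Fin 4) (i : Fin e) (d : V) : Fin 4 → Fin e → Option V :=
  fun s' i' => if s' = s ∧ i' = i then some d else none

/-- The translation that adds `d` to one digit. -/
noncomputable def oneA (s : Fin 4) (i : Fin e) (d : V) : Fin 4 → Fin e → V :=
  fun s' i' => if s' = s ∧ i' = i then d else 0

variable {L τ J : ℕ}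

/-- The rule that never fires. -/
def deadRule : TRule V e (HState L τ J e) :=
  ⟨some .dead, none, fun _ _ => none, fun _ _ => 0, .dead⟩

open Classical in
/-- The rule with an index. `m` is the length of the input. -/
noncomputable def ruleOf (Pg : List Instr) (m : ℕ) :
    RuleIdx Pg.length τ J e V → TRule V e (HState Pg.length τ J e)
  | .init h =>
      match h with
      | .pc c => if c.val = 0 then ⟨none, none, numG vn sT 0, fun _ _ => 0, .pc c⟩ else deadRule
      | .rg r =>
          ⟨none, none, gOr (numG vn sT 0) (numG vn sW (if r.val = 0 then m else 0)),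
            fun _ _ => 0, .rg r⟩
      | .ar j =>
          if j.val = 0 then deadRule
          else ⟨none, none, gOr (numG vn sT 0) (numG vn sW 0), fun _ _ => 0, .ar j⟩
      | .ge => ⟨none, none, gOr (numG vn sT 0) (numG vn sA m), fun _ _ => 0, .ge⟩
      | _ => deadRule
  | .conj A B C =>
      if ConjOK Pg A B C then ⟨some A, some B, fun _ _ => none, fun _ _ => 0, C⟩ else deadRule
  | .move A C =>
      if MoveOK Pg A C then ⟨some A, none, fun _ _ => none, fun _ _ => 0, C⟩ else deadRule
  | .carry s A C i d =>
      if StepOK Pg s A C ∧ ((vn d : Fin _) : ℕ) + 1 < Fintype.card V then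
        ⟨some A, none, carryG vn s i d, carryA vn s i d, C⟩
      else deadRule
  | .back A C i d =>
      if BackOK Pg A C ∧ ((vn d : Fin _) : ℕ) + 1 < Fintype.card V then
        ⟨some A, none, backG vn sW i d, backA vn sW i d, C⟩
      else deadRule
  | .free A s i d =>
      if FreeOK Pg A s then ⟨some A, none, fun _ _ => none, oneA s i d, A⟩ else deadRule
  | .zero A C =>
      if ZeroOK Pg A C then ⟨some A, none, numG vn sW 0, fun _ _ => 0, C⟩ else deadRule
  | .nz A C i d =>
      if NzOK Pg A C ∧ d ≠ 0 then ⟨some A, none, gDig sW i d, fun _ _ => 0, C⟩ else deadRule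
  | .copy b r i d =>
      ⟨some (.cp b r i.castSucc), none, gOr (gDig (if b then sU else sA) i d) (gDig sW i d),
        fun _ _ => 0, .cp b r i.succ⟩
  | .neq c i d d' =>
      if d ≠ d' then ⟨some (.n1 c), none, gOr (gDig sA i d) (gDig sU i d'), fun _ _ => 0, .n2 c⟩
      else deadRule

/-- The rule for a cell of the input: at time zero the array `0` holds `v` at address `a`. -/
noncomputable def inRule (j₀ : Fin J) (Pg : List Instr) (a v : ℕ) :
    TRule V e (HState Pg.length τ J e) :=
  ⟨none, none, gOr (numG vn sT 0) (gOr (numG vn sA a) (numG vn sW v)), fun _ _ => 0, .ar j₀⟩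

/-- The rules of the tableau of a program on an input of length `m` with cells `xi`. -/
def TabRule (j₀ : Fin J) (Pg : List Instr) (m : ℕ) (xi : ℕ → ℕ)
    (r : TRule V e (HState Pg.length τ J e)) : Prop :=
  (∃ i, r = ruleOf vn Pg m i) ∨ ∃ a, a < m ∧ r = inRule vn j₀ Pg a (xi a)

end Rules

end Vale.Agent.Lib.P310.Full
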