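import Vale.Agent.Lib.P310.Full.TabRules

/-!
# Derived rules of the tableau
-/

namespace Vale.Agent.Lib.P310.Full

variable {V : Type} [AddCommGroup V] [Fintype V] (vn : V ≃ Fin (Fintype.card V)) {e : ℕ}
  {τ J : ℕ} {Pg : List Instr} {m : ℕ} {xi : ℕ → ℕ} (j₀ : Fin J)

/-- Shorthand for derivability. -/
abbrev Dv (h : HState Pg.length τ J e) (x : Fin 4 → Fin e → V) : Prop :=
  TDer (TabRule vn j₀ Pg m xi) h x

lemma dv_rule {r : TRule V e (HState Pg.length τ J e)} (hr : TabRule vn j₀ Pg m xi r)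
    {x : Fin 4 → Fin e → V} (hg : GHolds r.guard x)
    (h₁ : ∀ q, r.prem₁ = some q → Dv (m := m) (xi := xi) vn j₀ q x)
    (h₂ : ∀ q, r.prem₂ = some q → Dv (m := m) (xi := xi) vn j₀ q x)
    {q : HState Pg.length τ J e} {x' : Fin 4 → Fin e → V} (hq : r.concl = q)
    (hx' : (fun s i => x s i + r.add s i) = x') : Dv (m := m) (xi := xi) vn j₀ q x' := by
  subst hq hx'
  exact TDer.step r hr x hg h₁ h₂

lemma dv_conj {A B C : HState Pg.length τ J e} (hok : ConjOK Pg A B C) {x : Fin 4 → Fin e → V}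
    (hA : Dv (m := m) (xi := xi) vn j₀ A x) (hB : Dv (m := m) (xi := xi) vn j₀ B x) :
    Dv (m := m) (xi := xi) vn j₀ C x := by
  have hr : ruleOf vn Pg m (.conj A B C) =
      ⟨some A, some B, fun _ _ => none, fun _ _ => 0, C⟩ := if_pos hok
  refine dv_rule vn j₀ (r := ruleOf vn Pg m (.conj A B C)) (Or.inl ⟨_, rfl⟩) (x := x) ?_ ?_ ?_ ?_ ?_
  · rw [hr]
    intro s i a h
    simp at h
  · rw [hr]
    intro q h
    cases h
    exact hA
  · rw [hr]
    intro q h
    cases h
    exact hB
  · rw [hr]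
  · rw [hr]
    exact add_zero_fun x

lemma dv_move {A C : HState Pg.length τ J e} (hok : MoveOK Pg A C) {x : Fin 4 → Fin e → V}
    (hA : Dv (m := m) (xi := xi) vn j₀ A x) : Dv (m := m) (xi := xi) vn j₀ C x := by
  have hr : ruleOf vn Pg m (.move A C) =
      ⟨some A, none, fun _ _ => none, fun _ _ => 0, C⟩ := if_pos hok
  refine dv_rule vn j₀ (r := ruleOf vn Pg m (.move A C)) (Or.inl ⟨_, rfl⟩) (x := x) ?_ ?_ ?_ ?_ ?_
  · rw [hr]
    intro s i a h
    simp at h
  · rw [hr]
    intro q h
    cases h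
    exact hA
  · rw [hr]
    intro q h
    cases h
  · rw [hr]
  · rw [hr]
    exact add_zero_fun x

variable (hvn : ((vn 0 : Fin _) : ℕ) = 0)

include hvn in
lemma dv_carry {s : Fin 4} {A C : HState Pg.length τ J e} (hok : StepOK Pg s A C)
    {x : Fin 4 → Fin e → V} (hA : Dv (m := m) (xi := xi) vn j₀ A x)
    (hn : sv vn x s + 1 < Fintype.card V ^ e) :
    Dv (m := m) (xi := xi) vn j₀ C (setv vn x s (sv vn x s + 1)) := by
  obtain ⟨i, d, hd, hg⟩ := carry_guard vn x s hn
  have hr : ruleOf vn Pg m (.carry s A C i d) =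
      ⟨some A, none, carryG vn s i d, carryA vn s i d, C⟩ := if_pos ⟨hok, hd⟩
  refine dv_rule vn j₀ (r := ruleOf vn Pg m (.carry s A C i d)) (Or.inl ⟨_, rfl⟩) (x := x)
    ?_ ?_ ?_ ?_ ?_
  · rw [hr]
    exact hg
  · rw [hr]
    intro q h
    cases h
    exact hA
  · rw [hr]
    intro q h
    cases h
  · rw [hr]
  · rw [hr]
    exact carry_eq_setv vn hvn hg hd

include hvn in
lemma dv_back {A C : HState Pg.length τ J e} (hok : BackOK Pg A C)
    {x : Fin 4 → Fin e → V} (hn : sv vn x sW + 1 < Fintype.card V ^ e)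
    (hA : Dv (m := m) (xi := xi) vn j₀ A (setv vn x sW (sv vn x sW + 1))) :
    Dv (m := m) (xi := xi) vn j₀ C x := by
  obtain ⟨i, d, hd, hg, hx⟩ := back_guard vn hvn x sW hn
  have hr : ruleOf vn Pg m (.back A C i d) =
      ⟨some A, none, backG vn sW i d, backA vn sW i d, C⟩ := if_pos ⟨hok, hd⟩
  refine dv_rule vn j₀ (r := ruleOf vn Pg m (.back A C i d)) (Or.inl ⟨_, rfl⟩)
    (x := setv vn x sW (sv vn x sW + 1)) ?_ ?_ ?_ ?_ ?_
  · rw [hr]
    exact hg
  · rw [hr]
    intro q h
    cases h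
    exact hA
  · rw [hr]
    intro q h
    cases h
  · rw [hr]
  · rw [hr]
    exact hx

lemma dv_free_one {A : HState Pg.length τ J e} {s : Fin 4} (hok : FreeOK Pg A s)
    {x : Fin 4 → Fin e → V} (i : Fin e) (d : V) (hA : Dv (m := m) (xi := xi) vn j₀ A x) :
    Dv (m := m) (xi := xi) vn j₀ A (fun s' i' => x s' i' + oneA s i d s' i') := by
  have hr : ruleOf vn Pg m (.free A s i d) =
      ⟨some A, none, fun _ _ => none, oneA s i d, A⟩ := if_pos hok
  refine dv_rule vn j₀ (r := ruleOf vn Pg m (.free A s i d)) (Or.inl ⟨_, rfl⟩) (x := x)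
    ?_ ?_ ?_ ?_ ?_
  · rw [hr]
    intro s i a h
    simp at h
  · rw [hr]
    intro q h
    cases h
    exact hA
  · rw [hr]
    intro q h
    cases h
  · rw [hr]
  · rw [hr]

/-- A free slot can be changed arbitrarily. -/
lemma dv_free {A : HState Pg.length τ J e} {s : Fin 4} (hok : FreeOK Pg A s)
    {x x' : Fin 4 → Fin e → V} (hA : Dv (m := m) (xi := xi) vn j₀ A x)
    (h : ∀ s', s' ≠ s → x' s' = x s') : Dv (m := m) (xi := xi) vn j₀ A x' := by
  have key : ∀ k, k ≤ e → Dv (m := m) (xi := xi) vn j₀ A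
      (fun s' i' => if s' = s ∧ i'.val < k then x' s' i' else x s' i') := by
    intro k
    induction k with
    | zero =>
      intro _
      have : (fun (s' : Fin 4) (i' : Fin e) => if s' = s ∧ i'.val < 0 then x' s' i' else x s' i') = x := by
        funext s' i'
        simp
      rw [this]
      exact hA
    | succ k ih =>
      intro hk
      have h1 := dv_free_one vn j₀ (x := fun s' i' => if s' = s ∧ i'.val < k then x' s' i' else x s' i')
        hok ⟨k, hk⟩ (x' s ⟨k, hk⟩ - x s ⟨k, hk⟩) (ih (by omega))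
      convert h1 using 1
      funext s' i'
      simp only [oneA]
      by_cases h2 : s' = s
      · subst h2
        by_cases h3 : i'.val < k
        · have h4 : i' ≠ ⟨k, hk⟩ := fun h5 => by
            rw [h5] at h3
            simp at h3
          have h5 : i'.val < k + 1 := by omega
          simp [h3, h4, h5]
        · by_cases h4 : i'.val = k
          · have h5 : i' = ⟨k, hk⟩ := Fin.ext h4
            subst h5
            simp
          · have h5 : ¬ i'.val < k + 1 := by omega
            have h6 : i' ≠ ⟨k, hk⟩ := fun h7 => h4 (by rw [h7])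
            simp [h3, h5, h6]
      · simp [h2]
  have h1 := key e le_rfl
  convert h1 using 1
  funext s' i'
  by_cases h2 : s' = s
  · subst h2
    simp
  · simp [h2, h s' h2]

lemma dv_zero {A C : HState Pg.length τ J e} (hok : ZeroOK Pg A C) {x : Fin 4 → Fin e → V}
    (hA : Dv (m := m) (xi := xi) vn j₀ A x) (hW : sv vn x sW = 0) :
    Dv (m := m) (xi := xi) vn j₀ C x := by
  have hr : ruleOf vn Pg m (.zero A C) =
      ⟨some A, none, numG vn sW 0, fun _ _ => 0, C⟩ := if_pos hok
  refine dv_rule vn j₀ (r := ruleOf vn Pg m (.zero A C)) (Or.inl ⟨_, rfl⟩) (x := x)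
    ?_ ?_ ?_ ?_ ?_
  · rw [hr]
    have := numG_of_sv vn (x := x) (s := sW)
    rwa [hW] at this
  · rw [hr]
    intro q h
    cases h
    exact hA
  · rw [hr]
    intro q h
    cases h
  · rw [hr]
  · rw [hr]
    exact add_zero_fun x

include hvn in
lemma dv_nz {A C : HState Pg.length τ J e} (hok : NzOK Pg A C) {x : Fin 4 → Fin e → V}
    (hA : Dv (m := m) (xi := xi) vn j₀ A x) (hW : sv vn x sW ≠ 0) :
    Dv (m := m) (xi := xi) vn j₀ C x := by
  obtain ⟨i, hi⟩ : ∃ i, x sW i ≠ 0 := by
    by_contra hcon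
    push Not at hcon
    apply hW
    have : x sW = fun _ => 0 := funext hcon
    unfold sv
    rw [this, dval_zero vn hvn]
  have hr : ruleOf vn Pg m (.nz A C i (x sW i)) =
      ⟨some A, none, gDig sW i (x sW i), fun _ _ => 0, C⟩ := if_pos ⟨hok, hi⟩
  refine dv_rule vn j₀ (r := ruleOf vn Pg m (.nz A C i (x sW i))) (Or.inl ⟨_, rfl⟩) (x := x)
    ?_ ?_ ?_ ?_ ?_
  · rw [hr]
    intro s i' a h
    simp only [gDig] at h
    split at h
    · rename_i h1
      obtain ⟨rfl, rfl⟩ := h1
      simpa using h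
    · simp at h
  · rw [hr]
    intro q h
    cases h
    exact hA
  · rw [hr]
    intro q h
    cases h
  · rw [hr]
  · rw [hr]
    exact add_zero_fun x

/-- The chain of copy rules. -/
lemma dv_cp (b : Bool) (r : Fin τ) {x : Fin 4 → Fin e → V}
    (hA : Dv (Pg := Pg) (m := m) (xi := xi) vn j₀ (HState.rg r) x)
    (hsame : x (if b then sU else sA) = x sW) :
    Dv (Pg := Pg) (m := m) (xi := xi) vn j₀ (HState.cp b r (Fin.last e)) x := by
  have key : ∀ k, ∀ (hk : k ≤ e), Dv (Pg := Pg) (m := m) (xi := xi) vn j₀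
      (HState.cp b r ⟨k, by omega⟩ : HState Pg.length τ J e) x := by
    intro k
    induction k with
    | zero =>
      intro _
      exact dv_move vn j₀ (MoveOK.cp0 b r) hA
    | succ k ih =>
      intro hk
      have h1 := ih (by omega)
      refine dv_rule vn j₀ (r := ruleOf vn Pg m (.copy b r ⟨k, hk⟩ (x sW ⟨k, hk⟩)))
        (Or.inl ⟨_, rfl⟩) (x := x) ?_ ?_ ?_ rfl ?_
      · intro s i a h
        simp only [ruleOf, gOr] at h
        by_cases h2 : s = (if b then sU else sA) ∧ i = ⟨k, hk⟩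
        · obtain ⟨rfl, rfl⟩ := h2
          simp only [gDig, and_self, if_true, Option.some_or, Option.some.injEq] at h
          rw [hsame, h]
        · by_cases h3 : s = sW ∧ i = ⟨k, hk⟩
          · obtain ⟨rfl, rfl⟩ := h3
            have hne : (sW : Fin 4) ≠ (if b then sU else sA) := by
              cases b <;> decide
            simpa [gDig, hne] using h
          · simp [gDig, h2, h3] at h
      · intro q h
        simp only [ruleOf, Option.some.injEq] at h
        subst h
        exact h1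
      · intro q h
        simp [ruleOf] at h
      · exact add_zero_fun x
  exact key e le_rfl

lemma dv_neq {c : Fin Pg.length} {x : Fin 4 → Fin e → V}
    (hA : Dv (Pg := Pg) (m := m) (xi := xi) vn j₀ (HState.n1 (τ := τ) (J := J) c) x)
    (hne : sv vn x sA ≠ sv vn x sU) :
    Dv (Pg := Pg) (m := m) (xi := xi) vn j₀ (HState.n2 (τ := τ) (J := J) c) x := by
  obtain ⟨i, hi⟩ : ∃ i, x sA i ≠ x sU i := by
    by_contra hcon
    push Not at hcon
    apply hne
    unfold sv
    rw [show x sA = x sU from funext hcon]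
  have hr : (ruleOf vn Pg m (.neq c i (x sA i) (x sU i)) : TRule V e (HState Pg.length τ J e)) =
      ⟨some (.n1 c), none, gOr (gDig sA i (x sA i)) (gDig sU i (x sU i)), fun _ _ => 0, .n2 c⟩ :=
    if_pos hi
  refine dv_rule vn j₀ (r := ruleOf vn Pg m (.neq c i (x sA i) (x sU i))) (Or.inl ⟨_, rfl⟩) (x := x)
    ?_ ?_ ?_ ?_ ?_
  · rw [hr]
    intro s i' a h
    simp only [gOr] at h
    by_cases h2 : s = sA ∧ i' = i
    · obtain ⟨rfl, rfl⟩ := h2
      simpa [gDig] using h
    · by_cases h3 : s = sU ∧ i' = i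
      · obtain ⟨rfl, rfl⟩ := h3
        simp only [gDig] at h
        split at h
        · rename_i h4
          exact absurd h4.1 (by decide)
        · simpa using h
      · simp [gDig, h2, h3] at h
  · rw [hr]
    intro q h
    cases h
    exact hA
  · rw [hr]
    intro q h
    cases h
  · rw [hr]
  · rw [hr]
    exact add_zero_fun x

end Vale.Agent.Lib.P310.Full
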