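import Vale.Agent.Lib.P310.Full.TabComplete

/-!
# The tableau decides acceptance
-/

namespace Vale.Agent.Lib.P310.Full

variable {V : Type} [AddCommGroup V] [Fintype V] {vn : V ≃ Fin (Fintype.card V)} {e : ℕ}
  {τ J : ℕ} {Pg : List Instr} {c₀ : Conf} {m : ℕ} {xi : ℕ → ℕ} {j₀ : Fin J}

lemma numG_sv_eq {s : Fin 4} {n : ℕ} {x : Fin 4 → Fin e → V} (h : sv vn x s = n) :
    GHolds (numG vn s n) x := by
  rw [← h]
  exact numG_of_sv vn

lemma cf_zero : cf Pg c₀ 0 = c₀ := rfl

variable (hvn : ((vn 0 : Fin _) : ℕ) = 0)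

include hvn in
/-- Addresses from the end of the input on. -/
lemma dv_ge (n : ℕ) (hn : m ≤ n) :
    ∀ x : Fin 4 → Fin e → V, sv vn x sT = 0 → sv vn x sA = n →
      Dv (Pg := Pg) (m := m) (xi := xi) (τ := τ) vn j₀ HState.ge x := by
  induction n, hn using Nat.le_induction with
  | base =>
    intro x h1 h2
    have hr : (ruleOf vn Pg m (.init .ge) : TRule V e (HState Pg.length τ J e)) =
        ⟨none, none, gOr (numG vn sT 0) (numG vn sA m), fun _ _ => 0, .ge⟩ := rfl
    refine dv_rule vn j₀ (r := ruleOf vn Pg m (.init .ge)) (Or.inl ⟨_, rfl⟩) (x := x) ?_ ?_ ?_ ?_ ?_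
    · rw [hr]
      exact gOr_of (numG_sv_eq h1) (numG_sv_eq h2)
    · rw [hr]
      intro q h
      cases h
    · rw [hr]
      intro q h
      cases h
    · rw [hr]
    · rw [hr]
      exact add_zero_fun x
  | succ n hn ih =>
    intro x h1 h2
    have hlt : n + 1 < Fintype.card V ^ e := by
      rw [← h2]
      exact sv_lt vn x sA
    set y := setv vn x sA n with hy
    have y1 : sv vn y sT = 0 := by rw [hy, sv_setv_ne vn x (by decide), h1]
    have y2 : sv vn y sA = n := sv_setv_same vn x sA (by omega)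
    have h3 := dv_carry vn j₀ hvn StepOK.ge (ih y y1 y2) (by rw [y2]; exact hlt)
    rw [y2, hy, setv_setv, ← h2, setv_sv] at h3
    exact h3

include hvn in
/-- The facts at time zero are derivable. -/
theorem Good.zero (hc₀ : InitOK c₀ m xi) (hj₀ : j₀.val = 0) (hm : m < Fintype.card V ^ e) :
    Good vn j₀ c₀ Pg m xi τ e 0 := by
  refine ⟨?_, ?_, ?_⟩
  · intro c hc x hx
    have hc0 : c.val = 0 := by
      rw [cf_zero, hc₀.pc] at hc
      exact hc.symm
    have hr : (ruleOf vn Pg m (.init (.pc c)) : TRule V e (HState Pg.length τ J e)) =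
        ⟨none, none, numG vn sT 0, fun _ _ => 0, .pc c⟩ := if_pos hc0
    refine dv_rule vn j₀ (r := ruleOf vn Pg m (.init (.pc c))) (Or.inl ⟨_, rfl⟩) (x := x) ?_ ?_ ?_ ?_ ?_
    · rw [hr]
      exact numG_sv_eq hx
    · rw [hr]
      intro q h
      cases h
    · rw [hr]
      intro q h
      cases h
    · rw [hr]
    · rw [hr]
      exact add_zero_fun x
  · intro r x hx hW
    rw [cf_zero, hc₀.reg] at hW
    have hr : (ruleOf vn Pg m (.init (.rg r)) : TRule V e (HState Pg.length τ J e)) =
        ⟨none, none, gOr (numG vn sT 0) (numG vn sW (if r.val = 0 then m else 0)),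
          fun _ _ => 0, .rg r⟩ := rfl
    refine dv_rule vn j₀ (r := ruleOf vn Pg m (.init (.rg r))) (Or.inl ⟨_, rfl⟩) (x := x) ?_ ?_ ?_ ?_ ?_
    · rw [hr]
      exact gOr_of (numG_sv_eq hx) (numG_sv_eq hW)
    · rw [hr]
      intro q h
      cases h
    · rw [hr]
      intro q h
      cases h
    · rw [hr]
    · rw [hr]
      exact add_zero_fun x
  · intro j x hx hW
    rw [cf_zero] at hW
    by_cases hj : j.val = 0
    · rw [hj, hc₀.mem0] at hW
      have hjj : j = j₀ := Fin.ext (hj.trans hj₀.symm)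
      subst hjj
      by_cases ha : sv vn x sA < m
      · rw [if_pos ha] at hW
        refine dv_rule vn j (r := inRule vn j Pg (sv vn x sA) (xi (sv vn x sA)))
          (Or.inr ⟨_, ha, rfl⟩) (x := x) ?_ ?_ ?_ rfl (add_zero_fun x)
        · exact gOr_of (numG_sv_eq hx) (gOr_of (numG_of_sv vn) (numG_sv_eq hW))
        · intro q h
          cases h
        · intro q h
          cases h
      · rw [if_neg ha] at hW
        exact dv_zero vn j (ZeroOK.ge j hj) (dv_ge hvn _ (by omega) x hx rfl) hW
    · rw [hc₀.mem _ _ hj] at hW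
      have hr : (ruleOf vn Pg m (.init (.ar j)) : TRule V e (HState Pg.length τ J e)) =
          ⟨none, none, gOr (numG vn sT 0) (numG vn sW 0), fun _ _ => 0, .ar j⟩ := if_neg hj
      refine dv_rule vn j₀ (r := ruleOf vn Pg m (.init (.ar j))) (Or.inl ⟨_, rfl⟩) (x := x)
        ?_ ?_ ?_ ?_ ?_
      · rw [hr]
        exact gOr_of (numG_sv_eq hx) (numG_sv_eq hW)
      · rw [hr]
        intro q h
        cases h
      · rw [hr]
        intro q h
        cases h
      · rw [hr]
      · rw [hr]
        exact add_zero_fun x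

include hvn in
/-- An accepting run is derivable. -/
theorem dv_acc (hc₀ : InitOK c₀ m xi) (hj₀ : j₀.val = 0) (hτ : ∀ I, I ∈ Pg → InstrOK τ J I)
    {B₀ t : ℕ} (hB : m ≤ B₀) (hxi : ∀ a, a < m → xi a ≤ B₀)
    (hN : B₀ + t + 1 < Fintype.card V ^ e) (hout : outcome Pg (cf Pg c₀ t) = some true) :
    Dv (Pg := Pg) (m := m) (xi := xi) (τ := τ) (e := e) vn j₀ HState.acc (fun _ _ => 0) := by
  have hbd := bound_cf (Pg := Pg) hc₀ hB hxi
  have key : ∀ s, s ≤ t → Good vn j₀ c₀ Pg m xi τ e s := by
    intro s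
    induction s with
    | zero => exact fun _ => Good.zero hvn hc₀ hj₀ (by omega)
    | succ s ih =>
      intro hs
      exact (ih (by omega)).succ hvn hτ (pc_lt_of_outcome hout s (by omega))
        (fun r => by
          have := (hbd s).1 r
          omega)
  have hG := key t le_rfl
  have hpc := pc_lt_of_outcome hout t le_rfl
  set c : Fin Pg.length := ⟨(cf Pg c₀ t).pc, hpc⟩ with hc
  have hI : Pg[c.val]? = some (.halt true) := by
    unfold outcome at hout
    cases h : Pg[(cf Pg c₀ t).pc]? with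
    | none =>
      rw [h] at hout
      simp at hout
    | some I =>
      rw [h] at hout
      cases I <;> simp_all
  set y : Fin 4 → Fin e → V := setv vn (fun _ _ => 0) sT t with hy
  have y1 : sv vn y sT = t := sv_setv_same vn _ sT (by omega)
  have h1 := hG.pc c rfl y y1
  have h2 := dv_move vn j₀ (MoveOK.acc c hI) h1
  exact dv_free vn j₀ FreeOK.acc h2 (fun s' hs' => by
    show (fun _ => (0 : V)) = _
    rw [hy, setv_ne vn _ hs'])

end Vale.Agent.Lib.P310.Full
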