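import Vale.Agent.Lib.P310.Full.Layout4
import Vale.Agent.Lib.P310.Full.TabMain

/-!
# The tableau as a register program
-/

namespace Vale.Agent.Lib.P310.Full

open FC Function

variable {V : Type} [AddCommGroup V] [Fintype V] [DecidableEq V] [HasVn V]

/-- The rule indices form a finite type. -/
noncomputable instance ruleIdxFintype (L τ J e : ℕ) (V : Type) [Fintype V] :
    Fintype (RuleIdx L τ J e V) :=
  Fintype.ofEquiv _ (ruleIdxEquiv L τ J e V)

/-- Registers as one vector. -/
def flatR {e : ℕ} (x : Fin 4 → Fin e → V) : Fin (4 * e) → V :=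
  fun j => x (finProdFinEquiv.symm j).1 (finProdFinEquiv.symm j).2

/-- Registers in four slots. -/
def unflatR {e : ℕ} (y : Fin (4 * e) → V) : Fin 4 → Fin e → V :=
  fun s i => y (finProdFinEquiv (s, i))

lemma unflat_flat {e : ℕ} (x : Fin 4 → Fin e → V) : unflatR (flatR x) = x := by
  funext s i
  simp [unflatR, flatR]

section Conv

variable {H : Type} {nQ e : ℕ} (eQ : H ≃ Fin nQ)

/-- A rule over slots as a rule of a register program. -/
def convR (r : TRule V e H) : Rule V (4 * e) nQ where
  prem₁ := r.prem₁.map eQ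
  prem₂ := r.prem₂.map eQ
  guard := fun j => r.guard (finProdFinEquiv.symm j).1 (finProdFinEquiv.symm j).2
  add := fun j => r.add (finProdFinEquiv.symm j).1 (finProdFinEquiv.symm j).2
  concl := eQ r.concl

end Conv

lemma derive_of_rule {ℓ : ℕ} {P : Prog V ℓ} (rn : Fin P.nR) (R : Rule V ℓ P.nQ) (h : P.rule rn = R)
    (x : Fin ℓ → V) (hg : R.guard.Holds x) (h₁ : ∀ q, R.prem₁ = some q → P.Derives q x)
    (h₂ : ∀ q, R.prem₂ = some q → P.Derives q x) :
    P.Derives R.concl (fun j => x j + R.add j) := by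
  subst h
  exact Prog.Derives.step rn x hg h₁ h₂

section Main

variable (Pg : List Instr) (τ J e : ℕ) (j₀ : Fin J) (ρ w m : ℕ)

/-- The numbers of the layout of a tableau. -/
noncomputable abbrev npOf (V : Type) [Fintype V] (j₀ : Fin J) : NP where
  ρ := ρ
  e := e
  w := w
  nQ := Fintype.card (HState Pg.length τ J e)
  nT := Fintype.card (RuleIdx Pg.length τ J e V)
  m := m
  aNum := (Fintype.equivFin (HState Pg.length τ J e) (.ar j₀)).val

/-- The rule of an input cell. -/
noncomputable def inRT (a v : ℕ) :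
    Rule V (4 * e) (npOf Pg τ J e ρ w m V j₀).nQ :=
  convR (Fintype.equivFin (HState Pg.length τ J e))
    (inRule HasVn.vn j₀ Pg a v : TRule V e (HState Pg.length τ J e))

/-- The rule of a table entry. -/
noncomputable def tRT (i : Fin (npOf Pg τ J e ρ w m V j₀).nT) :
    Rule V (4 * e) (npOf Pg τ J e ρ w m V j₀).nQ :=
  convR (Fintype.equivFin (HState Pg.length τ J e))
    (ruleOf HasVn.vn Pg m ((Fintype.equivFin (RuleIdx Pg.length τ J e V)).symm i) :
      TRule V e (HState Pg.length τ J e))

/-- The program of a tableau on an input. -/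
noncomputable abbrev progT (xi : ℕ → ℕ) : Prog V (4 * e) :=
  progX (npOf Pg τ J e ρ w m V j₀) (inRT Pg τ J e j₀ ρ w m) (tRT Pg τ J e j₀ ρ w m) xi

variable {Pg τ J e j₀ ρ w m}

lemma rule_cases (xi : ℕ → ℕ) (rn : Fin (m + Fintype.card (RuleIdx Pg.length τ J e V))) :
    ∃ r, TabRule HasVn.vn j₀ Pg m xi r ∧
      (progT (V := V) Pg τ J e j₀ ρ w m xi).rule rn =
        convR (Fintype.equivFin (HState Pg.length τ J e)) r := by
  by_cases h : rn.val < m
  · refine ⟨inRule HasVn.vn j₀ Pg rn.val (xi rn.val), Or.inr ⟨_, h, rfl⟩, ?_⟩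
    exact ruleX_lo (npOf Pg τ J e ρ w m V j₀) (inRT Pg τ J e j₀ ρ w m) (tRT Pg τ J e j₀ ρ w m) xi rn h
  · have hlt : rn.val - m < Fintype.card (RuleIdx Pg.length τ J e V) := by
      have := rn.isLt
      omega
    refine ⟨ruleOf HasVn.vn Pg m ((Fintype.equivFin (RuleIdx Pg.length τ J e V)).symm ⟨rn.val - m, hlt⟩),
      Or.inl ⟨_, rfl⟩, ?_⟩
    exact ruleX_hi (npOf Pg τ J e ρ w m V j₀) (inRT Pg τ J e j₀ ρ w m) (tRT Pg τ J e j₀ ρ w m) xi rn
      (by simpa [npOf] using h)

lemma rule_number (xi : ℕ → ℕ) {r : TRule V e (HState Pg.length τ J e)}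
    (hr : TabRule HasVn.vn j₀ Pg m xi r) :
    ∃ rn, (progT (V := V) Pg τ J e j₀ ρ w m xi).rule rn =
      convR (Fintype.equivFin (HState Pg.length τ J e)) r := by
  rcases hr with ⟨i, rfl⟩ | ⟨a, ha, rfl⟩
  · refine ⟨Fin.natAdd m (Fintype.equivFin _ i), ?_⟩
    have h0 : ruleX (npOf Pg τ J e ρ w m V j₀) (inRT Pg τ J e j₀ ρ w m) (tRT Pg τ J e j₀ ρ w m) xi
        (Fin.natAdd (npOf Pg τ J e ρ w m V j₀).m
          (Fintype.equivFin (RuleIdx Pg.length τ J e V) i : Fin (npOf Pg τ J e ρ w m V j₀).nT)) =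
        tRT Pg τ J e j₀ ρ w m (Fintype.equivFin (RuleIdx Pg.length τ J e V) i) := by
      unfold ruleX
      exact Fin.addCases_right _
    refine h0.trans ?_
    show convR _ (ruleOf HasVn.vn Pg m ((Fintype.equivFin (RuleIdx Pg.length τ J e V)).symm
      (Fintype.equivFin (RuleIdx Pg.length τ J e V) i))) = _
    rw [Equiv.symm_apply_apply]
  · refine ⟨⟨a, by simp only [npOf] at *; omega⟩, ?_⟩
    exact ruleX_lo (npOf Pg τ J e ρ w m V j₀) (inRT Pg τ J e j₀ ρ w m) (tRT Pg τ J e j₀ ρ w m) xi _ ha

/-- Derivations of the tableau are derivations of the program. -/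
theorem derives_of_tder (xi : ℕ → ℕ) {h : HState Pg.length τ J e} {x : Fin 4 → Fin e → V}
    (hd : TDer (TabRule HasVn.vn j₀ Pg m xi) h x) :
    (progT (V := V) Pg τ J e j₀ ρ w m xi).Derives (Fintype.equivFin _ h) (flatR x) := by
  induction hd with
  | step r hr x hg h₁ h₂ ih₁ ih₂ =>
    obtain ⟨rn, hrn⟩ := rule_number (ρ := ρ) (w := w) (m := m) xi hr
    refine derive_of_rule rn _ hrn (flatR x) ?_ ?_ ?_
    · intro j a hj
      exact hg _ _ _ hj
    · intro q hq
      obtain ⟨q', hq', rfl⟩ := Option.map_eq_some_iff.mp hq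
      exact ih₁ q' hq'
    · intro q hq
      obtain ⟨q', hq', rfl⟩ := Option.map_eq_some_iff.mp hq
      exact ih₂ q' hq'

/-- Derivations of the program are derivations of the tableau. -/
theorem tder_of_derives (xi : ℕ → ℕ) {q : Fin (progT (V := V) Pg τ J e j₀ ρ w m xi).nQ}
    {y : Fin (4 * e) → V}
    (hd : (progT (V := V) Pg τ J e j₀ ρ w m xi).Derives q y) :
    TDer (TabRule HasVn.vn j₀ Pg m xi) ((Fintype.equivFin (HState Pg.length τ J e)).symm q)
      (unflatR y) := by
  induction hd with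
  | step rn y hg h₁ h₂ ih₁ ih₂ =>
    obtain ⟨r, hr, he⟩ := rule_cases (ρ := ρ) (w := w) (m := m) xi rn
    have h3 := TDer.step r hr (unflatR y)
      (fun s i a hs => by
        have h4 : (((progT (V := V) Pg τ J e j₀ ρ w m xi).rule rn).guard) (finProdFinEquiv (s, i)) = some a := by
          rw [he]
          show r.guard (finProdFinEquiv.symm (finProdFinEquiv (s, i))).1
            (finProdFinEquiv.symm (finProdFinEquiv (s, i))).2 = some a
          rw [Equiv.symm_apply_apply]
          exact hs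
        exact hg _ _ h4)
      (fun q hq => by
        have h4 := ih₁ (Fintype.equivFin _ q) (by
          rw [he]
          show Option.map _ r.prem₁ = _
          rw [hq]
          rfl)
        rwa [Equiv.symm_apply_apply] at h4)
      (fun q hq => by
        have h4 := ih₂ (Fintype.equivFin _ q) (by
          rw [he]
          show Option.map _ r.prem₂ = _
          rw [hq]
          rfl)
        rwa [Equiv.symm_apply_apply] at h4)
    rw [he]
    have h5 : (fun s i => unflatR y s i + r.add s i) =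
        unflatR (fun j => y j + (convR (Fintype.equivFin (HState Pg.length τ J e)) r).add j) := by
      funext s i
      show y _ + r.add s i = y _ + r.add (finProdFinEquiv.symm (finProdFinEquiv (s, i))).1
        (finProdFinEquiv.symm (finProdFinEquiv (s, i))).2
      rw [Equiv.symm_apply_apply]
    rw [← h5]
    show TDer _ ((Fintype.equivFin (HState Pg.length τ J e)).symm
      (Fintype.equivFin (HState Pg.length τ J e) r.concl)) _
    rw [Equiv.symm_apply_apply]
    exact h3

lemma inCode_guard (a v : ℕ) (j : Fin (4 * e)) :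
    gvCode ((inRT (V := V) Pg τ J e j₀ ρ w m a v).guard j) =
      inCode (Fintype.card V) e (fun _ => v) a j.val := by
  have hs : (finProdFinEquiv.symm j).1.val = j.val / e := by
    simp [finProdFinEquiv, Fin.divNat]
  have hi : (finProdFinEquiv.symm j).2.val = j.val % e := by
    simp [finProdFinEquiv, Fin.modNat]
  have hdig : ∀ n (i : Fin e), (HasVn.vn (dig HasVn.vn n i : V) : Fin _).val =
      n / Fintype.card V ^ i.val % Fintype.card V := by
    intro n i
    simp [dig]
  unfold inCode
  rw [← hs, ← hi]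
  show gvCode ((gOr (numG HasVn.vn sT 0) (gOr (numG HasVn.vn sA a) (numG HasVn.vn sW v)))
    (finProdFinEquiv.symm j).1 (finProdFinEquiv.symm j).2) = _
  generalize (finProdFinEquiv.symm j).1 = s
  generalize (finProdFinEquiv.symm j).2 = i
  simp only [gOr, numG]
  fin_cases s
  · simp [gvCode, hdig, sT, sA, sW]
  · simp [gvCode, hdig, sT, sA, sW]
  · simp [gvCode, hdig, sT, sA, sW]
  · simp [gvCode, sT, sA, sW]

/-- The rules of the input cells of a tableau are as required. -/
lemma inputOK_T (hfit : (npOf Pg τ J e ρ w m V j₀).bPow (Fintype.card V) + e ≤ m) :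
    InputOK (npOf Pg τ J e ρ w m V j₀) (inRT (V := V) Pg τ J e j₀ ρ w m) where
  i1 := fun _ _ => rfl
  i2 := fun _ _ => rfl
  i3 := fun _ _ => rfl
  i4 := fun _ _ => rfl
  i5 := fun a v j => inCode_guard a v j
  fit := hfit
  aN := Fin.isLt _

end Main

end Vale.Agent.Lib.P310.Full
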