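import Vale.Agent.Lib.P310.Full.TabSound

/-!
# Soundness of the tableau, and the derived rules for completeness
-/

namespace Vale.Agent.Lib.P310.Full

variable {V : Type} [AddCommGroup V] [Fintype V] (vn : V ≃ Fin (Fintype.card V)) {e : ℕ}
  {τ J : ℕ} {Pg : List Instr} {c₀ : Conf} {m : ℕ} {xi : ℕ → ℕ} (j₀ : Fin J)

lemma add_zero_fun (x : Fin 4 → Fin e → V) : (fun s i => x s i + (0 : V)) = x := by
  funext s i
  simp

/-- Soundness of the tableau. -/
theorem inv_of_der (hvn : ((vn 0 : Fin _) : ℕ) = 0) (hc₀ : InitOK c₀ m xi) (hj₀ : j₀.val = 0)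
    (hm : m < Fintype.card V ^ e) (hxi : ∀ a, a < m → xi a < Fintype.card V ^ e)
    {h : HState Pg.length τ J e} {x : Fin 4 → Fin e → V}
    (hd : TDer (TabRule vn j₀ Pg m xi) h x) : Inv vn Pg c₀ m h x := by
  have he : 0 < Fintype.card V ^ e := by omega
  induction hd with
  | step r hr x hg h₁ h₂ ih₁ ih₂ =>
    rcases hr with ⟨i, rfl⟩ | ⟨a, ha, rfl⟩
    · cases i with
      | init h => exact inv_init vn hc₀ hm he h x hg ih₁
      | conj A B C =>
        by_cases hok : ConjOK Pg A B C
        · have hr : ruleOf vn Pg m (.conj A B C) =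
              ⟨some A, some B, fun _ _ => none, fun _ _ => 0, C⟩ := if_pos hok
          rw [hr] at ih₁ ih₂ ⊢
          simp only at ih₁ ih₂ ⊢
          rw [add_zero_fun]
          exact inv_conj vn hok (ih₁ _ rfl) (ih₂ _ rfl)
        · have hr : ruleOf vn Pg m (.conj A B C) = deadRule := if_neg hok
          rw [hr] at ih₁
          exact (ih₁ _ rfl).elim
      | move A C =>
        by_cases hok : MoveOK Pg A C
        · have hr : ruleOf vn Pg m (.move A C) =
              ⟨some A, none, fun _ _ => none, fun _ _ => 0, C⟩ := if_pos hok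
          rw [hr] at ih₁ ⊢
          simp only at ih₁ ⊢
          rw [add_zero_fun]
          exact inv_move vn hok (ih₁ _ rfl)
        · have hr : ruleOf vn Pg m (.move A C) = deadRule := if_neg hok
          rw [hr] at ih₁
          exact (ih₁ _ rfl).elim
      | carry s A C i d =>
        by_cases hok : StepOK Pg s A C ∧ ((vn d : Fin _) : ℕ) + 1 < Fintype.card V
        · have hr : ruleOf vn Pg m (.carry s A C i d) =
              ⟨some A, none, carryG vn s i d, carryA vn s i d, C⟩ := if_pos hok
          rw [hr] at ih₁ hg ⊢
          simp only at ih₁ hg ⊢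
          exact inv_carry vn hvn hok.1 hg hok.2 (ih₁ _ rfl)
        · have hr : ruleOf vn Pg m (.carry s A C i d) = deadRule := if_neg hok
          rw [hr] at ih₁
          exact (ih₁ _ rfl).elim
      | back A C i d =>
        by_cases hok : BackOK Pg A C ∧ ((vn d : Fin _) : ℕ) + 1 < Fintype.card V
        · have hr : ruleOf vn Pg m (.back A C i d) =
              ⟨some A, none, backG vn sW i d, backA vn sW i d, C⟩ := if_pos hok
          rw [hr] at ih₁ hg ⊢
          simp only at ih₁ hg ⊢
          exact inv_back vn hvn hok.1 hg hok.2 (ih₁ _ rfl)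
        · have hr : ruleOf vn Pg m (.back A C i d) = deadRule := if_neg hok
          rw [hr] at ih₁
          exact (ih₁ _ rfl).elim
      | free A s i d =>
        by_cases hok : FreeOK Pg A s
        · have hr : ruleOf vn Pg m (.free A s i d) =
              ⟨some A, none, fun _ _ => none, oneA s i d, A⟩ := if_pos hok
          rw [hr] at ih₁ ⊢
          simp only at ih₁ ⊢
          exact inv_free vn hok i d (ih₁ _ rfl)
        · have hr : ruleOf vn Pg m (.free A s i d) = deadRule := if_neg hok
          rw [hr] at ih₁
          exact (ih₁ _ rfl).elim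
      | zero A C =>
        by_cases hok : ZeroOK Pg A C
        · have hr : ruleOf vn Pg m (.zero A C) =
              ⟨some A, none, numG vn sW 0, fun _ _ => 0, C⟩ := if_pos hok
          rw [hr] at ih₁ hg ⊢
          simp only at ih₁ hg ⊢
          rw [add_zero_fun]
          exact inv_zero vn hvn hc₀ hok hg he (ih₁ _ rfl)
        · have hr : ruleOf vn Pg m (.zero A C) = deadRule := if_neg hok
          rw [hr] at ih₁
          exact (ih₁ _ rfl).elim
      | nz A C i d =>
        by_cases hok : NzOK Pg A C ∧ d ≠ 0
        · have hr : ruleOf vn Pg m (.nz A C i d) =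
              ⟨some A, none, gDig sW i d, fun _ _ => 0, C⟩ := if_pos hok
          rw [hr] at ih₁ hg ⊢
          simp only at ih₁ hg ⊢
          rw [add_zero_fun]
          exact inv_nz vn hvn hok.1 hg hok.2 (ih₁ _ rfl)
        · have hr : ruleOf vn Pg m (.nz A C i d) = deadRule := if_neg hok
          rw [hr] at ih₁
          exact (ih₁ _ rfl).elim
      | copy b r i d =>
        have hr : (ruleOf vn Pg m (.copy b r i d) : TRule V e (HState Pg.length τ J e)) =
            ⟨some (.cp b r i.castSucc), none, gOr (gDig (if b then sU else sA) i d) (gDig sW i d),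
              fun _ _ => 0, .cp b r i.succ⟩ := rfl
        rw [hr] at ih₁ hg ⊢
        simp only at ih₁ hg ⊢
        rw [add_zero_fun]
        exact inv_copy vn hg (ih₁ _ rfl)
      | neq c i d d' =>
        by_cases hok : d ≠ d'
        · have hr : (ruleOf vn Pg m (.neq c i d d') : TRule V e (HState Pg.length τ J e)) =
              ⟨some (.n1 c), none, gOr (gDig sA i d) (gDig sU i d'), fun _ _ => 0, .n2 c⟩ :=
            if_pos hok
          rw [hr] at ih₁ hg ⊢
          simp only at ih₁ hg ⊢
          rw [add_zero_fun]
          exact inv_neq vn hok hg (ih₁ _ rfl)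
        · have hr : (ruleOf vn Pg m (.neq c i d d') : TRule V e (HState Pg.length τ J e)) =
              deadRule := if_neg hok
          rw [hr] at ih₁
          exact (ih₁ _ rfl).elim
    · simp only [inRule] at hg ⊢
      rw [add_zero_fun]
      simp only [Inv]
      have h1 : sv vn x sT = 0 := sv_of_numG vn (gOr_left hg) he
      have h2 := gOr_right (fun t i => numG_disj' vn t i) hg
      have h3 : sv vn x sA = a := sv_of_numG vn (gOr_left h2) (by omega)
      have h4 : sv vn x sW = xi a :=
        sv_of_numG vn (gOr_right (numG_disj vn (by decide) _ _) h2) (hxi a ha)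
      rw [h1, h3, h4, hj₀]
      show c₀.mem 0 a = _
      rw [hc₀.mem0, if_pos ha]

end Vale.Agent.Lib.P310.Full
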